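import Vale.Agent.P028.Cnt

/-! Bad multipliers are rare. -/

namespace Vale.Agent.P028

open Finset Real

theorem bad_union {ι α : Type} (S : Finset α) (I : Finset ι) (P : ι → α → Prop) (f : α → ℝ)
    (K : ι → ℝ) (hf : ∀ a ∈ S, 0 ≤ f a) (h1 : ∀ a ∈ S, ∃ i ∈ I, P i a)
    (h2 : ∀ i ∈ I, ∀ S' : Finset α, (∀ a ∈ S', a ∈ S ∧ P i a) → ∑ a ∈ S', f a ≤ K i) :
    ∑ a ∈ S, f a ≤ ∑ i ∈ I, K i := by
  classical
  calc ∑ a ∈ S, f a ≤ ∑ a ∈ S, ∑ i ∈ I, if P i a then f a else 0 := by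
        refine sum_le_sum fun a ha => ?_
        obtain ⟨i, hi, hP⟩ := h1 a ha
        refine le_trans ?_ (single_le_sum (f := fun i => if P i a then f a else 0)
          (fun j _ => ?_) hi)
        · simp [hP]
        · split_ifs
          · exact hf a ha
          · exact le_rfl
    _ = ∑ i ∈ I, ∑ a ∈ S.filter (P i), f a := by
        rw [sum_comm]
        exact sum_congr rfl fun i _ => (sum_filter _ _).symm
    _ ≤ _ := sum_le_sum fun i hi => h2 i hi _ fun a ha => mem_filter.1 ha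

theorem bad_fib (T : Finset (ℕ × ℕ)) (f : ℕ → ℝ) (K ζ : ℝ) (hf : ∀ a, 0 ≤ f a) (hK : 0 ≤ K)
    (hζ : ∀ S : Finset ℕ, (∀ n ∈ S, 0 < n) → ∑ n ∈ S, f n ≤ ζ) (hT : ∀ t ∈ T, 0 < t.2)
    (h : ∀ b, ∀ S : Finset ℕ, (∀ a ∈ S, (a, b) ∈ T) → ∑ a ∈ S, f a ≤ K) :
    ∑ t ∈ T, f t.1 * f t.2 ≤ K * ζ := by
  rw [← sum_fiberwise_of_maps_to (s := T) (t := T.image Prod.snd) (g := Prod.snd)
    fun t ht => mem_image_of_mem _ ht]
  calc ∑ b ∈ T.image Prod.snd, ∑ t ∈ T with t.2 = b, f t.1 * f t.2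
      ≤ ∑ b ∈ T.image Prod.snd, K * f b := by
        refine sum_le_sum fun b _ => ?_
        have e : ∑ t ∈ T with t.2 = b, f t.1 * f t.2 =
            (∑ a ∈ (T.filter fun t => t.2 = b).image Prod.fst, f a) * f b := by
          rw [sum_image, sum_mul]
          · exact sum_congr rfl fun t ht => by rw [(mem_filter.1 ht).2]
          · intro t ht t' ht' e
            exact Prod.ext e ((mem_filter.1 ht).2.trans (mem_filter.1 ht').2.symm)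
        rw [e]
        refine mul_le_mul_of_nonneg_right (h b _ fun a ha => ?_) (hf b)
        obtain ⟨t, ht, rfl⟩ := mem_image.1 ha
        rw [← (mem_filter.1 ht).2]
        exact (mem_filter.1 ht).1
    _ ≤ K * ζ := by
        rw [← mul_sum]
        refine mul_le_mul_of_nonneg_left (hζ _ fun n hn => ?_) hK
        obtain ⟨t, ht, rfl⟩ := mem_image.1 hn
        exact hT t ht

theorem bad_gap {γ y : ℝ} {M : ℕ} (hM : 1 ≤ M)
    (h : ∀ n : ℕ, 0 < n → Near (γ * n) (16 * y) → M ^ 9 ≤ n) {t k l n : ℕ} (hkl : k + l = 9)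
    (ht : 1 ≤ t) (ht' : t ≤ M ^ k) (hn : 0 < n) (hN : Near (γ * (t * n)) (16 * y)) :
    M ^ l ≤ n := by
  have h1 := h (t * n) (Nat.mul_pos ht hn) (by rwa [Nat.cast_mul])
  rw [← hkl, pow_add] at h1
  exact Nat.le_of_mul_le_mul_left (h1.trans (Nat.mul_le_mul_right n ht')) (by positivity)

theorem bad_sep {γ y β : ℝ} {M : ℕ} (hM : 1 ≤ M)
    (h : ∀ n : ℕ, 0 < n → Near (γ * n) (16 * y) → M ^ 9 ≤ n) {t k l : ℕ} (hkl : k + l = 9)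
    (ht : 1 ≤ t) (ht' : t ≤ M ^ k) (S : Finset ℕ)
    (hS : ∀ a ∈ S, M ^ l ≤ a ∧ Near (γ * (t * a - β)) (8 * y)) : Sep S ((M : ℝ) ^ l) := by
  refine ⟨fun a ha => by exact_mod_cast (hS a ha).1, fun a ha a' ha' hlt => ?_⟩
  have h1 := (hS a' ha').2.sub (hS a ha).2
  have h2 : γ * (t * a' - β) - γ * (t * a - β) = γ * (t * ((a' - a : ℕ) : ℝ)) := by
    rw [Nat.cast_sub hlt.le]
    ring
  rw [h2, show 8 * y + 8 * y = 16 * y by ring] at h1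
  have h3 := bad_gap hM h hkl ht ht' (Nat.sub_pos_of_lt hlt) h1
  rw [← Nat.cast_sub hlt.le]
  exact_mod_cast h3

/-- The first multiplier is responsible. -/
def BadL (γ y : ℝ) (M : ℕ) (X : ℝ) (a b : ℕ) : Prop :=
  (∃ t ∈ Icc 1 (M ^ 4), Near (γ * (t * a)) (8 * y)) ∨
  (∃ p ∈ Icc 1 (M ^ 2) ×ˢ Icc 1 (M ^ 2), M ^ 7 ≤ a ∧
    Near (γ * ((p.1 : ℝ) * a - p.2 * b)) (8 * y)) ∨ X < a

theorem bad_cases {γ y X : ℝ} {M a b : ℕ} (hM : 1 ≤ M) (hy : 0 < y)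
    (h : ∀ n : ℕ, 0 < n → Near (γ * n) (16 * y) → M ^ 9 ≤ n) (hG : ¬ Good γ y M X a b) :
    BadL γ y M X a b ∨ BadL γ y M X b a := by
  by_contra hc
  rw [not_or, BadL, BadL, not_or, not_or, not_or, not_or] at hc
  obtain ⟨⟨a1, a2, a3⟩, b1, b2, b3⟩ := hc
  have key : ∀ t t' a b : ℕ, t ≤ M ^ 2 → t' * b < t * a →
      Near (γ * ((t : ℝ) * a - t' * b)) (2 * y) → M ^ 7 ≤ a := fun t t' a b ht hlt hN => by
    have h1 := h (t * a - t' * b) (Nat.sub_pos_of_lt hlt) (by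
      rw [Nat.cast_sub hlt.le, Nat.cast_mul, Nat.cast_mul]
      exact hN.mono (by linarith))
    have h2 : M ^ 2 * M ^ 7 ≤ M ^ 2 * a := by
      rw [← pow_add]
      exact h1.trans ((Nat.sub_le _ _).trans (Nat.mul_le_mul_right a ht))
    exact Nat.le_of_mul_le_mul_left h2 (by positivity)
  refine hG ⟨fun t h1 h2 hN => a1 ⟨t, mem_Icc.2 ⟨h1, h2⟩, hN⟩,
    fun t h1 h2 hN => b1 ⟨t, mem_Icc.2 ⟨h1, h2⟩, hN⟩, fun t t' h1 h2 h3 h4 hne hN => ?_,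
    not_lt.1 a3, not_lt.1 b3⟩
  rcases hne.lt_or_gt with hlt | hlt
  · have hN' := hN.neg
    rw [show -(γ * ((t : ℝ) * a - t' * b)) = γ * ((t' : ℝ) * b - t * a) by ring] at hN'
    exact b2 ⟨(t', t), mem_product.2 ⟨mem_Icc.2 ⟨h3, h4⟩, mem_Icc.2 ⟨h1, h2⟩⟩,
      key t' t b a h4 hlt hN', hN'.mono (by linarith)⟩
  · exact a2 ⟨(t, t'), mem_product.2 ⟨mem_Icc.2 ⟨h1, h2⟩, mem_Icc.2 ⟨h3, h4⟩⟩,
      key t t' a b h2 hlt hN, hN.mono (by linarith)⟩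

theorem bad_left {ε ζ ζ' γ y X : ℝ} {M : ℕ} (h0 : 0 < ε) (hζ0 : 0 < ζ)
    (hζ : ∀ S : Finset ℕ, (∀ n ∈ S, 0 < n) → ∑ n ∈ S, (n : ℝ) ^ (-(1 + ε)) ≤ ζ)
    (hζ' : ∀ S : Finset ℕ, (∀ n ∈ S, 0 < n) → ∑ n ∈ S, (n : ℝ) ^ (-(1 + ε / 2)) ≤ ζ')
    (hM : 1 ≤ M) (hX : 1 ≤ X) (hy : 0 < y)
    (h : ∀ n : ℕ, 0 < n → Near (γ * n) (16 * y) → M ^ 9 ≤ n) (b : ℕ) (S : Finset ℕ)
    (hS : ∀ a ∈ S, 0 < a ∧ BadL γ y M X a b) :
    ∑ a ∈ S, (a : ℝ) ^ (-(1 + ε)) ≤ ζ / M + ζ / M + X ^ (-(ε / 2)) * ζ' := by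
  have hM' : (1 : ℝ) ≤ M := by exact_mod_cast hM
  have hf : ∀ a : ℕ, 0 ≤ (a : ℝ) ^ (-(1 + ε)) := fun a => by positivity
  have e1 : ∀ S' : Finset ℕ, (∀ a ∈ S', 0 < a ∧ ∃ t ∈ Icc 1 (M ^ 4), Near (γ * (t * a)) (8 * y)) →
      ∑ a ∈ S', (a : ℝ) ^ (-(1 + ε)) ≤ ζ / M := fun S' hS' => by
    refine (bad_union S' (Icc 1 (M ^ 4)) (fun t a => Near (γ * (t * a)) (8 * y)) _
      (fun _ => ζ / (M : ℝ) ^ 5) (fun a _ => hf a) (fun a ha => (hS' a ha).2)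
      fun t ht U hU => ?_).trans (le_of_eq ?_)
    · obtain ⟨h1, h2⟩ := mem_Icc.1 ht
      refine sep_rpow ε ζ h0 hζ U _ (one_le_pow₀ hM')
        (bad_sep (β := 0) (k := 4) hM h rfl h1 h2 U fun a ha => ⟨?_, ?_⟩)
      · exact bad_gap (k := 4) hM h rfl h1 h2 (hS' a (hU a ha).1).1
          ((hU a ha).2.mono (by linarith))
      · rw [sub_zero]
        exact (hU a ha).2
    · rw [sum_const, Nat.card_Icc, Nat.add_sub_cancel, nsmul_eq_mul]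
      push_cast
      field_simp
  have e2 : ∀ S' : Finset ℕ, (∀ a ∈ S', ∃ p ∈ Icc 1 (M ^ 2) ×ˢ Icc 1 (M ^ 2), M ^ 7 ≤ a ∧
      Near (γ * ((p.1 : ℝ) * a - p.2 * b)) (8 * y)) →
      ∑ a ∈ S', (a : ℝ) ^ (-(1 + ε)) ≤ ζ / M := fun S' hS' => by
    refine (bad_union S' (Icc 1 (M ^ 2) ×ˢ Icc 1 (M ^ 2))
      (fun p a => M ^ 7 ≤ a ∧ Near (γ * ((p.1 : ℝ) * a - p.2 * b)) (8 * y)) _
      (fun _ => ζ / (M : ℝ) ^ 7) (fun a _ => hf a) hS' fun p hp U hU => ?_).trans ?_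
    · obtain ⟨h1, h2⟩ := mem_Icc.1 (mem_product.1 hp).1
      exact sep_rpow ε ζ h0 hζ U _ (one_le_pow₀ hM')
        (bad_sep (k := 2) hM h rfl h1 h2 U fun a ha => (hU a ha).2)
    · rw [sum_const, card_product, Nat.card_Icc, Nat.add_sub_cancel, nsmul_eq_mul]
      push_cast
      have e : (M : ℝ) ^ 2 * M ^ 2 * (ζ / M ^ 7) = ζ / M ^ 3 := by field_simp
      rw [e]
      exact div_le_div_of_nonneg_left hζ0.le (by positivity) (le_self_pow₀ hM' (by norm_num))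
  have e3 : ∀ S' : Finset ℕ, (∀ a ∈ S', 0 < a ∧ X < a) →
      ∑ a ∈ S', (a : ℝ) ^ (-(1 + ε)) ≤ X ^ (-(ε / 2)) * ζ' := fun S' hS' => by
    refine le_trans ?_ (mul_le_mul_of_nonneg_left (hζ' S' fun a ha => (hS' a ha).1)
      (by positivity))
    rw [mul_sum]
    refine sum_le_sum fun a ha => ?_
    have ha0 : (0 : ℝ) < a := by exact_mod_cast (hS' a ha).1
    rw [show -(1 + ε) = -(ε / 2) + -(1 + ε / 2) by ring, Real.rpow_add ha0]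
    exact mul_le_mul_of_nonneg_right
      (Real.rpow_le_rpow_of_nonpos (by linarith) (hS' a ha).2.le (by linarith)) (by positivity)
  have := bad_union S (univ : Finset (Fin 3)) (fun i a => ![∃ t ∈ Icc 1 (M ^ 4),
      Near (γ * (t * a)) (8 * y), ∃ p ∈ Icc 1 (M ^ 2) ×ˢ Icc 1 (M ^ 2), M ^ 7 ≤ a ∧
      Near (γ * ((p.1 : ℝ) * a - p.2 * b)) (8 * y), X < a] i) (fun a => (a : ℝ) ^ (-(1 + ε)))
    ![ζ / M, ζ / M, X ^ (-(ε / 2)) * ζ'] (fun a _ => hf a) (fun a ha => by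
      rcases (hS a ha).2 with h1 | h1 | h1
      · exact ⟨0, mem_univ _, h1⟩
      · exact ⟨1, mem_univ _, h1⟩
      · exact ⟨2, mem_univ _, h1⟩) (fun i _ U hU => by
      fin_cases i
      · exact e1 U fun a ha => ⟨(hS a (hU a ha).1).1, (hU a ha).2⟩
      · exact e2 U fun a ha => (hU a ha).2
      · exact e3 U fun a ha => ⟨(hS a (hU a ha).1).1, (hU a ha).2⟩)
  rw [Fin.sum_univ_three] at this
  exact this

theorem bad_sum (ε : ℝ) (h0 : 0 < ε) : ∃ C : ℝ, 0 < C ∧ ∀ (γ y X : ℝ) (M : ℕ), 1 ≤ M → 1 ≤ X →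
    0 < y → (∀ n : ℕ, 0 < n → Near (γ * n) (16 * y) → M ^ 9 ≤ n) →
    ∀ T : Finset (ℕ × ℕ), (∀ t ∈ T, 0 < t.1 ∧ 0 < t.2 ∧ ¬ Good γ y M X t.1 t.2) →
    ∑ t ∈ T, ((t.1 : ℝ) * t.2) ^ (-(1 + ε)) ≤ C * (1 / M + X ^ (-(ε / 2))) := by
  obtain ⟨ζ, hζ0, hζ⟩ := zeta_bound ε h0
  obtain ⟨ζ', hζ0', hζ'⟩ := zeta_bound (ε / 2) (by positivity)
  refine ⟨2 * ((2 * ζ + ζ') * ζ), by positivity, fun γ y X M hM hX hy h T hT => ?_⟩
  have hM' : (0 : ℝ) < M := by exact_mod_cast hM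
  have hf : ∀ a : ℕ, 0 ≤ (a : ℝ) ^ (-(1 + ε)) := fun a => by positivity
  obtain ⟨K, hK⟩ : ∃ K, K = ζ / M + ζ / M + X ^ (-(ε / 2)) * ζ' := ⟨_, rfl⟩
  have hX0 : 0 ≤ X ^ (-(ε / 2)) := by positivity
  have hK0 : 0 ≤ K := by
    rw [hK]
    positivity
  have e1 : ∀ U : Finset (ℕ × ℕ), (∀ t ∈ U, 0 < t.1 ∧ 0 < t.2 ∧ BadL γ y M X t.1 t.2) →
      ∑ t ∈ U, ((t.1 : ℝ) * t.2) ^ (-(1 + ε)) ≤ K * ζ := fun U hU => by
    refine le_trans (le_of_eq (sum_congr rfl fun t _ => ?_))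
      (bad_fib U (fun a => (a : ℝ) ^ (-(1 + ε))) K ζ hf hK0 hζ (fun t ht => (hU t ht).2.1)
        fun b S hS => ?_)
    · exact Real.mul_rpow (by positivity) (by positivity)
    · rw [hK]
      exact bad_left h0 hζ0 hζ hζ' hM hX hy h b S fun a ha =>
        ⟨(hU _ (hS a ha)).1, (hU _ (hS a ha)).2.2⟩
  have := bad_union T (univ : Finset (Fin 2))
    (fun i t => ![BadL γ y M X t.1 t.2, BadL γ y M X t.2 t.1] i)
    (fun t => ((t.1 : ℝ) * t.2) ^ (-(1 + ε))) (fun _ => K * ζ) (fun t _ => by positivity)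
    (fun t ht => by
      rcases bad_cases hM hy h (hT t ht).2.2 with h1 | h1
      · exact ⟨0, mem_univ _, h1⟩
      · exact ⟨1, mem_univ _, h1⟩) (fun i _ U hU => by
      fin_cases i
      · exact e1 U fun t ht => ⟨(hT t (hU t ht).1).1, (hT t (hU t ht).1).2.1, (hU t ht).2⟩
      · have h2 := e1 (U.map (Equiv.prodComm ℕ ℕ).toEmbedding) fun t ht => by
          obtain ⟨s, hs, rfl⟩ := mem_map.1 ht
          exact ⟨(hT s (hU s hs).1).2.1, (hT s (hU s hs).1).1, (hU s hs).2⟩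
        rw [sum_map] at h2
        refine le_trans (le_of_eq (sum_congr rfl fun t _ => ?_)) h2
        rw [mul_comm]
        rfl)
  rw [Fin.sum_univ_two] at this
  refine this.trans ?_
  have h1 : K ≤ (2 * ζ + ζ') * (1 / M + X ^ (-(ε / 2))) := by
    have h2 : 0 ≤ 1 / (M : ℝ) := by positivity
    rw [hK, div_eq_mul_one_div ζ]
    nlinarith [mul_nonneg hζ0.le hX0, mul_nonneg hζ0'.le h2]
  nlinarith [mul_le_mul_of_nonneg_right h1 hζ0.le]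

end Vale.Agent.P028
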