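import Vale.Agent.P028.Defs

/-! Counting lemmas for separated sets and for small rotations. -/

namespace Vale.Agent.P028

open Finset Real

theorem sep_sum (S : Finset ℕ) (H Y : ℝ) (hH : 0 < H) (hS : Sep S H) (hY : ∀ n ∈ S, (n : ℝ) ≤ Y)
    (f : ℝ → ℝ) (hf : AntitoneOn f (Set.Ioi 0)) (hf0 : ∀ x, 0 < x → 0 ≤ f x) :
    ∑ n ∈ S, f n ≤ ∑ j ∈ Icc 1 ⌊Y / H⌋₊, f (j * H) := by
  have h1 : ∀ n ∈ S, 1 ≤ ⌊(n : ℝ) / H⌋₊ := fun n hn =>
    Nat.le_floor (by rw [Nat.cast_one, le_div_iff₀ hH, one_mul]; exact hS.1 n hn)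
  have h2 : ∀ n ∈ S, ∀ n' ∈ S, n < n' → ⌊(n : ℝ) / H⌋₊ < ⌊(n' : ℝ) / H⌋₊ := by
    intro n hn n' hn' hlt
    have h3 : (n : ℝ) / H + 1 ≤ n' / H := by
      rw [div_add_one hH.ne']
      exact div_le_div_of_nonneg_right (by linarith [hS.2 n hn n' hn' hlt]) hH.le
    have h4 := Nat.floor_le_floor h3
    rw [Nat.floor_add_one (by positivity)] at h4
    omega
  have hinj : Set.InjOn (fun n : ℕ => ⌊(n : ℝ) / H⌋₊) S := by
    intro n hn n' hn' h
    rcases lt_trichotomy n n' with hl | hl | hl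
    · exact absurd h (h2 n hn n' hn' hl).ne
    · exact hl
    · exact absurd h (h2 n' hn' n hn hl).ne'
  calc ∑ n ∈ S, f n ≤ ∑ n ∈ S, f ((⌊(n : ℝ) / H⌋₊ : ℕ) * H) := by
        refine sum_le_sum fun n hn => ?_
        have h5 : (0 : ℝ) < (⌊(n : ℝ) / H⌋₊ : ℕ) * H :=
          mul_pos (by exact_mod_cast h1 n hn) hH
        have h6 : ((⌊(n : ℝ) / H⌋₊ : ℕ) : ℝ) * H ≤ n :=
          (le_div_iff₀ hH).1 (Nat.floor_le (by positivity))
        exact hf h5 (h5.trans_le h6) h6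
    _ = ∑ j ∈ S.image (fun n : ℕ => ⌊(n : ℝ) / H⌋₊), f (j * H) :=
        (sum_image (f := fun j : ℕ => f (j * H)) hinj).symm
    _ ≤ _ := by
        refine sum_le_sum_of_subset_of_nonneg (fun j hj => ?_) fun j hj _ => ?_
        · obtain ⟨n, hn, rfl⟩ := mem_image.1 hj
          exact mem_Icc.2 ⟨h1 n hn,
            Nat.floor_le_floor (div_le_div_of_nonneg_right (hY n hn) hH.le)⟩
        · exact hf0 _ (mul_pos (by exact_mod_cast (mem_Icc.1 hj).1) hH)

theorem cnt_inv_sqrt (N : ℕ) : ∑ j ∈ Icc 1 N, 1 / √(j : ℝ) ≤ 2 * √(N : ℝ) := by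
  induction N with
  | zero => simp
  | succ N ih =>
    rw [sum_Icc_succ_top (by omega)]
    have h1 : (0 : ℝ) < √((N + 1 : ℕ) : ℝ) := sqrt_pos.2 (by positivity)
    have h2 : √((N + 1 : ℕ) : ℝ) ^ 2 = N + 1 := by
      rw [sq_sqrt (by positivity)]
      push_cast
      rfl
    have h3 : √(N : ℝ) ^ 2 = N := sq_sqrt (by positivity)
    have h4 : 1 / √((N + 1 : ℕ) : ℝ) ≤ 2 * √((N + 1 : ℕ) : ℝ) - 2 * √(N : ℝ) := by
      rw [div_le_iff₀ h1]
      nlinarith [sq_nonneg (√((N + 1 : ℕ) : ℝ) - √(N : ℝ))]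
    linarith

theorem sum_inv_sqrt (Y : ℝ) : ∑ j ∈ Icc 1 ⌊Y⌋₊, 1 / √(j : ℝ) ≤ 2 * √Y := by
  rcases le_total 0 Y with h | h
  · exact (cnt_inv_sqrt _).trans
      (mul_le_mul_of_nonneg_left (sqrt_le_sqrt (Nat.floor_le h)) zero_le_two)
  · rw [Nat.floor_of_nonpos h]
    simp

theorem sep_inv_sqrt (S : Finset ℕ) (H Y : ℝ) (hH : 0 < H) (hS : Sep S H)
    (hY : ∀ n ∈ S, (n : ℝ) ≤ Y) : ∑ n ∈ S, 1 / √(n : ℝ) ≤ 2 * √Y / H := by
  have h1 := sep_sum S H Y hH hS hY (fun x => 1 / √x)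
    (fun x hx y _ hxy => one_div_le_one_div_of_le (sqrt_pos.2 hx) (sqrt_le_sqrt hxy))
    (fun x _ => by positivity)
  have h2 : ∑ j ∈ Icc 1 ⌊Y / H⌋₊, 1 / √((j : ℝ) * H) =
      (∑ j ∈ Icc 1 ⌊Y / H⌋₊, 1 / √(j : ℝ)) / √H := by
    rw [sum_div]
    refine sum_congr rfl fun j _ => ?_
    rw [sqrt_mul (Nat.cast_nonneg j), div_div]
  have h3 : 2 * √(Y / H) / √H = 2 * √Y / H := by
    rw [sqrt_div' _ hH.le, mul_div_assoc, div_div, mul_self_sqrt hH.le, mul_div_assoc]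
  refine h1.trans ?_
  rw [h2, ← h3]
  exact div_le_div_of_nonneg_right (sum_inv_sqrt _) (sqrt_nonneg _)

theorem sep_inv (S : Finset ℕ) (H Z : ℝ) (hH : 1 ≤ H) (hZ : 1 ≤ Z) (hS : Sep S H)
    (hY : ∀ n ∈ S, (n : ℝ) ≤ Z) : ∑ n ∈ S, 1 / (n : ℝ) ≤ (1 + log Z) / H := by
  have hH0 : 0 < H := by linarith
  have h1 := sep_sum S H Z hH0 hS hY (fun x => 1 / x)
    (fun x hx y _ hxy => one_div_le_one_div_of_le hx hxy) (fun x hx => by positivity)
  have h2 : ∑ j ∈ Icc 1 ⌊Z / H⌋₊, 1 / ((j : ℝ) * H) = (harmonic ⌊Z / H⌋₊ : ℝ) / H := by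
    rw [harmonic_eq_sum_Icc]
    push_cast
    rw [sum_div]
    refine sum_congr rfl fun j _ => ?_
    rw [← div_div, one_div]
  have h3 : log (⌊Z / H⌋₊ : ℕ) ≤ log Z := by
    rcases Nat.eq_zero_or_pos ⌊Z / H⌋₊ with h | h
    · rw [h, Nat.cast_zero, log_zero]
      exact log_nonneg hZ
    · exact log_le_log (by exact_mod_cast h)
        ((Nat.floor_le (by positivity)).trans (div_le_self (by linarith) hH))
  refine h1.trans ?_
  rw [h2]
  exact div_le_div_of_nonneg_right ((harmonic_le_one_add_log _).trans (by linarith)) hH0.le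

theorem zeta_bound (ε : ℝ) (h0 : 0 < ε) : ∃ ζ : ℝ, 0 < ζ ∧ ∀ S : Finset ℕ, (∀ n ∈ S, 0 < n) →
    ∑ n ∈ S, (n : ℝ) ^ (-(1 + ε)) ≤ ζ := by
  have h1 : Summable fun n : ℕ => (n : ℝ) ^ (-(1 + ε)) := summable_nat_rpow.2 (by linarith)
  have h2 : 0 ≤ ∑' n : ℕ, (n : ℝ) ^ (-(1 + ε)) := tsum_nonneg fun n => by positivity
  refine ⟨∑' n : ℕ, (n : ℝ) ^ (-(1 + ε)) + 1, by linarith, fun S _ => ?_⟩
  have h3 := h1.sum_le_tsum S fun n _ => by positivity
  linarith

theorem sep_rpow (ε ζ : ℝ) (h0 : 0 < ε)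
    (hζ : ∀ S : Finset ℕ, (∀ n ∈ S, 0 < n) → ∑ n ∈ S, (n : ℝ) ^ (-(1 + ε)) ≤ ζ)
    (S : Finset ℕ) (H : ℝ) (hH : 1 ≤ H) (hS : Sep S H) :
    ∑ n ∈ S, (n : ℝ) ^ (-(1 + ε)) ≤ ζ / H := by
  have hH0 : 0 < H := by linarith
  have hY : ∀ n ∈ S, (n : ℝ) ≤ (S.sup id : ℕ) := fun n hn => by
    exact_mod_cast le_sup (f := id) hn
  have h1 := sep_sum S H _ hH0 hS hY (fun x => x ^ (-(1 + ε)))
    (fun x hx y _ hxy => rpow_le_rpow_of_nonpos hx hxy (by linarith))
    (fun x hx => rpow_nonneg hx.le _)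
  have h2 : ∀ T : Finset ℕ, ∑ j ∈ T, ((j : ℝ) * H) ^ (-(1 + ε)) =
      (∑ j ∈ T, (j : ℝ) ^ (-(1 + ε))) * H ^ (-(1 + ε)) := by
    intro T
    rw [sum_mul]
    exact sum_congr rfl fun j _ => mul_rpow (Nat.cast_nonneg j) hH0.le
  have h3 : H ^ (-(1 + ε)) ≤ H⁻¹ := by
    rw [← rpow_neg_one]
    exact rpow_le_rpow_of_exponent_le hH (by linarith)
  have h4 : 0 ≤ ζ := by simpa using hζ ∅ (by simp)
  refine h1.trans ?_
  rw [h2, div_eq_mul_inv]
  exact mul_le_mul (hζ _ fun n hn => (mem_Icc.1 hn).1) h3 (rpow_nonneg hH0.le _) h4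

theorem cnt_int (T : Finset ℤ) {L : ℝ} (hL : 0 ≤ L) (h : ∀ a ∈ T, ∀ b ∈ T, (a : ℝ) - b ≤ L) :
    (T.card : ℝ) ≤ L + 1 := by
  rcases T.eq_empty_or_nonempty with rfl | hT
  · simp only [card_empty, Nat.cast_zero]
    linarith
  have h1 : T ⊆ Icc (T.min' hT) (T.min' hT + ⌊L⌋₊) := by
    intro a ha
    have h2 := T.min'_le a ha
    refine mem_Icc.2 ⟨h2, ?_⟩
    have h3 := h a ha _ (T.min'_mem hT)
    obtain ⟨k, hk⟩ := Int.eq_ofNat_of_zero_le (sub_nonneg.2 h2)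
    have h4 : (k : ℝ) ≤ L := by
      have : ((a - T.min' hT : ℤ) : ℝ) = (k : ℝ) := by rw [hk]; simp
      rw [← this]
      push_cast
      exact h3
    have h5 := Nat.le_floor h4
    omega
  have h6 := card_le_card h1
  rw [Int.card_Icc] at h6
  have h7 : T.card ≤ ⌊L⌋₊ + 1 := by omega
  have h8 : (T.card : ℝ) ≤ (⌊L⌋₊ : ℕ) + 1 := by exact_mod_cast h7
  linarith [Nat.floor_le hL]

theorem cnt_fib {ι κ : Type*} [DecidableEq κ] (S : Finset ι) (f : ι → κ) {A B : ℝ} (hA0 : 0 ≤ A)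
    (hA : ∀ k, ((S.filter fun i => f i = k).card : ℝ) ≤ A) (hB : ((S.image f).card : ℝ) ≤ B) :
    (S.card : ℝ) ≤ B * A := by
  rw [card_eq_sum_card_image f S]
  push_cast
  refine (sum_le_sum fun k _ => hA k).trans ?_
  rw [sum_const, nsmul_eq_mul]
  exact mul_le_mul_of_nonneg_right hB hA0

theorem cnt_class {c δ y J : ℝ} (hδ : δ ≠ 0) (hδy : |δ| ≤ 4 * y) (hy4 : y ≤ 1 / 4) (hJ : 0 ≤ J)
    (S : Finset ℕ) (j : ℕ → ℕ) (w : ℕ → ℤ) (hj : Set.InjOn j S) (hjJ : ∀ n ∈ S, (j n : ℝ) ≤ J)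
    (hw : ∀ n ∈ S, |c + j n * δ - w n| ≤ 2 * y) :
    (S.card : ℝ) ≤ (|δ| * J + 2) * (8 * y / |δ|) := by
  have hδ0 : 0 < |δ| := abs_pos.2 hδ
  have hy : 0 < y := by linarith
  refine cnt_fib S w (by positivity) (fun k => ?_) ?_
  · have h1 : ((S.filter fun i => w i = k).image fun n => (j n : ℤ)).card =
        (S.filter fun i => w i = k).card :=
      card_image_of_injOn fun n hn n' hn' h =>
        hj (mem_filter.1 hn).1 (mem_filter.1 hn').1 (by exact_mod_cast h)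
    rw [← h1]
    refine (cnt_int _ (L := 4 * y / |δ|) (by positivity) fun a ha b hb => ?_).trans ?_
    · obtain ⟨n, hn, rfl⟩ := mem_image.1 ha
      obtain ⟨n', hn', rfl⟩ := mem_image.1 hb
      have h2 := abs_le.1 (hw n (mem_filter.1 hn).1)
      have h3 := abs_le.1 (hw n' (mem_filter.1 hn').1)
      rw [(mem_filter.1 hn).2] at h2
      rw [(mem_filter.1 hn').2] at h3
      have h4 : |((j n : ℝ) - j n') * δ| ≤ 4 * y :=
        abs_le.2 ⟨by linarith [h2.1, h3.2], by linarith [h2.2, h3.1]⟩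
      rw [abs_mul] at h4
      push_cast
      exact (le_abs_self _).trans ((le_div_iff₀ hδ0).2 h4)
    · have h5 : 1 ≤ 4 * y / |δ| := (one_le_div hδ0).2 hδy
      have h6 : 8 * y / |δ| = 4 * y / |δ| + 4 * y / |δ| := by ring
      linarith
  · refine (cnt_int _ (L := |δ| * J + 1) (by positivity) fun a ha b hb => ?_).trans
      (le_of_eq (by ring))
    obtain ⟨n, hn, rfl⟩ := mem_image.1 ha
    obtain ⟨n', hn', rfl⟩ := mem_image.1 hb
    have h2 := abs_le.1 (hw n hn)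
    have h3 := abs_le.1 (hw n' hn')
    have h4 : |(j n : ℝ) - j n'| ≤ J :=
      abs_le.2 ⟨by linarith [hjJ n' hn', Nat.cast_nonneg (α := ℝ) (j n)],
        by linarith [hjJ n hn, Nat.cast_nonneg (α := ℝ) (j n')]⟩
    have h5 : ((j n : ℝ) - j n') * δ ≤ |δ| * J := by
      refine (le_abs_self _).trans ?_
      rw [abs_mul, mul_comm]
      exact mul_le_mul_of_nonneg_left h4 hδ0.le
    linarith [h2.1, h3.2]

theorem rot_count (α β y Y η : ℝ) (M : ℕ) (hM : 1 ≤ M) (hy : 0 < y) (hy4 : y ≤ 1 / 4)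
    (hη : 0 < η) (hη1 : η ≤ 1)
    (hα : ∀ t : ℕ, 1 ≤ t → t ≤ M → ∀ z : ℤ, η ≤ |α * t - z|) (hY : (M : ℝ) ≤ η * Y)
    (S : Finset ℕ) (hS : ∀ n ∈ S, 0 < n ∧ (n : ℝ) ≤ Y ∧ Near (α * n - β) (2 * y)) :
    (S.card : ℝ) ≤ (24 * y + 2 / M) * Y := by
  have hM0 : (0 : ℝ) < M := by exact_mod_cast hM
  have hY0 : 0 < Y := (pos_iff_pos_of_mul_pos (hM0.trans_le hY)).1 hη
  have hMY : (M : ℝ) ≤ Y := hY.trans (mul_le_of_le_one_left hY0.le hη1)
  by_cases hc : ∃ t : ℕ, 1 ≤ t ∧ t ≤ M ∧ Near (α * t) (4 * y)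
  · obtain ⟨t, ht1, htM, z0, hz0⟩ := hc
    have ht0 : (0 : ℝ) < t := by exact_mod_cast ht1
    have hδ := hα t ht1 htM z0
    have hδ0 : 0 < |α * t - z0| := hη.trans_le hδ
    choose! z hz using fun n hn => (hS n hn).2.2
    have h1 : (S.card : ℝ) ≤ t * ((|α * t - z0| * (Y / t) + 2) * (8 * y / |α * t - z0|)) := by
      refine cnt_fib S (fun n => n % t) (by positivity) (fun r => ?_) ?_
      · refine cnt_class (c := α * r - β) (abs_pos.1 hδ0) hz0 hy4 (by positivity) _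
          (fun n => n / t) (fun n => z n - (n / t : ℕ) * z0) (fun n hn n' hn' h => ?_)
          (fun n hn => ?_) fun n hn => ?_
        · have a1 := (mem_filter.1 hn).2
          have a2 := (mem_filter.1 hn').2
          have a3 : n / t = n' / t := h
          rw [← Nat.div_add_mod n t, ← Nat.div_add_mod n' t, a1, a2, a3]
        · exact Nat.cast_div_le.trans
            (div_le_div_of_nonneg_right (hS n (mem_filter.1 hn).1).2.1 ht0.le)
        · have a1 := (mem_filter.1 hn).2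
          have a2 : (n : ℝ) = t * (n / t : ℕ) + r := by
            rw [← a1]
            exact_mod_cast (Nat.div_add_mod n t).symm
          refine le_of_eq_of_le ?_ (hz n (mem_filter.1 hn).1)
          congr 1
          rw [Int.cast_sub, Int.cast_mul, Int.cast_natCast]
          linear_combination (-α) * a2
      · have a1 : S.image (fun n => n % t) ⊆ range t := fun r hr => by
          obtain ⟨n, -, rfl⟩ := mem_image.1 hr
          exact mem_range.2 (Nat.mod_lt _ ht1)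
        exact_mod_cast (card_le_card a1).trans (card_range t).le
    have h2 : (t : ℝ) * ((|α * t - z0| * (Y / t) + 2) * (8 * y / |α * t - z0|)) =
        8 * y * Y + 16 * y * (t / |α * t - z0|) := by
      generalize |α * t - z0| = d at hδ0
      field_simp
      ring
    have h3 : (t : ℝ) / |α * t - z0| ≤ Y := by
      rw [div_le_iff₀ hδ0]
      have a1 : (t : ℝ) ≤ M := by exact_mod_cast htM
      nlinarith
    have h4 : 0 ≤ 2 / (M : ℝ) * Y := by positivity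
    have h5 := mul_le_mul_of_nonneg_left h3 (by positivity : 0 ≤ 16 * y)
    rw [h2] at h1
    linarith
  · have h1 : ∀ n ∈ S, ∀ n' ∈ S, n < n' → n / M < n' / M := by
      intro n hn n' hn' hlt
      have h2 : M < n' - n := by
        by_contra h3
        refine hc ⟨n' - n, by omega, by omega, ?_⟩
        have h4 := (hS n' hn').2.2.sub (hS n hn).2.2
        rw [Nat.cast_sub hlt.le]
        have e1 : α * ((n' : ℝ) - n) = α * n' - β - (α * n - β) := by ring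
        have e2 : 4 * y = 2 * y + 2 * y := by ring
        rw [e1, e2]
        exact h4
      have h5 : (n + M) / M ≤ n' / M := Nat.div_le_div_right (by omega)
      rw [Nat.add_div_right _ hM] at h5
      omega
    have hinj : Set.InjOn (fun n : ℕ => ((n / M : ℕ) : ℤ)) S := by
      intro n hn n' hn' h
      have h' : n / M = n' / M := Nat.cast_injective (R := ℤ) h
      rcases lt_trichotomy n n' with hl | hl | hl
      · exact absurd h' (h1 n hn n' hn' hl).ne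
      · exact hl
      · exact absurd h' (h1 n' hn' n hn hl).ne'
    rw [← card_image_of_injOn hinj]
    refine (cnt_int _ (L := Y / M) (by positivity) fun a ha b hb => ?_).trans ?_
    · obtain ⟨n, hn, rfl⟩ := mem_image.1 ha
      obtain ⟨n', hn', rfl⟩ := mem_image.1 hb
      have a1 : ((n / M : ℕ) : ℝ) ≤ Y / M :=
        Nat.cast_div_le.trans (div_le_div_of_nonneg_right (hS n hn).2.1 hM0.le)
      rw [Int.cast_natCast, Int.cast_natCast]
      linarith [Nat.cast_nonneg (α := ℝ) (n' / M)]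
    · have a1 : 1 ≤ Y / M := (one_le_div hM0).2 hMY
      have a2 : (24 * y + 2 / M) * Y = 24 * (y * Y) + (Y / M + Y / M) := by ring
      have a3 : 0 ≤ y * Y := by positivity
      linarith

end Vale.Agent.P028
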