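import Vale.Agent.P028.Pi
import Vale.Agent.P028.Cnt

/-! Neighbour sums. -/

namespace Vale.Agent.P028

open Finset Real

theorem nbr_split (N : ℕ) (Γ : Finset (ℕ × ℕ)) (p : ℕ × ℕ → Prop) [DecidablePred p] :
    nb N Γ = nb N (Γ.filter p) + nb N (Γ.filter fun t => ¬ p t) :=
  (sum_filter_add_sum_filter_not Γ p _).symm

theorem nbr_fib1 (N : ℕ) (Γ : Finset (ℕ × ℕ)) (D : Finset ℕ) (hD : ∀ t ∈ Γ, t.2 ∈ D) (c : ℝ)
    (h : ∀ d' : ℕ, ∀ S : Finset ℕ, (∀ n ∈ S, (n, d') ∈ Γ) → ∑ n ∈ S, 1 / √(n : ℝ) ≤ c) :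
    nb N Γ ≤ (∑ d' ∈ D, pw N d') * c := by
  rw [nb, ← sum_fiberwise_of_maps_to hD, sum_mul]
  refine sum_le_sum fun d' _ => ?_
  have h1 := h d' ((Γ.filter fun t => t.2 = d').image Prod.fst) fun n hn => by
    obtain ⟨t, ht, rfl⟩ := mem_image.1 hn
    obtain ⟨h1, rfl⟩ := mem_filter.1 ht
    exact h1
  rw [sum_image fun t ht t' ht' e =>
    Prod.ext e ((mem_filter.1 ht).2.trans (mem_filter.1 ht').2.symm)] at h1
  refine le_of_eq_of_le ?_ (mul_le_mul_of_nonneg_left h1 (pw_nonneg N d'))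
  rw [mul_sum]
  refine sum_congr rfl fun t ht => ?_
  rw [(mem_filter.1 ht).2, mul_one_div]

theorem nbr_fib2 (N : ℕ) (Γ : Finset (ℕ × ℕ)) (Y : ℝ) (hΓ : ∀ t ∈ Γ, 0 < t.1 ∧ (t.1 : ℝ) ≤ Y)
    (c : ℝ) (h : ∀ m' : ℕ, ∀ S : Finset ℕ, (∀ n ∈ S, (m', n) ∈ Γ) → ∑ n ∈ S, pw N n ≤ c) :
    nb N Γ ≤ c * (2 * √Y) := by
  have hc : 0 ≤ c := by simpa using h 0 ∅ (by simp)
  have hD : ∀ t ∈ Γ, t.1 ∈ Icc 1 ⌊Y⌋₊ := fun t ht =>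
    mem_Icc.2 ⟨(hΓ t ht).1, Nat.le_floor (hΓ t ht).2⟩
  refine le_trans ?_ (mul_le_mul_of_nonneg_left (sum_inv_sqrt Y) hc)
  rw [nb, ← sum_fiberwise_of_maps_to hD, mul_sum]
  refine sum_le_sum fun m' _ => ?_
  have h1 := h m' ((Γ.filter fun t => t.1 = m').image Prod.snd) fun n hn => by
    obtain ⟨t, ht, rfl⟩ := mem_image.1 hn
    obtain ⟨h1, rfl⟩ := mem_filter.1 ht
    exact h1
  rw [sum_image fun t ht t' ht' e =>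
    Prod.ext ((mem_filter.1 ht).2.trans (mem_filter.1 ht').2.symm) e] at h1
  refine le_of_eq_of_le ?_ (mul_le_mul_of_nonneg_right h1 (by positivity))
  rw [sum_mul]
  refine sum_congr rfl fun t ht => ?_
  rw [(mem_filter.1 ht).2, mul_one_div]

theorem nbr_all (Y : ℝ) (S : Finset ℕ) (hS : ∀ n ∈ S, 0 < n ∧ (n : ℝ) ≤ Y) :
    ∑ n ∈ S, 1 / √(n : ℝ) ≤ 2 * √Y :=
  (sum_le_sum_of_subset_of_nonneg
    (fun n hn => mem_Icc.2 ⟨(hS n hn).1, Nat.le_floor (hS n hn).2⟩)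
    fun _ _ _ => by positivity).trans (sum_inv_sqrt Y)

theorem nbr_div (N : ℕ) (hN : 0 < N) (Γ : Finset (ℕ × ℕ)) (hD : ∀ t ∈ Γ, t.2 ∣ N) (c : ℝ)
    (h : ∀ d' : ℕ, ∀ S : Finset ℕ, (∀ n ∈ S, (n, d') ∈ Γ) → ∑ n ∈ S, 1 / √(n : ℝ) ≤ c) :
    nb N Γ ≤ c := by
  have := nbr_fib1 N Γ N.divisors (fun t ht => Nat.mem_divisors.2 ⟨hD t ht, hN.ne'⟩) c h
  rwa [sum_pw N hN, one_mul] at this

theorem nbr_tail (N : ℕ) (hN : 0 < N) (Z δ c : ℝ)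
    (hδ : ∑ d' ∈ N.divisors.filter (fun d' : ℕ => Z < d'), pw N d' ≤ δ) (S : Finset ℕ)
    (hS : ∀ n ∈ S, n ∣ N)
    (h : ∀ S' ⊆ S, (∀ n ∈ S', (n : ℝ) ≤ Z) → ∑ n ∈ S', 1 / (n : ℝ) ≤ c) :
    ∑ n ∈ S, pw N n ≤ c + δ := by
  rw [← sum_filter_add_sum_filter_not S (fun n : ℕ => (n : ℝ) ≤ Z)]
  refine add_le_add ?_ ?_
  · refine le_trans (sum_le_sum fun n hn => pw_le N n hN (hS n (mem_filter.1 hn).1)) ?_
    exact h _ (filter_subset _ _) fun n hn => (mem_filter.1 hn).2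
  · refine le_trans (sum_le_sum_of_subset_of_nonneg (fun n hn => ?_)
      fun n _ _ => pw_nonneg N n) hδ
    obtain ⟨h1, h2⟩ := mem_filter.1 hn
    exact mem_filter.2 ⟨Nat.mem_divisors.2 ⟨hS n h1, hN.ne'⟩, not_le.1 h2⟩

theorem nbr_sep {γ y β : ℝ} {M c : ℕ} {S : Finset ℕ}
    (hS : ∀ n ∈ S, M < n ∧ ¬ Res γ y M c ∧ Near (γ * (c * n) - β) (2 * y)) : Sep S M := by
  refine ⟨fun n hn => Nat.cast_le.2 (hS n hn).1.le, fun n hn n' hn' hlt => ?_⟩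
  by_contra hcon
  obtain ⟨t, rfl⟩ := Nat.exists_eq_add_of_le hlt.le
  refine (hS n hn).2.1 ⟨t, by omega, ?_, ?_⟩
  · rw [Nat.cast_add, add_sub_cancel_left, not_le] at hcon
    exact (Nat.cast_lt.1 hcon).le
  · have h1 := (hS _ hn').2.2.sub (hS n hn).2.2
    have e : γ * ((c : ℝ) * (n + t : ℕ)) - β - (γ * (c * n) - β) = γ * (t * c) := by
      push_cast; ring
    rw [e] at h1
    exact h1.mono (by linarith)

theorem nbr_res {γ y : ℝ} {M a : ℕ} (hy : 0 < y)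
    (hg : ∀ t : ℕ, 1 ≤ t → t ≤ M ^ 4 → ¬ Near (γ * (t * a)) (8 * y)) {S : Finset ℕ}
    (hS : ∀ n ∈ S, 0 < n ∧ Res γ y M (a * n)) (g : ℕ → ℝ) (c : ℝ)
    (h : ∀ S' ⊆ S, Sep S' ((M : ℝ) ^ 3) → ∑ n ∈ S', g n ≤ c) : ∑ n ∈ S, g n ≤ M * c := by
  choose! τ h1 h2 h3 using fun n hn => (hS n hn).2
  have key : ∀ t k : ℕ, 1 ≤ t → t ≤ M → 1 ≤ k → Near (γ * (t * (a * k))) (8 * y) →
      (M : ℝ) ^ 3 ≤ k := by
    intro t k a1 a2 a3 a4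
    by_contra hcon
    have a5 : k < M ^ 3 := by exact_mod_cast not_le.1 hcon
    refine hg (t * k) (Nat.mul_pos a1 a3) ?_ ?_
    · calc t * k ≤ M * M ^ 3 := Nat.mul_le_mul a2 a5.le
        _ = M ^ 4 := by ring
    · have e : γ * (((t * k : ℕ) : ℝ) * a) = γ * (t * (a * k)) := by push_cast; ring
      rwa [e]
  rw [← sum_fiberwise_of_maps_to (t := Icc 1 M) (g := τ)
    fun n hn => mem_Icc.2 ⟨h1 n hn, h2 n hn⟩]
  refine (sum_le_card_nsmul _ _ c fun t ht => h _ (filter_subset _ _) ⟨?_, ?_⟩).trans (by simp)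
  · intro n hn
    obtain ⟨hn, -⟩ := mem_filter.1 hn
    refine key _ n (h1 n hn) (h2 n hn) (hS n hn).1 ?_
    have := h3 n hn
    push_cast at this
    exact this.mono (by linarith)
  · intro n hn n' hn' hlt
    obtain ⟨hn, e1⟩ := mem_filter.1 hn
    obtain ⟨hn', e2⟩ := mem_filter.1 hn'
    obtain ⟨k, rfl⟩ := Nat.exists_eq_add_of_le hlt.le
    rw [Nat.cast_add, add_sub_cancel_left]
    refine key t k (mem_Icc.1 ht).1 (mem_Icc.1 ht).2 (by omega) ?_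
    have a1 := (h3 _ hn').sub (h3 n hn)
    rw [e1, e2] at a1
    have e : γ * ((t : ℝ) * ((a * (n + k) : ℕ) : ℝ)) - γ * (t * ((a * n : ℕ) : ℝ)) =
        γ * (t * (a * k)) := by push_cast; ring
    rw [e] at a1
    exact a1.mono (by linarith)

theorem nbr_or {N : ℕ} {Γ : Finset (ℕ × ℕ)} {p q : ℕ × ℕ → Prop} {c c' : ℝ}
    (h : ∀ t ∈ Γ, p t ∨ q t) (h1 : ∀ Δ ⊆ Γ, (∀ t ∈ Δ, p t) → nb N Δ ≤ c)
    (h2 : ∀ Δ ⊆ Γ, (∀ t ∈ Δ, q t) → nb N Δ ≤ c') : nb N Γ ≤ c + c' := by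
  classical
  rw [nbr_split N Γ p]
  exact add_le_add (h1 _ (filter_subset _ _) fun t ht => (mem_filter.1 ht).2)
    (h2 _ (filter_subset _ _) fun t ht =>
      (h t (mem_filter.1 ht).1).resolve_left (mem_filter.1 ht).2)

theorem nbr_four (N : ℕ) (Γ : Finset (ℕ × ℕ)) {p1 p2 p3 p4 : ℕ × ℕ → Prop} {c1 c2 c3 c4 : ℝ}
    (h : ∀ t ∈ Γ, p1 t ∨ p2 t ∨ p3 t ∨ p4 t)
    (h1 : ∀ Δ ⊆ Γ, (∀ t ∈ Δ, p1 t) → nb N Δ ≤ c1) (h2 : ∀ Δ ⊆ Γ, (∀ t ∈ Δ, p2 t) → nb N Δ ≤ c2)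
    (h3 : ∀ Δ ⊆ Γ, (∀ t ∈ Δ, p3 t) → nb N Δ ≤ c3)
    (h4 : ∀ Δ ⊆ Γ, (∀ t ∈ Δ, p4 t) → nb N Δ ≤ c4) : nb N Γ ≤ c1 + (c2 + (c3 + c4)) :=
  nbr_or h h1 fun _ s1 k1 => nbr_or k1 (fun Δ s => h2 Δ (s.trans s1)) fun _ s2 k2 =>
    nbr_or k2 (fun Δ s => h3 Δ (s.trans (s2.trans s1))) fun Δ s => h4 Δ (s.trans (s2.trans s1))

theorem nbr_num {s : ℝ} (hs : 1 ≤ s) : 2 / s ^ 2 + 2 * ((1 + s) / s ^ 2) +
    2 * (s ^ 2 * ((1 + s) / (s ^ 2) ^ 3)) + s ^ 2 * (2 / (s ^ 2) ^ 3) ≤ 12 / s := by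
  have h0 : 0 < s := by linarith
  have e : 2 / s ^ 2 + 2 * ((1 + s) / s ^ 2) + 2 * (s ^ 2 * ((1 + s) / (s ^ 2) ^ 3)) +
      s ^ 2 * (2 / (s ^ 2) ^ 3) = (2 * s ^ 3 + 4 * s ^ 2 + 2 * s + 4) / s ^ 3 / s := by
    field_simp
    ring
  rw [e]
  gcongr
  rw [div_le_iff₀ (by positivity)]
  have h2 : s ≤ s ^ 2 := by nlinarith
  have h3 : s ^ 2 ≤ s ^ 3 := by nlinarith
  linarith

theorem nb_triv (N : ℕ) (hN : 0 < N) (Y : ℝ) (Γ : Finset (ℕ × ℕ))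
    (hΓ : ∀ t ∈ Γ, 0 < t.1 ∧ (t.1 : ℝ) ≤ Y ∧ t.2 ∣ N) : nb N Γ ≤ 2 * √Y := by
  exact nbr_div N hN Γ (fun t ht => (hΓ t ht).2.2) _ fun d' S hS =>
    nbr_all Y S fun n hn => ⟨(hΓ _ (hS n hn)).1, (hΓ _ (hS n hn)).2.1⟩

theorem nb_SW (γ y X δ Y : ℝ) (M a b m d N : ℕ) (hM : 1 ≤ M) (hN : 0 < N) (hy : 0 < y)
    (hg : Good γ y M X a b)
    (hδ : ∑ d' ∈ N.divisors.filter (fun d' : ℕ => exp (√(M : ℝ)) < d'), pw N d' ≤ δ)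
    (Γ : Finset (ℕ × ℕ))
    (hΓ : ∀ t ∈ Γ, 0 < t.1 ∧ (t.1 : ℝ) ≤ Y ∧ t.2 ∣ N ∧
      Near (γ * ((a : ℝ) * m * t.2 - b * t.1 * d)) (2 * y) ∧ SW γ y M a b m d t.1 t.2) :
    nb N Γ ≤ (12 / √(M : ℝ) + 4 * δ) * √Y := by
  have hM0 : (1 : ℝ) ≤ M := Nat.one_le_cast.2 hM
  have hM3 : (1 : ℝ) ≤ (M : ℝ) ^ 3 := one_le_pow₀ hM0
  have hZ : 1 ≤ exp (√(M : ℝ)) := one_le_exp (sqrt_nonneg _)
  have c1 : ∀ Δ ⊆ Γ, (∀ t ∈ Δ, M < t.1 ∧ ¬ Res γ y M (b * d)) → nb N Δ ≤ 2 * √Y / M := by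
    intro Δ hs hc
    refine nbr_div N hN Δ (fun t ht => (hΓ t (hs ht)).2.2.1) _ fun d' S hS => ?_
    refine sep_inv_sqrt S M Y (by linarith) (nbr_sep (γ := γ) (y := y) (c := b * d)
      (β := γ * (a * m * d')) fun n hn => ⟨(hc _ (hS n hn)).1, (hc _ (hS n hn)).2, ?_⟩)
      fun n hn => (hΓ _ (hs (hS n hn))).2.1
    have h1 := (hΓ _ (hs (hS n hn))).2.2.2.1.neg
    have e : γ * (((b * d : ℕ) : ℝ) * n) - γ * (a * m * d') =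
        -(γ * ((a : ℝ) * m * d' - b * n * d)) := by push_cast; ring
    rwa [e]
  have c2 : ∀ Δ ⊆ Γ, (∀ t ∈ Δ, M < t.2 ∧ ¬ Res γ y M (a * m)) →
      nb N Δ ≤ ((1 + √(M : ℝ)) / M + δ) * (2 * √Y) := by
    intro Δ hs hc
    refine nbr_fib2 N Δ Y (fun t ht => ⟨(hΓ t (hs ht)).1, (hΓ t (hs ht)).2.1⟩) _ fun m' S hS => ?_
    refine nbr_tail N hN _ δ _ hδ S (fun n hn => (hΓ _ (hs (hS n hn))).2.2.1) fun S' h1 h2 => ?_
    have h3 := sep_inv S' M _ hM0 hZ (nbr_sep (γ := γ) (y := y) (c := a * m)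
      (β := γ * (b * m' * d)) fun n hn =>
        ⟨(hc _ (hS n (h1 hn))).1, (hc _ (hS n (h1 hn))).2, ?_⟩) h2
    · rwa [log_exp] at h3
    · have h4 := (hΓ _ (hs (hS n (h1 hn)))).2.2.2.1
      have e : γ * (((a * m : ℕ) : ℝ) * n) - γ * (b * m' * d) =
          γ * ((a : ℝ) * m * n - b * m' * d) := by push_cast; ring
      rwa [e]
  have c3 : ∀ Δ ⊆ Γ, (∀ t ∈ Δ, Res γ y M (a * t.2)) →
      nb N Δ ≤ (M * ((1 + √(M : ℝ)) / (M : ℝ) ^ 3) + δ) * (2 * √Y) := by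
    intro Δ hs hc
    refine nbr_fib2 N Δ Y (fun t ht => ⟨(hΓ t (hs ht)).1, (hΓ t (hs ht)).2.1⟩) _ fun m' S hS => ?_
    refine nbr_tail N hN _ δ _ hδ S (fun n hn => (hΓ _ (hs (hS n hn))).2.2.1) fun S' h1 h2 => ?_
    refine nbr_res hy hg.1 (fun n hn => ⟨Nat.pos_of_dvd_of_pos
      (hΓ _ (hs (hS n (h1 hn)))).2.2.1 hN, hc (m', n) (hS n (h1 hn))⟩) _ _ fun S'' h3 h4 => ?_
    have h5 := sep_inv S'' _ _ hM3 hZ h4 fun n hn => h2 n (h3 hn)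
    rwa [log_exp] at h5
  have c4 : ∀ Δ ⊆ Γ, (∀ t ∈ Δ, Res γ y M (b * t.1)) →
      nb N Δ ≤ M * (2 * √Y / (M : ℝ) ^ 3) := by
    intro Δ hs hc
    refine nbr_div N hN Δ (fun t ht => (hΓ t (hs ht)).2.2.1) _ fun d' S hS => ?_
    refine nbr_res hy hg.2.1 (fun n hn => ⟨(hΓ _ (hs (hS n hn))).1, hc (n, d') (hS n hn)⟩) _ _
      fun S' h3 h4 => ?_
    exact sep_inv_sqrt S' _ Y (by linarith) h4 fun n hn => (hΓ _ (hs (hS n (h3 hn)))).2.1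
  refine (nbr_four N Γ (fun t ht => (hΓ t ht).2.2.2.2) c1 c2 c3 c4).trans ?_
  have h1 := nbr_num (s := √(M : ℝ)) (one_le_sqrt.2 hM0)
  rw [sq_sqrt (by positivity)] at h1
  have h2 := mul_le_mul_of_nonneg_right h1 (sqrt_nonneg Y)
  generalize (M : ℝ) ^ 3 = P at h2 ⊢
  simp only [div_eq_mul_inv] at h2 ⊢
  linarith

theorem nb_big (γ κ y δ Y Z : ℝ) (τ M a b m d N : ℕ) (hM : 1 ≤ M) (hN : 0 < N) (hy : 0 < y)
    (hy4 : y ≤ 1 / 4) (hκ : 0 < κ) (hκ1 : κ ≤ 1) (hγ : Dio γ κ τ) (hb : 0 < b) (hd : 0 < d)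
    (hδ : ∑ d' ∈ N.divisors.filter (fun d' : ℕ => Z < d'), pw N d' ≤ δ)
    (Γ : Finset (ℕ × ℕ))
    (hΓ : ∀ t ∈ Γ, 0 < t.1 ∧ (t.1 : ℝ) ≤ Y ∧ t.2 ∣ N ∧
      Near (γ * ((a : ℝ) * m * t.2 - b * t.1 * d)) (2 * y) ∧
      (Z < t.2 ∨ (Y / 2 < t.1 ∧ (M : ℝ) * ((b : ℝ) * d * M) ^ τ ≤ κ * Y))) :
    nb N Γ ≤ (2 * δ + 48 * y + 4 / M) * √Y := by
  classical
  have hM0 : (1 : ℝ) ≤ M := Nat.one_le_cast.2 hM
  have hb0 : (1 : ℝ) ≤ b := Nat.one_le_cast.2 hb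
  have hd0 : (1 : ℝ) ≤ d := Nat.one_le_cast.2 hd
  rw [nbr_split N Γ fun t => Z < t.2]
  have c1 : nb N (Γ.filter fun t => Z < t.2) ≤ δ * (2 * √Y) := by
    refine (nbr_fib1 N _ (N.divisors.filter fun d' : ℕ => Z < d') (fun t ht => ?_) (2 * √Y)
      fun d' S hS => nbr_all Y S fun n hn => ?_).trans
      (mul_le_mul_of_nonneg_right hδ (by positivity))
    · obtain ⟨h1, h2⟩ := mem_filter.1 ht
      exact mem_filter.2 ⟨Nat.mem_divisors.2 ⟨(hΓ t h1).2.2.1, hN.ne'⟩, h2⟩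
    · have := hΓ _ (mem_filter.1 (hS n hn)).1
      exact ⟨this.1, this.2.1⟩
  have c2 : nb N (Γ.filter fun t => ¬ Z < t.2) ≤ (48 * y + 4 / M) * √Y := by
    refine nbr_div N hN _ (fun t ht => (hΓ t (mem_filter.1 ht).1).2.2.1) _ fun d' S hS => ?_
    rcases S.eq_empty_or_nonempty with rfl | ⟨n0, hn0⟩
    · rw [sum_empty]
      positivity
    have hS1 := fun n hn => hΓ _ (mem_filter.1 (hS n hn)).1
    have hS2 := fun n hn => (hS1 n hn).2.2.2.2.resolve_left (mem_filter.1 (hS n hn)).2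
    have hP : (1 : ℝ) ≤ ((b : ℝ) * d * M) ^ τ :=
      one_le_pow₀ (one_le_mul_of_one_le_of_one_le (one_le_mul_of_one_le_of_one_le hb0 hd0) hM0)
    have hY : 0 < Y := (Nat.cast_pos.2 (hS1 n0 hn0).1).trans_le (hS1 n0 hn0).2.1
    have h1 := rot_count (γ * (b * d)) (γ * (a * m * d')) y Y (κ / ((b : ℝ) * d * M) ^ τ) M hM hy
      hy4 (by positivity) ((div_le_one (by positivity)).2 (hκ1.trans hP)) (fun t t1 t2 z => ?_)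
      ?_ S fun n hn => ⟨(hS1 n hn).1, (hS1 n hn).2.1, ?_⟩
    · have h2 : ∀ n ∈ S, 1 / √(n : ℝ) ≤ 2 / √Y := by
        intro n hn
        have h3 : Y / 2 < n := (hS2 n hn).1
        rw [div_le_div_iff₀ (sqrt_pos.2 (by linarith)) (sqrt_pos.2 hY), one_mul,
          sqrt_le_left (by positivity), mul_pow, sq_sqrt (by positivity)]
        linarith
      refine (sum_le_card_nsmul _ _ _ h2).trans ?_
      rw [nsmul_eq_mul]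
      refine (mul_le_mul_of_nonneg_right h1 (by positivity)).trans (le_of_eq ?_)
      have h4 : Y = √Y * √Y := (mul_self_sqrt hY.le).symm
      have h5 : 0 < √Y := sqrt_pos.2 hY
      calc (24 * y + 2 / M) * Y * (2 / √Y) = (24 * y + 2 / M) * (√Y * √Y) * (2 / √Y) := by
            rw [← h4]
        _ = _ := by field_simp; ring
    · have h2 := hγ (b * d * t) (Nat.mul_pos (Nat.mul_pos hb hd) t1) z
      have e : γ * ((b * d * t : ℕ) : ℝ) = γ * (b * d) * t := by push_cast; ring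
      rw [e] at h2
      refine le_trans ?_ h2
      have t3 : (1 : ℝ) ≤ t := Nat.one_le_cast.2 t1
      have t4 : (t : ℝ) ≤ M := Nat.cast_le.2 t2
      push_cast
      gcongr
    · rw [div_mul_eq_mul_div, le_div_iff₀ (by positivity)]
      exact (hS2 n0 hn0).2
    · have h2 := (hS1 n hn).2.2.2.1.neg
      have e : γ * ((b : ℝ) * d) * n - γ * (a * m * d') =
          -(γ * ((a : ℝ) * m * d' - b * n * d)) := by ring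
      rwa [e]
  linarith

end Vale.Agent.P028
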