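import Vale.Agent.P028.Schur
import Vale.Agent.P028.Nbr

/-! The base case: bounds inside one cluster. -/

namespace Vale.Agent.P028

open Finset Real

section aux

variable {V W : Finset ℕ} {E : Finset (ℕ × ℕ)} {a b N : ℕ} {m d : ℕ → ℕ}

theorem base_DD (hC : Clu V W E a b N m d) (ψ : ℕ → ℝ) {v w : ℕ} (he : (v, w) ∈ E) :
    DD ψ v w = max (ψ v * ((b : ℝ) * m w * d v)) (ψ w * ((a : ℝ) * m v * d w)) := by
  obtain ⟨-, -, h1, h2, -⟩ := hC.edge _ he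
  dsimp only at h1 h2
  unfold DD
  rw [h1, h2]
  push_cast
  rfl

theorem base_bohr (hC : Clu V W E a b N m d) {γ η : ℝ} {v w : ℕ} (he : (v, w) ∈ E)
    (h : Bohr γ v w η) : Near (γ * ((a : ℝ) * m v * d w - b * m w * d v)) η := by
  obtain ⟨-, -, h1, h2, -⟩ := hC.edge _ he
  dsimp only at h1 h2
  unfold Bohr at h
  rw [h1, h2] at h
  push_cast at h
  exact h

theorem base_bohr' (hC : Clu V W E a b N m d) {γ η : ℝ} {v w : ℕ} (he : (v, w) ∈ E)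
    (h : Bohr γ v w η) : Near (γ * ((b : ℝ) * m w * d v - a * m v * d w)) η := by
  have := (base_bohr hC he h).neg
  have e : γ * ((b : ℝ) * m w * d v - a * m v * d w) =
      -(γ * ((a : ℝ) * m v * d w - b * m w * d v)) := by ring
  rw [e]; exact this

theorem base_le_div {x s y : ℝ} {c k n : ℕ} (hs : 0 < s) (hc : 0 < c) (hn : 0 < n)
    (h : s * ((c : ℝ) * k * n) ≤ y) (hx : x = k) : x ≤ y / (s * c * n) := by
  have h1 : (0 : ℝ) < c := by exact_mod_cast hc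
  have h2 : (0 : ℝ) < n := by exact_mod_cast hn
  rw [le_div_iff₀ (by positivity), hx]
  calc (k : ℝ) * (s * c * n) = s * ((c : ℝ) * k * n) := by ring
    _ ≤ y := h

theorem base_factW (hC : Clu V W E a b N m d) (ψ : ℕ → ℝ) (hV : ∀ v ∈ V, 0 < ψ v) {y : ℝ}
    {v w : ℕ} (he : (v, w) ∈ E) (hD : DD ψ v w ≤ y) :
    0 < m w ∧ (m w : ℝ) ≤ y / (ψ v * b * d v) ∧ d w ∣ N := by
  obtain ⟨hv, hw, -⟩ := hC.edge _ he
  dsimp only at hv hw
  obtain ⟨-, h1, h2, -⟩ := hC.vW w hw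
  obtain ⟨-, -, h3, -⟩ := hC.vV v hv
  refine ⟨h1, ?_, h2⟩
  rw [base_DD hC ψ he] at hD
  exact base_le_div (hV v hv) hC.bpos (Nat.pos_of_dvd_of_pos h3 hC.Npos)
    ((le_max_left _ _).trans hD) rfl

theorem base_factV (hC : Clu V W E a b N m d) (ψ : ℕ → ℝ) (hW : ∀ w ∈ W, 0 < ψ w) {y : ℝ}
    {v w : ℕ} (he : (v, w) ∈ E) (hD : DD ψ v w ≤ y) :
    0 < m v ∧ (m v : ℝ) ≤ y / (ψ w * a * d w) ∧ d v ∣ N := by
  obtain ⟨hv, hw, -⟩ := hC.edge _ he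
  dsimp only at hv hw
  obtain ⟨-, h1, h2, -⟩ := hC.vV v hv
  obtain ⟨-, -, h3, -⟩ := hC.vW w hw
  refine ⟨h1, ?_, h2⟩
  rw [base_DD hC ψ he] at hD
  exact base_le_div (hW w hw) hC.apos (Nat.pos_of_dvd_of_pos h3 hC.Npos)
    ((le_max_right _ _).trans hD) rfl

theorem base_memW {E : Finset (ℕ × ℕ)} {v : ℕ} {t : ℕ × ℕ}
    (ht : t ∈ (E.filter fun e => e.1 = v).image fun e => (m e.2, d e.2)) :
    ∃ w, (v, w) ∈ E ∧ t = (m w, d w) := by
  obtain ⟨⟨v', w⟩, he, rfl⟩ := Finset.mem_image.1 ht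
  obtain ⟨he', hv⟩ := Finset.mem_filter.1 he
  dsimp only at hv
  subst hv
  exact ⟨w, he', rfl⟩

theorem base_memV {E : Finset (ℕ × ℕ)} {w : ℕ} {t : ℕ × ℕ}
    (ht : t ∈ (E.filter fun e => e.2 = w).image fun e => (m e.1, d e.1)) :
    ∃ v, (v, w) ∈ E ∧ t = (m v, d v) := by
  obtain ⟨⟨v, w'⟩, he, rfl⟩ := Finset.mem_image.1 ht
  obtain ⟨he', hv⟩ := Finset.mem_filter.1 he
  dsimp only at hv
  subst hv
  exact ⟨v, he', rfl⟩

theorem base_trivW (hC : Clu V W E a b N m d) (ψ : ℕ → ℝ) (hV : ∀ v ∈ V, 0 < ψ v) {y : ℝ}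
    (hD : ∀ e ∈ E, DD ψ e.1 e.2 ≤ y) (v : ℕ) :
    nb N ((E.filter fun e => e.1 = v).image fun e => (m e.2, d e.2)) ≤
      2 * √(y / (ψ v * b * d v)) := by
  refine nb_triv N hC.Npos _ _ fun t ht => ?_
  obtain ⟨w, he, rfl⟩ := base_memW ht
  exact base_factW hC ψ hV he (hD _ he)

theorem base_trivV (hC : Clu V W E a b N m d) (ψ : ℕ → ℝ) (hW : ∀ w ∈ W, 0 < ψ w) {y : ℝ}
    (hD : ∀ e ∈ E, DD ψ e.1 e.2 ≤ y) (w : ℕ) :
    nb N ((E.filter fun e => e.2 = w).image fun e => (m e.1, d e.1)) ≤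
      2 * √(y / (ψ w * a * d w)) := by
  refine nb_triv N hC.Npos _ _ fun t ht => ?_
  obtain ⟨v, he, rfl⟩ := base_memV ht
  exact base_factV hC ψ hW he (hD _ he)

theorem base_two (hC : Clu V W E a b N m d) (ψ : ℕ → ℝ) (hV : ∀ v ∈ V, 0 < ψ v)
    (hW : ∀ w ∈ W, 0 < ψ w) (y : ℝ) (hy : 0 < y) (hD : ∀ e ∈ E, DD ψ e.1 e.2 ≤ y)
    (P : ℕ → ℕ → Prop) (σ u : ℝ) (hσ : 0 ≤ σ) (hu : 0 ≤ u) (hσu : σ ≤ 72 * u ^ 2)
    (h1 : ∀ v ∈ V, ∀ Γ : Finset (ℕ × ℕ),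
      (∀ t ∈ Γ, ∃ w, (v, w) ∈ E ∧ P v w ∧ t = (m w, d w)) →
        nb N Γ ≤ σ * √(y / (ψ v * b * d v)))
    (h2 : ∀ w ∈ W, ∀ Γ : Finset (ℕ × ℕ),
      (∀ t ∈ Γ, ∃ v, (v, w) ∈ E ∧ ¬ P v w ∧ t = (m v, d v)) →
        nb N Γ ≤ σ * √(y / (ψ w * a * d w))) :
    ms (wt ψ) E ≤ 24 * u * y / √((a : ℝ) * b) *
      √((∑ v ∈ V, wt ψ v) * ∑ w ∈ W, wt ψ w) := by
  classical
  have hs : ms (wt ψ) E = ms (wt ψ) (E.filter fun e => P e.1 e.2) +
      ms (wt ψ) (E.filter fun e => ¬ P e.1 e.2) := by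
    unfold ms
    rw [Finset.sum_filter_add_sum_filter_not]
  have hC1 := hC.mono (Finset.filter_subset (fun e => P e.1 e.2) E)
  have hC2 := hC.mono (Finset.filter_subset (fun e => ¬ P e.1 e.2) E)
  have hD1 : ∀ e ∈ E.filter fun e => P e.1 e.2, DD ψ e.1 e.2 ≤ y :=
    fun e he => hD e (Finset.mem_filter.1 he).1
  have hD2 : ∀ e ∈ E.filter fun e => ¬ P e.1 e.2, DD ψ e.1 e.2 ≤ y :=
    fun e he => hD e (Finset.mem_filter.1 he).1
  have k1 := schur hC1 ψ hV hW y hy hD1 σ 2 hσ (by norm_num)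
    (fun v hv => h1 v hv _ fun t ht => by
      obtain ⟨w, he, rfl⟩ := base_memW ht
      obtain ⟨he, hp⟩ := Finset.mem_filter.1 he
      exact ⟨w, he, hp, rfl⟩)
    (fun w _ => base_trivV hC1 ψ hW hD1 w)
  have k2 := schur hC2 ψ hV hW y hy hD2 2 σ (by norm_num) hσ
    (fun v _ => base_trivW hC2 ψ hV hD2 v)
    (fun w hw => h2 w hw _ fun t ht => by
      obtain ⟨v, he, rfl⟩ := base_memV ht
      obtain ⟨he, hp⟩ := Finset.mem_filter.1 he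
      exact ⟨v, he, hp, rfl⟩)
  have e1 : √(σ * 2) ≤ 12 * u := by
    rw [Real.sqrt_le_left (by positivity)]
    nlinarith
  have e2 : √(2 * σ) ≤ 12 * u := by rw [mul_comm 2 σ]; exact e1
  set A := √((∑ v ∈ V, wt ψ v) * ∑ w ∈ W, wt ψ w) with hA
  have hA0 : 0 ≤ A := Real.sqrt_nonneg _
  have hq : 0 ≤ y / √((a : ℝ) * b) := by positivity
  have f1 : y / √((a : ℝ) * b) * √(σ * 2) * A ≤ y / √((a : ℝ) * b) * (12 * u) * A := by gcongr
  have f2 : y / √((a : ℝ) * b) * √(2 * σ) * A ≤ y / √((a : ℝ) * b) * (12 * u) * A := by gcongr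
  have f3 : 24 * u * y / √((a : ℝ) * b) * A =
      y / √((a : ℝ) * b) * (12 * u) * A + y / √((a : ℝ) * b) * (12 * u) * A := by ring
  rw [hs, f3]
  linarith

/-- One of the two endpoints of an edge gives a saving. -/
theorem base_SW (hC : Clu V W E a b N m d) {γ y X : ℝ} {M : ℕ} (hg : Good γ y M X a b)
    {v w : ℕ} (he : (v, w) ∈ E) (hne : v ≠ w) (hB : Bohr γ v w (2 * y))
    (h : ¬ SW γ y M a b (m v) (d v) (m w) (d w)) : SW γ y M b a (m w) (d w) (m v) (d v) := by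
  by_contra h'
  unfold SW at h h'
  simp only [not_or, not_and, not_not] at h h'
  obtain ⟨p1, p2, p3, p4⟩ := h
  obtain ⟨q1, q2, q3, q4⟩ := h'
  have r1 : m w ≤ M := by by_contra c; exact q3 (p1 (not_le.1 c))
  have r2 : d w ≤ M := by by_contra c; exact q4 (p2 (not_le.1 c))
  have r3 : m v ≤ M := by by_contra c; exact p3 (q1 (not_le.1 c))
  have r4 : d v ≤ M := by by_contra c; exact p4 (q2 (not_le.1 c))
  have hn := base_bohr hC he hB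
  obtain ⟨hv, hw, e1, e2, -⟩ := hC.edge _ he
  dsimp only at hv hw e1 e2
  obtain ⟨-, a1, a2, -⟩ := hC.vV v hv
  obtain ⟨-, b1, b2, -⟩ := hC.vW w hw
  have a3 := Nat.pos_of_dvd_of_pos a2 hC.Npos
  have b3 := Nat.pos_of_dvd_of_pos b2 hC.Npos
  refine hg.2.2.1 (m v * d w) (m w * d v) (Nat.mul_pos a1 b3)
    (by rw [sq]; exact Nat.mul_le_mul r3 r2) (Nat.mul_pos b1 a3)
    (by rw [sq]; exact Nat.mul_le_mul r1 r4) ?_ ?_
  · intro c
    apply hne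
    have c' : v / Nat.gcd v w = w / Nat.gcd v w := by
      rw [e1, e2]
      calc a * m v * d w = m v * d w * a := by ring
        _ = m w * d v * b := c
        _ = b * m w * d v := by ring
    calc v = Nat.gcd v w * (v / Nat.gcd v w) := (Nat.mul_div_cancel' (Nat.gcd_dvd_left v w)).symm
      _ = Nat.gcd v w * (w / Nat.gcd v w) := by rw [c']
      _ = w := Nat.mul_div_cancel' (Nat.gcd_dvd_right v w)
  · have e : γ * (((m v * d w : ℕ) : ℝ) * a - ((m w * d v : ℕ) : ℝ) * b) =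
        γ * ((a : ℝ) * m v * d w - b * m w * d v) := by push_cast; ring
    rw [e]; exact hn

theorem base_NZ {N n v : ℕ} {Z : ℝ} (hv : 0 < v) (h1 : n ∣ N) (h2 : N / n ∣ v)
    (hZ : (n : ℝ) ≤ Z) : (N : ℝ) ≤ Z * v := by
  have e : N = n * (N / n) := (Nat.mul_div_cancel' h1).symm
  have h3 : ((N / n : ℕ) : ℝ) ≤ v := by exact_mod_cast Nat.le_of_dvd hv h2
  calc (N : ℝ) = (n : ℝ) * ((N / n : ℕ) : ℝ) := by exact_mod_cast e
    _ ≤ Z * v := mul_le_mul hZ h3 (Nat.cast_nonneg _) ((Nat.cast_nonneg n).trans hZ)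

theorem base_big {s y Z κ : ℝ} {c k n M τ : ℕ} (hs : 0 < s) (hy : 0 < y) (hy1 : y ≤ 1)
    (hc : 0 < c) (hn : 0 < n) (hcX : (c : ℝ) ≤ y ^ (-(20 : ℝ))) (hM : (M : ℝ) ≤ 1 / y)
    (hZ : (n : ℝ) ≤ Z) (hk : y / 2 < s * ((c : ℝ) * k * n))
    (hκ : s * (Z * y ^ (-(22 : ℝ))) ^ (τ + 1) ≤ κ) :
    y / (s * c * n) / 2 < k ∧ (M : ℝ) * ((c : ℝ) * n * M) ^ τ ≤ κ * (y / (s * c * n)) := by
  have h1 : (0 : ℝ) < c := by exact_mod_cast hc
  have h2 : (0 : ℝ) < n := by exact_mod_cast hn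
  have hZ0 : 0 < Z := h2.trans_le hZ
  have hp : 0 < s * c * n := by positivity
  constructor
  · rw [div_lt_iff₀ (by norm_num), div_lt_iff₀ hp]
    nlinarith
  · rw [← mul_div_assoc, le_div_iff₀ hp]
    have e0 : y ^ (-(20 : ℝ)) * (1 / y) = y ^ (-(22 : ℝ)) * y := by
      have a1 : y ^ (-(20 : ℝ)) = y ^ (-(22 : ℝ)) * y ^ (2 : ℝ) := by
        rw [← Real.rpow_add hy]; norm_num
      rw [a1, Real.rpow_two]
      field_simp
    have hq : 0 < y ^ (-(22 : ℝ)) := Real.rpow_pos_of_pos hy _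
    have h3 : (c : ℝ) * n * M ≤ Z * y ^ (-(22 : ℝ)) * y := by
      calc (c : ℝ) * n * M ≤ y ^ (-(20 : ℝ)) * Z * (1 / y) := by gcongr
        _ = Z * (y ^ (-(20 : ℝ)) * (1 / y)) := by ring
        _ = Z * y ^ (-(22 : ℝ)) * y := by rw [e0]; ring
    have h4 : y ^ (τ + 1) ≤ y := by
      rw [pow_succ]
      have := pow_le_one₀ (n := τ) hy.le hy1
      nlinarith
    calc (M : ℝ) * ((c : ℝ) * n * M) ^ τ * (s * c * n) = s * ((c : ℝ) * n * M) ^ (τ + 1) := by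
          ring
      _ ≤ s * (Z * y ^ (-(22 : ℝ)) * y) ^ (τ + 1) := by gcongr
      _ = s * (Z * y ^ (-(22 : ℝ))) ^ (τ + 1) * y ^ (τ + 1) := by rw [mul_pow _ y]; ring
      _ ≤ κ * y := by
          have : 0 ≤ κ := le_trans (by positivity) hκ
          gcongr

end aux

theorem base_triv {V W : Finset ℕ} {E : Finset (ℕ × ℕ)} {a b N : ℕ} {m d : ℕ → ℕ}
    (hC : Clu V W E a b N m d) (ψ : ℕ → ℝ) (hV : ∀ v ∈ V, 0 < ψ v) (hW : ∀ w ∈ W, 0 < ψ w)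
    (y : ℝ) (hy : 0 < y) (hD : ∀ e ∈ E, DD ψ e.1 e.2 ≤ y) :
    ms (wt ψ) E ≤ 2 * y / √((a : ℝ) * b) * √((∑ v ∈ V, wt ψ v) * ∑ w ∈ W, wt ψ w) := by
  have k := schur hC ψ hV hW y hy hD 2 2 (by norm_num) (by norm_num)
    (fun v _ => base_trivW hC ψ hV hD v) (fun w _ => base_trivV hC ψ hW hD w)
  rw [Real.sqrt_mul_self (by norm_num)] at k
  have e : 2 * y / √((a : ℝ) * b) = y / √((a : ℝ) * b) * 2 := by ring
  rw [e]; exact k

/-- With `M = ⌊y ^ (-1 / (10 τ))⌋` and `X = y ^ (-20)`. -/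
theorem base_save {V W B : Finset ℕ} {E : Finset (ℕ × ℕ)} {a b N : ℕ} {m d : ℕ → ℕ}
    (hC : Clu V W E a b N m d) (hVB : V ⊆ B) (hWB : W ⊆ B) (ψ : ℕ → ℝ) (hB : ∀ v ∈ B, 0 < ψ v)
    (γ κ ε y : ℝ) (τ : ℕ) (hτ : 1 ≤ τ) (hκ : 0 < κ) (hκ1 : κ ≤ 1) (hγ : Dio γ κ τ)
    (hε : 0 < ε) (hε1 : ε ≤ 1 / (320 * τ)) (hy : 0 < y) (hy4 : y ≤ 1 / 4)
    (hH : Hyp ψ B κ τ ε y)
    (hg : Good γ y ⌊y ^ (-(1 / (10 * (τ : ℝ))))⌋₊ (y ^ (-(20 : ℝ))) a b)
    (hD : ∀ e ∈ E, e.1 ≠ e.2 ∧ y / 2 < DD ψ e.1 e.2 ∧ DD ψ e.1 e.2 ≤ y ∧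
      Bohr γ e.1 e.2 (2 * y)) :
    ms (wt ψ) E ≤ 24 * y ^ (4 * ε) * y / √((a : ℝ) * b) *
      √((∑ v ∈ V, wt ψ v) * ∑ w ∈ W, wt ψ w) := by
  have hV : ∀ v ∈ V, 0 < ψ v := fun v hv => hB v (hVB hv)
  have hW : ∀ w ∈ W, 0 < ψ w := fun w hw => hB w (hWB hw)
  have hu : 0 < y ^ (4 * ε) := Real.rpow_pos_of_pos hy _
  rcases E.eq_empty_or_nonempty with rfl | ⟨e0, he0⟩
  · unfold ms
    rw [Finset.sum_empty]
    positivity
  have hy1 : y ≤ 1 := by linarith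
  have hτ' : (1 : ℝ) ≤ τ := by exact_mod_cast hτ
  set c : ℝ := 1 / (10 * (τ : ℝ)) with hc
  have hc0 : 0 < c := by positivity
  have hc1 : c ≤ 1 := by
    rw [hc, div_le_iff₀ (by positivity)]; linarith
  have hεc : 32 * ε ≤ c := by
    have : (1 : ℝ) / (320 * τ) = c / 32 := by rw [hc]; field_simp; norm_num
    linarith
  have hc4 : (1 : ℝ) / (40 * τ) = c / 4 := by rw [hc]; field_simp; norm_num
  set M := ⌊y ^ (-c)⌋₊ with hM
  have hx1 : 1 ≤ y ^ (-c) := Real.one_le_rpow_of_pos_of_le_one_of_nonpos hy hy1 (by linarith)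
  have hM1 : 1 ≤ M := by
    rw [hM]; exact Nat.le_floor (by exact_mod_cast hx1)
  have hM1' : (1 : ℝ) ≤ M := by exact_mod_cast hM1
  have hMu : (M : ℝ) ≤ 1 / y := by
    calc (M : ℝ) ≤ y ^ (-c) := Nat.floor_le (by linarith)
      _ ≤ y ^ (-(1 : ℝ)) := Real.rpow_le_rpow_of_exponent_ge hy hy1 (by linarith)
      _ = 1 / y := by rw [Real.rpow_neg_one, one_div]
  have hMl : y ^ (-c) ≤ 2 * M := by
    have := Nat.lt_floor_add_one (y ^ (-c))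
    rw [← hM] at this
    linarith
  have hyc : 0 < y ^ c := Real.rpow_pos_of_pos hy _
  have hMi : 1 / (M : ℝ) ≤ 2 * y ^ c := by
    rw [div_le_iff₀ (by linarith)]
    have e : y ^ (-c) * y ^ c = 1 := by rw [← Real.rpow_add hy]; simp
    nlinarith
  have hu2 : (y ^ (4 * ε)) ^ 2 = y ^ (8 * ε) := by
    rw [sq, ← Real.rpow_add hy]; ring_nf
  have hu8 : 0 < y ^ (8 * ε) := Real.rpow_pos_of_pos hy _
  have hD' : ∀ e ∈ E, DD ψ e.1 e.2 ≤ y := fun e he => (hD e he).2.2.1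
  obtain ⟨hv0, hw0, -, -, hN0⟩ := hC.edge e0 he0
  rcases hH N ⟨_, hVB hv0, _, hWB hw0, hN0⟩ with H | ⟨Z, hZ, hL, hψ⟩
  · have hsM : 1 ≤ √(M : ℝ) := Real.one_le_sqrt.2 hM1'
    have hδ := pw_tail N hC.Npos (exp (√(M : ℝ))) (Real.one_lt_exp_iff.2 (by linarith))
    rw [Real.log_exp] at hδ
    have hq : 0 < y ^ (c / 2) := Real.rpow_pos_of_pos hy _
    have hq2 : y ^ (c / 2) * y ^ (c / 2) = y ^ c := by
      rw [← Real.rpow_add hy]; ring_nf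
    have hi : 1 / √(M : ℝ) ≤ 2 * y ^ (c / 2) := by
      rw [div_le_iff₀ (by linarith)]
      have h1 : √(M : ℝ) * √(M : ℝ) = M := Real.mul_self_sqrt (by linarith)
      rw [div_le_iff₀ (by linarith)] at hMi
      by_contra hcon
      have hcon := not_le.1 hcon
      have hp : 0 < 2 * y ^ (c / 2) * √(M : ℝ) := by positivity
      have : (2 * y ^ (c / 2) * √(M : ℝ)) * (2 * y ^ (c / 2) * √(M : ℝ)) < 1 := by nlinarith
      have e : (2 * y ^ (c / 2) * √(M : ℝ)) * (2 * y ^ (c / 2) * √(M : ℝ)) =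
          4 * (y ^ (c / 2) * y ^ (c / 2)) * (√(M : ℝ) * √(M : ℝ)) := by ring
      rw [e, hq2, h1] at this
      have : 0 < y ^ c * M := by positivity
      linarith
    have g1 : y ^ (c / 2) ≤ y ^ (8 * ε) :=
      Real.rpow_le_rpow_of_exponent_ge hy hy1 (by linarith)
    have g2 : Lam N / √(M : ℝ) ≤ 2 * y ^ (8 * ε) := by
      rw [hc4] at H
      have e : y ^ (-(c / 4)) * y ^ (c / 2) = y ^ (c / 4) := by
        rw [← Real.rpow_add hy]; ring_nf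
      have g3 : y ^ (c / 4) ≤ y ^ (8 * ε) :=
        Real.rpow_le_rpow_of_exponent_ge hy hy1 (by linarith)
      have hL0 := Lam_nonneg N
      calc Lam N / √(M : ℝ) = Lam N * (1 / √(M : ℝ)) := by ring
        _ ≤ y ^ (-(c / 4)) * (2 * y ^ (c / 2)) := by gcongr
        _ = 2 * (y ^ (-(c / 4)) * y ^ (c / 2)) := by ring
        _ ≤ 2 * y ^ (8 * ε) := by rw [e]; linarith
    have hL0 := Lam_nonneg N
    refine base_two hC ψ hV hW y hy hD' (fun v w => SW γ y M a b (m v) (d v) (m w) (d w))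
      (12 / √(M : ℝ) + 4 * (Lam N / √(M : ℝ))) _ (by positivity) hu.le ?_ ?_ ?_
    · rw [hu2]
      have : 12 / √(M : ℝ) = 12 * (1 / √(M : ℝ)) := by ring
      rw [this]
      linarith
    · intro v _ Γ hΓ
      refine nb_SW γ y _ _ _ M a b (m v) (d v) N hM1 hC.Npos hy hg hδ Γ fun t ht => ?_
      obtain ⟨w, he, hp, rfl⟩ := hΓ t ht
      obtain ⟨k1, k2, k3⟩ := base_factW hC ψ hV he (hD' _ he)
      exact ⟨k1, k2, k3, base_bohr hC he (hD _ he).2.2.2, hp⟩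
    · intro w _ Γ hΓ
      refine nb_SW γ y _ _ _ M b a (m w) (d w) N hM1 hC.Npos hy hg.symm hδ Γ fun t ht => ?_
      obtain ⟨v, he, hp, rfl⟩ := hΓ t ht
      obtain ⟨k1, k2, k3⟩ := base_factV hC ψ hW he (hD' _ he)
      exact ⟨k1, k2, k3, base_bohr' hC he (hD _ he).2.2.2,
        base_SW hC hg he (hD _ he).1 (hD _ he).2.2.2 hp⟩
  · have hlZ : 0 < log Z := Real.log_pos hZ
    have hδ : ∑ d' ∈ N.divisors.filter (fun d' : ℕ => Z < d'), pw N d' ≤ y ^ (8 * ε) :=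
      (pw_tail N hC.Npos Z hZ).trans (by rw [div_le_iff₀ hlZ]; exact hL)
    have g1 : y ^ c ≤ y ^ (8 * ε) := Real.rpow_le_rpow_of_exponent_ge hy hy1 (by linarith)
    have g2 : y ≤ y ^ (8 * ε) := by
      calc y = y ^ (1 : ℝ) := (Real.rpow_one y).symm
        _ ≤ y ^ (8 * ε) := Real.rpow_le_rpow_of_exponent_ge hy hy1 (by linarith)
    refine base_two hC ψ hV hW y hy hD'
      (fun v w => Z < d w ∨ ((d v : ℝ) ≤ Z ∧ y / 2 < ψ v * ((b : ℝ) * m w * d v)))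
      (2 * y ^ (8 * ε) + 48 * y + 4 / M) _ (by positivity) hu.le ?_ ?_ ?_
    · rw [hu2]
      have : 4 / (M : ℝ) = 4 * (1 / (M : ℝ)) := by ring
      rw [this]
      linarith
    · intro v hv Γ hΓ
      obtain ⟨a0, -, a2, a3⟩ := hC.vV v hv
      have a4 := Nat.pos_of_dvd_of_pos a2 hC.Npos
      refine nb_big γ κ y _ _ Z τ M a b (m v) (d v) N hM1 hC.Npos hy hy4 hκ hκ1 hγ hC.bpos a4
        hδ Γ fun t ht => ?_
      obtain ⟨w, he, hp, rfl⟩ := hΓ t ht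
      obtain ⟨k1, k2, k3⟩ := base_factW hC ψ hV he (hD' _ he)
      refine ⟨k1, k2, k3, base_bohr hC he (hD _ he).2.2.2, ?_⟩
      rcases hp with hp | ⟨p1, p2⟩
      · exact Or.inl hp
      · exact Or.inr (base_big (hV v hv) hy hy1 hC.bpos a4 hg.2.2.2.2 hMu p1 p2
          (hψ v (hVB hv) (base_NZ a0 a2 a3 p1)))
    · intro w hw Γ hΓ
      obtain ⟨a0, -, a2, a3⟩ := hC.vW w hw
      have a4 := Nat.pos_of_dvd_of_pos a2 hC.Npos
      refine nb_big γ κ y _ _ Z τ M b a (m w) (d w) N hM1 hC.Npos hy hy4 hκ hκ1 hγ hC.apos a4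
        hδ Γ fun t ht => ?_
      obtain ⟨v, he, hp, rfl⟩ := hΓ t ht
      obtain ⟨k1, k2, k3⟩ := base_factV hC ψ hW he (hD' _ he)
      refine ⟨k1, k2, k3, base_bohr' hC he (hD _ he).2.2.2, ?_⟩
      by_cases hz : Z < d v
      · exact Or.inl hz
      · have p1 : (d w : ℝ) ≤ Z := not_lt.1 fun h => hp (Or.inl h)
        have p3 : ¬ y / 2 < ψ v * ((b : ℝ) * m w * d v) := fun h => hp (Or.inr ⟨not_lt.1 hz, h⟩)
        have p2 : y / 2 < ψ w * ((a : ℝ) * m v * d w) := by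
          have := (hD _ he).2.1
          dsimp only at this
          rw [base_DD hC ψ he, lt_max_iff] at this
          exact this.resolve_left p3
        exact Or.inr (base_big (hW w hw) hy hy1 hC.apos a4 hg.2.2.2.1 hMu p1 p2
          (hψ w (hWB hw) (base_NZ a0 a2 a3 p1)))

end Vale.Agent.P028
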