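import Vale.Agent.P028.Level

/-! Summing over the levels. -/

namespace Vale.Agent.P028

open Finset Real

theorem block_DD_pos {ψ : ℕ → ℝ} {q r : ℕ} (hr : 0 < r) (hψ : 0 < ψ q) : 0 < DD ψ q r := by
  have h : 0 < r / Nat.gcd q r :=
    Nat.div_pos (Nat.le_of_dvd hr (Nat.gcd_dvd_right q r)) (Nat.gcd_pos_of_pos_right q hr)
  exact lt_max_of_lt_left (mul_pos hψ (Nat.cast_pos.2 h))

theorem block_geo {ε : ℝ} (hε : 0 < ε) (J : Finset ℕ) :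
    ∑ j ∈ J, ((1 / 2 : ℝ) ^ j) ^ ε ≤ (1 - (1 / 2 : ℝ) ^ ε)⁻¹ := by
  have h0 : 0 ≤ (1 / 2 : ℝ) ^ ε := by positivity
  have h1 : (1 / 2 : ℝ) ^ ε < 1 := rpow_lt_one (by norm_num) (by norm_num) hε
  have e : ∀ j : ℕ, ((1 / 2 : ℝ) ^ j) ^ ε = ((1 / 2 : ℝ) ^ ε) ^ j := fun j => by
    rw [← rpow_natCast, ← rpow_natCast, ← rpow_mul (by norm_num), ← rpow_mul (by norm_num),
      mul_comm]
  simp only [e]
  rw [← tsum_geometric_of_lt_one h0 h1]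
  exact (summable_geometric_of_lt_one h0 h1).sum_le_tsum J fun j _ => by positivity

theorem block (κ ε : ℝ) (τ : ℕ) (hτ : 1 ≤ τ) (hκ : 0 < κ) (hκ1 : κ ≤ 1)
    (hε : 0 < ε) (hε1 : ε ≤ 1 / (320 * τ)) : ∃ C : ℝ, 0 < C ∧
    ∀ (γ : ℝ), Dio γ κ τ → ∀ (ψ : ℕ → ℝ) (B : Finset ℕ), (∀ q, 0 ≤ ψ q) →
    (∀ q ∈ B, 0 < q ∧ 0 < ψ q) → ∀ y₁ : ℝ, 0 < y₁ → y₁ ≤ (κ / 16) ^ 10 →
    (∀ y : ℝ, 0 < y → y ≤ y₁ → Hyp ψ B κ τ ε y) → 1 ≤ ∑ q ∈ B, wt ψ q →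
    y₁ ^ (-(3 * ε)) ≤ (∑ q ∈ B, wt ψ q) ^ (1 - 2 * ε) →
    ∑ q ∈ B, ∑ r ∈ B, exc γ ψ q r ≤ C * (∑ q ∈ B, wt ψ q) ^ 2 := by
  classical
  have hτ1 : (1 : ℝ) ≤ τ := by exact_mod_cast hτ
  have hε2 : ε ≤ 1 / 320 :=
    hε1.trans (one_div_le_one_div_of_le (by norm_num) (by linarith))
  obtain ⟨Ct, hCt, htriv⟩ := level_triv ε hε (by linarith)
  obtain ⟨Cs, hCs, hsave⟩ := level_save κ ε τ hτ hκ hκ1 hε hε1
  have hg1 : (1 / 2 : ℝ) ^ ε < 1 := rpow_lt_one (by norm_num) (by norm_num) hε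
  have hG : 0 < (1 - (1 / 2 : ℝ) ^ ε)⁻¹ := inv_pos.2 (by linarith)
  refine ⟨1 + 2 * (Ct + Cs) * (1 - (1 / 2 : ℝ) ^ ε)⁻¹, by positivity, ?_⟩
  intro γ hγ ψ B hψ hB y₁ hy₁ hyκ hH hW1 hyW
  set W := ∑ q ∈ B, wt ψ q with hW
  have hW0 : 0 < W := by linarith
  have hw : ∀ v, 0 ≤ wt ψ v := fun v => wt_nonneg (hψ v)
  have hDp : ∀ e ∈ B ×ˢ B, 0 < DD ψ e.1 e.2 := fun e he =>
    block_DD_pos (hB _ (mem_product.1 he).2).1 (hB _ (mem_product.1 he).1).2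
  have hex : ∀ e : ℕ × ℕ, ∃ j : ℕ, 0 < DD ψ e.1 e.2 → DD ψ e.1 e.2 ≤ 1 →
      (1 / 2 : ℝ) ^ (j + 1) < DD ψ e.1 e.2 ∧ DD ψ e.1 e.2 ≤ (1 / 2 : ℝ) ^ j := by
    intro e
    by_cases h : 0 < DD ψ e.1 e.2 ∧ DD ψ e.1 e.2 ≤ 1
    · obtain ⟨j, hj⟩ := exists_nat_pow_near_of_lt_one h.1 h.2
        (by norm_num : (0 : ℝ) < 1 / 2) (by norm_num)
      exact ⟨j, fun _ _ => hj⟩
    · exact ⟨0, fun a b => absurd ⟨a, b⟩ h⟩
  choose lv hlv using hex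
  set S := (B ×ˢ B).filter fun e => DD ψ e.1 e.2 ≤ 1 ∧ e.1 ≠ e.2 ∧
    Bohr γ e.1 e.2 (2 * DD ψ e.1 e.2) with hS
  have hlev : ∀ j : ℕ, ∑ e ∈ S.filter (fun e => lv e = j), wt ψ e.1 * wt ψ e.2 / DD ψ e.1 e.2 ≤
      2 * (Ct + Cs) * W ^ 2 * ((1 / 2 : ℝ) ^ j) ^ ε := by
    intro j
    set y : ℝ := (1 / 2 : ℝ) ^ j with hy
    have hy0 : 0 < y := by positivity
    have hE : ∀ e ∈ S.filter (fun e => lv e = j), e.1 ∈ B ∧ e.2 ∈ B ∧ e.1 ≠ e.2 ∧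
        y / 2 < DD ψ e.1 e.2 ∧ DD ψ e.1 e.2 ≤ y ∧ Bohr γ e.1 e.2 (2 * y) := by
      intro e he
      obtain ⟨he1, rfl⟩ := mem_filter.1 he
      obtain ⟨he2, h1, h2, h3⟩ := mem_filter.1 he1
      obtain ⟨k1, k2⟩ := hlv e (hDp e he2) h1
      refine ⟨(mem_product.1 he2).1, (mem_product.1 he2).2, h2, ?_, k2, Near.mono h3 ?_⟩
      · rw [pow_succ] at k1; linarith
      · linarith
    have h1 : ∑ e ∈ S.filter (fun e => lv e = j), wt ψ e.1 * wt ψ e.2 / DD ψ e.1 e.2 ≤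
        2 / y * ms (wt ψ) (S.filter fun e => lv e = j) := by
      unfold ms
      rw [mul_sum]
      refine sum_le_sum fun e he => ?_
      have h2 := (hE e he).2.2.2.1
      have h3 : 0 ≤ wt ψ e.1 * wt ψ e.2 := mul_nonneg (hw _) (hw _)
      have h4 : 2 / y * (wt ψ e.1 * wt ψ e.2) = wt ψ e.1 * wt ψ e.2 / (y / 2) := by field_simp
      rw [h4]
      exact div_le_div_of_nonneg_left h3 (by positivity) h2.le
    refine h1.trans ?_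
    have hW2 : W ^ (1 - 2 * ε) * W ^ (1 + 2 * ε) = W ^ 2 := by
      rw [← rpow_add hW0, ← rpow_natCast]; congr 1; push_cast; ring
    have hWa : 0 < W ^ (1 + 2 * ε) := by positivity
    have hye : 0 < y ^ ε := by positivity
    by_cases hc : y ≤ y₁
    · have h2 := hsave γ hγ ψ B hψ hB y hy0 (hc.trans hyκ) (hH y hy0 hc) _ hE
      have h3 : W ^ (1 + 2 * ε) ≤ W ^ 2 := by
        rw [← hW2]
        exact le_mul_of_one_le_left hWa.le (one_le_rpow hW1 (by linarith))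
      have h4 : 2 / y * (Cs * y ^ (1 + ε) * W ^ (1 + 2 * ε)) = 2 * Cs * W ^ (1 + 2 * ε) * y ^ ε := by
        rw [rpow_add hy0, rpow_one]; field_simp
      refine (mul_le_mul_of_nonneg_left h2 (by positivity)).trans ?_
      rw [h4]
      gcongr
      linarith
    · have h2 := htriv ψ B hψ hB y hy0 _ fun e he =>
        ⟨(hE e he).1, (hE e he).2.1, (hE e he).2.2.2.2.1⟩
      have h3 : y ^ (-(3 * ε)) ≤ W ^ (1 - 2 * ε) :=
        (rpow_le_rpow_of_nonpos hy₁ (not_le.1 hc).le (by linarith)).trans hyW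
      have h4 : 2 / y * (Ct * y ^ (1 - 2 * ε) * W ^ (1 + 2 * ε)) =
          2 * Ct * (y ^ (-(3 * ε)) * W ^ (1 + 2 * ε)) * y ^ ε := by
        have : y ^ (1 - 2 * ε) = y * (y ^ (-(3 * ε)) * y ^ ε) := by
          rw [← rpow_add hy0, mul_comm y, ← rpow_add_one hy0.ne']; congr 1; ring
        rw [this]; field_simp
      refine (mul_le_mul_of_nonneg_left h2 (by positivity)).trans ?_
      rw [h4, ← hW2]
      gcongr
      linarith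
  have hsplit : ∀ e ∈ B ×ˢ B, exc γ ψ e.1 e.2 ≤ wt ψ e.1 * wt ψ e.2 +
      if DD ψ e.1 e.2 ≤ 1 ∧ e.1 ≠ e.2 ∧ Bohr γ e.1 e.2 (2 * DD ψ e.1 e.2) then
        wt ψ e.1 * wt ψ e.2 / DD ψ e.1 e.2 else 0 := by
    intro e he
    have h3 : 0 ≤ wt ψ e.1 * wt ψ e.2 := mul_nonneg (hw _) (hw _)
    have h4 := hDp e he
    unfold exc
    by_cases h1 : e.1 ≠ e.2 ∧ Bohr γ e.1 e.2 (2 * DD ψ e.1 e.2)
    · rw [if_pos h1]
      by_cases h2 : DD ψ e.1 e.2 ≤ 1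
      · rw [if_pos ⟨h2, h1⟩]; linarith
      · rw [if_neg fun h => h2 h.1, add_zero]
        exact div_le_self h3 (not_le.1 h2).le
    · rw [if_neg h1, if_neg fun h => h1 h.2]; linarith
  rw [← sum_product' (f := fun q r => exc γ ψ q r)]
  refine (sum_le_sum hsplit).trans ?_
  rw [sum_add_distrib, ← sum_filter, ← hS,
    ← sum_fiberwise_of_maps_to (s := S) (t := S.image lv) (g := lv)
      (fun e he => mem_image_of_mem _ he)]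
  have e1 : ∑ e ∈ B ×ˢ B, wt ψ e.1 * wt ψ e.2 = W ^ 2 := by
    rw [sq, hW, sum_mul_sum, sum_product]
  have e2 := sum_le_sum (s := S.image lv) fun j _ => hlev j
  rw [← mul_sum] at e2
  have e3 := mul_le_mul_of_nonneg_left (block_geo hε (S.image lv))
    (show 0 ≤ 2 * (Ct + Cs) * W ^ 2 by positivity)
  rw [e1]
  nlinarith

end Vale.Agent.P028
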