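import Vale.Agent.P028.Defs

/-! From a complete pattern to a cluster. -/

namespace Vale.Agent.P028

open Finset Real

private theorem clu_pos (S : Finset ℕ) (hS : ∀ p ∈ S, p.Prime) (f : ℕ → ℕ) :
    0 < ∏ p ∈ S, p ^ f p :=
  Finset.prod_pos fun p hp => pow_pos (hS p hp).pos _

private theorem clu_fact (S : Finset ℕ) (hS : ∀ p ∈ S, p.Prime) (f : ℕ → ℕ) (q : ℕ) :
    (∏ p ∈ S, p ^ f p).factorization q = if q ∈ S then f q else 0 := by
  rw [Nat.factorization_prod (fun p hp => (pow_pos (hS p hp).pos _).ne'), Finset.sum_apply']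
  have h : ∀ p ∈ S, (p ^ f p).factorization q = if p = q then f p else 0 := by
    intro p hp
    rw [(hS p hp).factorization_pow, Finsupp.single_apply]
  rw [Finset.sum_congr rfl h, Finset.sum_ite_eq' S q f]

private theorem clu_zero {v : ℕ} {S : Finset ℕ} (h : v.primeFactors ⊆ S) {q : ℕ} (hq : q ∉ S) :
    v.factorization q = 0 := by
  by_contra hne
  apply hq
  apply h
  rw [← Nat.support_factorization]
  exact Finsupp.mem_support_iff.2 hne

private theorem clu_dvd {x y : ℕ} (hx : 0 < x) (hy : 0 < y)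
    (h : ∀ q, x.factorization q ≤ y.factorization q) : x ∣ y :=
  (Nat.factorization_le_iff_dvd hx.ne' hy.ne').1 (Finsupp.le_def.2 h)

private theorem clu_div_gcd {x y : ℕ} (hx : 0 < x) (hy : 0 < y) (q : ℕ) :
    (x / Nat.gcd x y).factorization q = x.factorization q - y.factorization q := by
  rw [Nat.factorization_div (Nat.gcd_dvd_left x y), Nat.factorization_gcd hx.ne' hy.ne']
  simp only [Finsupp.coe_tsub, Pi.sub_apply, Finsupp.inf_apply]
  omega

private theorem clu_div_gcd_pos {x : ℕ} (hx : 0 < x) (y : ℕ) : 0 < x / Nat.gcd x y :=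
  Nat.div_pos (Nat.gcd_le_left y hx) (Nat.gcd_pos_of_pos_left y hx)

private theorem clu_vertex (C : Finset ℕ) (hC : ∀ p ∈ C, p.Prime) (k : ℕ → ℕ) {v : ℕ}
    (hv : 0 < v) :
    0 < v ∧ 0 < ∏ p ∈ C, p ^ (v.factorization p - k p) ∧
      (∏ p ∈ C, p ^ (k p - v.factorization p)) ∣ ∏ p ∈ C, p ^ k p ∧
      (∏ p ∈ C, p ^ k p) / (∏ p ∈ C, p ^ (k p - v.factorization p)) ∣ v := by
  have h1 : (∏ p ∈ C, p ^ (k p - v.factorization p)) ∣ ∏ p ∈ C, p ^ k p :=
    Finset.prod_dvd_prod_of_dvd _ _ fun p _ => pow_dvd_pow p (Nat.sub_le _ _)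
  refine ⟨hv, clu_pos C hC _, h1, ?_⟩
  refine clu_dvd (Nat.div_pos (Nat.le_of_dvd (clu_pos C hC _) h1) (clu_pos C hC _)) hv ?_
  intro q
  rw [Nat.factorization_div h1]
  simp only [Finsupp.coe_tsub, Pi.sub_apply]
  rw [clu_fact C hC, clu_fact C hC (fun p => k p - v.factorization p)]
  split_ifs <;> omega

private theorem clu_inj (F C : Finset ℕ) (hC : ∀ p ∈ C, p.Prime) (i k : ℕ → ℕ) {v v' : ℕ}
    (hv : 0 < v ∧ v.primeFactors ⊆ F ∪ C) (hv' : 0 < v' ∧ v'.primeFactors ⊆ F ∪ C)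
    (hi : ∀ p ∈ F, v.factorization p = i p) (hi' : ∀ p ∈ F, v'.factorization p = i p)
    (hm : ∏ p ∈ C, p ^ (v.factorization p - k p) = ∏ p ∈ C, p ^ (v'.factorization p - k p))
    (hd : ∏ p ∈ C, p ^ (k p - v.factorization p) = ∏ p ∈ C, p ^ (k p - v'.factorization p)) :
    v = v' := by
  refine Nat.eq_of_factorization_eq hv.1.ne' hv'.1.ne' fun q => ?_
  by_cases hF : q ∈ F
  · rw [hi q hF, hi' q hF]
  by_cases hq : q ∈ C
  · have e1 := congrArg (fun n : ℕ => n.factorization q) hm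
    have e2 := congrArg (fun n : ℕ => n.factorization q) hd
    rw [clu_fact C hC (fun p => v.factorization p - k p),
      clu_fact C hC (fun p => v'.factorization p - k p), if_pos hq, if_pos hq] at e1
    rw [clu_fact C hC (fun p => k p - v.factorization p),
      clu_fact C hC (fun p => k p - v'.factorization p), if_pos hq, if_pos hq] at e2
    omega
  · have hn : q ∉ F ∪ C := by simp [hF, hq]
    rw [clu_zero hv.2 hn, clu_zero hv'.2 hn]

private theorem clu_edge (F C : Finset ℕ) (hd : Disjoint F C) (hF : ∀ p ∈ F, p.Prime)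
    (hC : ∀ p ∈ C, p.Prime) (i j k : ℕ → ℕ) {v w : ℕ}
    (hv : 0 < v ∧ v.primeFactors ⊆ F ∪ C) (hw : 0 < w ∧ w.primeFactors ⊆ F ∪ C)
    (hi : ∀ p ∈ F, v.factorization p = i p) (hj : ∀ p ∈ F, w.factorization p = j p)
    (hk : ∀ p ∈ C, (v.factorization p ≤ k p ∧ k p ≤ w.factorization p) ∨
      (w.factorization p ≤ k p ∧ k p ≤ v.factorization p)) :
    v / Nat.gcd v w = (∏ p ∈ F, p ^ (i p - j p)) * (∏ p ∈ C, p ^ (v.factorization p - k p)) *
      ∏ p ∈ C, p ^ (k p - w.factorization p) := by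
  have p1 := clu_pos F hF (fun p => i p - j p)
  have p2 := clu_pos C hC (fun p => v.factorization p - k p)
  have p3 := clu_pos C hC (fun p => k p - w.factorization p)
  refine Nat.eq_of_factorization_eq (clu_div_gcd_pos hv.1 w).ne'
    (Nat.mul_pos (Nat.mul_pos p1 p2) p3).ne' fun q => ?_
  rw [clu_div_gcd hv.1 hw.1, Nat.factorization_mul (Nat.mul_pos p1 p2).ne' p3.ne',
    Nat.factorization_mul p1.ne' p2.ne']
  simp only [Finsupp.coe_add, Pi.add_apply]
  rw [clu_fact F hF (fun p => i p - j p), clu_fact C hC (fun p => v.factorization p - k p),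
    clu_fact C hC (fun p => k p - w.factorization p)]
  by_cases h1 : q ∈ F
  · have h2 : q ∉ C := Finset.disjoint_left.1 hd h1
    rw [if_pos h1, if_neg h2, if_neg h2, hi q h1, hj q h1]
    omega
  by_cases h2 : q ∈ C
  · rw [if_neg h1, if_pos h2, if_pos h2]
    have := hk q h2
    omega
  · have hn : q ∉ F ∪ C := by simp [h1, h2]
    rw [if_neg h1, if_neg h2, if_neg h2, clu_zero hv.2 hn]
    omega

theorem clu_of_fits (pt : Pat) (hd : Disjoint pt.F pt.C) (hP : ∀ p ∈ pt.F ∪ pt.C, p.Prime)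
    (V W : Finset ℕ) (E : Finset (ℕ × ℕ))
    (hV : ∀ v ∈ V, 0 < v ∧ v.primeFactors ⊆ pt.F ∪ pt.C)
    (hW : ∀ w ∈ W, 0 < w ∧ w.primeFactors ⊆ pt.F ∪ pt.C) (hf : pt.Fits V W E) :
    ∃ (N : ℕ) (m d : ℕ → ℕ), Clu V W E pt.a pt.b N m d := by
  have hF : ∀ p ∈ pt.F, p.Prime := fun p hp => hP p (Finset.mem_union_left _ hp)
  have hC : ∀ p ∈ pt.C, p.Prime := fun p hp => hP p (Finset.mem_union_right _ hp)
  obtain ⟨hi, hj, hE⟩ := hf
  refine ⟨∏ p ∈ pt.C, p ^ pt.k p, fun v => ∏ p ∈ pt.C, p ^ (v.factorization p - pt.k p),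
    fun v => ∏ p ∈ pt.C, p ^ (pt.k p - v.factorization p), clu_pos _ hF _, clu_pos _ hF _,
    clu_pos _ hC _, fun v hv => clu_vertex pt.C hC pt.k (hV v hv).1,
    fun w hw => clu_vertex pt.C hC pt.k (hW w hw).1,
    fun v hv v' hv' hm hd' => clu_inj pt.F pt.C hC pt.i pt.k (hV v hv) (hV v' hv') (hi v hv)
      (hi v' hv') hm hd',
    fun v hv v' hv' hm hd' => clu_inj pt.F pt.C hC pt.j pt.k (hW v hv) (hW v' hv') (hj v hv)
      (hj v' hv') hm hd', ?_⟩
  intro e he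
  obtain ⟨h1, h2, h3⟩ := hE e he
  refine ⟨h1, h2, ?_, ?_, ?_⟩
  · exact clu_edge pt.F pt.C hd hF hC pt.i pt.j pt.k (hV _ h1) (hW _ h2) (hi _ h1) (hj _ h2) h3
  · rw [Nat.gcd_comm]
    exact clu_edge pt.F pt.C hd hF hC pt.j pt.i pt.k (hW _ h2) (hV _ h1) (hj _ h2) (hi _ h1)
      fun p hp => (h3 p hp).symm
  · have a1 := (hV _ h1).1
    have a2 := (hW _ h2).1
    refine clu_dvd (clu_pos _ hC _) (Nat.mul_pos a1 a2) fun q => ?_
    rw [clu_fact _ hC, Nat.factorization_mul a1.ne' a2.ne']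
    simp only [Finsupp.coe_add, Pi.add_apply]
    split_ifs with hq
    · have := h3 q hq
      omega
    · omega

theorem Clu.swap {V W : Finset ℕ} {E : Finset (ℕ × ℕ)} {a b N : ℕ} {m d : ℕ → ℕ}
    (h : Clu V W E a b N m d) : Clu W V (E.image Prod.swap) b a N m d := by
  refine ⟨h.bpos, h.apos, h.Npos, h.vW, h.vV, h.injW, h.injV, ?_⟩
  intro e he
  obtain ⟨e', he', rfl⟩ := Finset.mem_image.1 he
  obtain ⟨h1, h2, h3, h4, h5⟩ := h.edge e' he'
  simp only [Prod.fst_swap, Prod.snd_swap]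
  refine ⟨h2, h1, ?_, ?_, ?_⟩
  · rw [Nat.gcd_comm]; exact h4
  · rw [Nat.gcd_comm]; exact h3
  · rw [mul_comm]; exact h5

theorem ms_swap (μ : ℕ → ℝ) (E : Finset (ℕ × ℕ)) : ms μ (E.image Prod.swap) = ms μ E := by
  unfold ms
  rw [Finset.sum_image fun x _ y _ h => Prod.swap_injective h]
  exact Finset.sum_congr rfl fun e _ => by simp [mul_comm]

theorem ms_le (μ : ℕ → ℝ) (hμ : ∀ v, 0 ≤ μ v) (V W : Finset ℕ) (E : Finset (ℕ × ℕ))
    (hE : ∀ e ∈ E, e.1 ∈ V ∧ e.2 ∈ W) : ms μ E ≤ (∑ v ∈ V, μ v) * ∑ w ∈ W, μ w := by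
  unfold ms
  rw [Finset.sum_mul_sum, ← Finset.sum_product']
  refine Finset.sum_le_sum_of_subset_of_nonneg (fun e he => Finset.mem_product.2 (hE e he)) ?_
  intro e _ _
  exact mul_nonneg (hμ _) (hμ _)

end Vale.Agent.P028
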