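import Mathlib

/-! Definitions for the inhomogeneous Duffin-Schaeffer problem with a non-Liouville shift. -/

namespace Vale.Agent.P028

open Finset Real

/-- `t` is within `η` of an integer. -/
def Near (t η : ℝ) : Prop := ∃ z : ℤ, |t - z| ≤ η

/-- The Duffin-Schaeffer weight. -/
noncomputable def wt (ψ : ℕ → ℝ) (q : ℕ) : ℝ := (Nat.totient q : ℝ) / q * ψ q

/-- The overlap parameter `D(q,r)`. -/
noncomputable def DD (ψ : ℕ → ℝ) (q r : ℕ) : ℝ :=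
  max (ψ q * ((r / Nat.gcd q r : ℕ) : ℝ)) (ψ r * ((q / Nat.gcd q r : ℕ) : ℝ))

/-- The Bohr condition on the reduced ratio of `q` and `r`. -/
def Bohr (γ : ℝ) (q r : ℕ) (η : ℝ) : Prop :=
  Near (γ * (((q / Nat.gcd q r : ℕ) : ℝ) - ((r / Nat.gcd q r : ℕ) : ℝ))) η

/-- Mass of an edge set. -/
noncomputable def ms (μ : ℕ → ℝ) (E : Finset (ℕ × ℕ)) : ℝ := ∑ e ∈ E, μ e.1 * μ e.2

/-- The exponent of the potential. -/
noncomputable def th (ε : ℝ) : ℝ := (1 + 2 * ε) / (1 / 2 - ε)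

/-- A pattern: valuations are fixed at the primes of `F` and concentrated at the primes of `C`. -/
structure Pat where
  F : Finset ℕ
  C : Finset ℕ
  i : ℕ → ℕ
  j : ℕ → ℕ
  k : ℕ → ℕ

def Pat.a (pt : Pat) : ℕ := ∏ p ∈ pt.F, p ^ (pt.i p - pt.j p)

def Pat.b (pt : Pat) : ℕ := ∏ p ∈ pt.F, p ^ (pt.j p - pt.i p)

def Pat.Fits (pt : Pat) (V W : Finset ℕ) (E : Finset (ℕ × ℕ)) : Prop :=
  (∀ v ∈ V, ∀ p ∈ pt.F, v.factorization p = pt.i p) ∧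
  (∀ w ∈ W, ∀ p ∈ pt.F, w.factorization p = pt.j p) ∧
  ∀ e ∈ E, e.1 ∈ V ∧ e.2 ∈ W ∧ ∀ p ∈ pt.C,
    (e.1.factorization p ≤ pt.k p ∧ pt.k p ≤ e.2.factorization p) ∨
    (e.2.factorization p ≤ pt.k p ∧ pt.k p ≤ e.1.factorization p)

/-- A cluster with centre `N`, multipliers `a, b`, numerators `m` and denominators `d`. -/
structure Clu (V W : Finset ℕ) (E : Finset (ℕ × ℕ)) (a b N : ℕ) (m d : ℕ → ℕ) : Prop where
  apos : 0 < a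
  bpos : 0 < b
  Npos : 0 < N
  vV : ∀ v ∈ V, 0 < v ∧ 0 < m v ∧ d v ∣ N ∧ N / d v ∣ v
  vW : ∀ w ∈ W, 0 < w ∧ 0 < m w ∧ d w ∣ N ∧ N / d w ∣ w
  injV : ∀ v ∈ V, ∀ v' ∈ V, m v = m v' → d v = d v' → v = v'
  injW : ∀ w ∈ W, ∀ w' ∈ W, m w = m w' → d w = d w' → w = w'
  edge : ∀ e ∈ E, e.1 ∈ V ∧ e.2 ∈ W ∧ e.1 / Nat.gcd e.1 e.2 = a * m e.1 * d e.2 ∧
    e.2 / Nat.gcd e.1 e.2 = b * m e.2 * d e.1 ∧ N ∣ e.1 * e.2

/-- The law of `gcd(j, N)` for uniform `j` modulo `N`. -/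
noncomputable def pw (N d : ℕ) : ℝ := (Nat.totient (N / d) : ℝ) / N

noncomputable def Lam (N : ℕ) : ℝ := ∑ p ∈ N.primeFactors, 2 * log p / p

/-- Neighbour sum over pairs `(m', d')`. -/
noncomputable def nb (N : ℕ) (Γ : Finset (ℕ × ℕ)) : ℝ := ∑ t ∈ Γ, pw N t.2 / √(t.1 : ℝ)

/-- All elements are at least `H` and distinct elements differ by at least `H`. -/
def Sep (S : Finset ℕ) (H : ℝ) : Prop :=
  (∀ n ∈ S, H ≤ n) ∧ ∀ n ∈ S, ∀ n' ∈ S, n < n' → H ≤ (n' : ℝ) - n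

/-- Resonant integers. -/
def Res (γ y : ℝ) (M n : ℕ) : Prop := ∃ t : ℕ, 1 ≤ t ∧ t ≤ M ∧ Near (γ * (t * n)) (4 * y)

/-- Good multipliers. -/
def Good (γ y : ℝ) (M : ℕ) (X : ℝ) (a b : ℕ) : Prop :=
  (∀ t : ℕ, 1 ≤ t → t ≤ M ^ 4 → ¬ Near (γ * (t * a)) (8 * y)) ∧
  (∀ t : ℕ, 1 ≤ t → t ≤ M ^ 4 → ¬ Near (γ * (t * b)) (8 * y)) ∧
  (∀ t t' : ℕ, 1 ≤ t → t ≤ M ^ 2 → 1 ≤ t' → t' ≤ M ^ 2 → t * a ≠ t' * b →
    ¬ Near (γ * ((t : ℝ) * a - t' * b)) (2 * y)) ∧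
  (a : ℝ) ≤ X ∧ (b : ℝ) ≤ X

/-- The cases in which the second endpoint of an edge gives a saving. -/
def SW (γ y : ℝ) (M a b m d m' d' : ℕ) : Prop :=
  (M < m' ∧ ¬ Res γ y M (b * d)) ∨ (M < d' ∧ ¬ Res γ y M (a * m)) ∨
    Res γ y M (a * d') ∨ Res γ y M (b * m')

/-- The Diophantine condition. -/
def Dio (γ κ : ℝ) (τ : ℕ) : Prop := ∀ n : ℕ, 0 < n → ∀ z : ℤ, κ / (n : ℝ) ^ τ ≤ |γ * n - z|

/-- The hypothesis under which level `y` has a saving. -/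
def Hyp (ψ : ℕ → ℝ) (B : Finset ℕ) (κ : ℝ) (τ : ℕ) (ε y : ℝ) : Prop :=
  ∀ N : ℕ, (∃ v ∈ B, ∃ w ∈ B, N ∣ v * w) →
    Lam N ≤ y ^ (-(1 / (40 * (τ : ℝ)))) ∨
    ∃ Z : ℝ, 1 < Z ∧ Lam N ≤ y ^ (8 * ε) * log Z ∧
      ∀ v ∈ B, (N : ℝ) ≤ Z * v → ψ v * (Z * y ^ (-(22 : ℝ))) ^ (τ + 1) ≤ κ

open Classical in
/-- The excess overlap of a pair. -/
noncomputable def exc (γ : ℝ) (ψ : ℕ → ℝ) (q r : ℕ) : ℝ :=
  if q ≠ r ∧ Bohr γ q r (2 * DD ψ q r) then wt ψ q * wt ψ r / DD ψ q r else 0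

/-- The approximation set. -/
def ES (γ : ℝ) (ψ : ℕ → ℝ) (q : ℕ) : Set ℝ := {x | ∃ a : ℤ, |(q : ℝ) * x - a - γ| < ψ q}

theorem Near.mono {t η η' : ℝ} (h : Near t η) (hη : η ≤ η') : Near t η' := by
  obtain ⟨z, hz⟩ := h
  exact ⟨z, hz.trans hη⟩

theorem Near.neg {t η : ℝ} (h : Near t η) : Near (-t) η := by
  obtain ⟨z, hz⟩ := h
  refine ⟨-z, ?_⟩
  have : -t - ((-z : ℤ) : ℝ) = -(t - z) := by push_cast; ring
  rw [this, abs_neg]; exact hz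

theorem Near.add {t t' η η' : ℝ} (h : Near t η) (h' : Near t' η') : Near (t + t') (η + η') := by
  obtain ⟨z, hz⟩ := h
  obtain ⟨z', hz'⟩ := h'
  refine ⟨z + z', ?_⟩
  have : t + t' - ((z + z' : ℤ) : ℝ) = (t - z) + (t' - z') := by push_cast; ring
  rw [this]
  exact (abs_add_le _ _).trans (add_le_add hz hz')

theorem Near.sub {t t' η η' : ℝ} (h : Near t η) (h' : Near t' η') : Near (t - t') (η + η') := by
  have := h.add h'.neg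
  rwa [← sub_eq_add_neg] at this

theorem wt_nonneg {ψ : ℕ → ℝ} {q : ℕ} (h : 0 ≤ ψ q) : 0 ≤ wt ψ q := by
  unfold wt; positivity

theorem DD_comm (ψ : ℕ → ℝ) (q r : ℕ) : DD ψ q r = DD ψ r q := by
  unfold DD; rw [Nat.gcd_comm r q, max_comm]

theorem Bohr.symm {γ η : ℝ} {q r : ℕ} (h : Bohr γ q r η) : Bohr γ r q η := by
  unfold Bohr at *
  have := h.neg
  rw [Nat.gcd_comm r q]
  have e : γ * (((r / Nat.gcd q r : ℕ) : ℝ) - ((q / Nat.gcd q r : ℕ) : ℝ)) =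
      -(γ * (((q / Nat.gcd q r : ℕ) : ℝ) - ((r / Nat.gcd q r : ℕ) : ℝ))) := by ring
  rw [e]; exact this

theorem Clu.mono {V W : Finset ℕ} {E E' : Finset (ℕ × ℕ)} {a b N : ℕ} {m d : ℕ → ℕ}
    (h : Clu V W E a b N m d) (hE : E' ⊆ E) : Clu V W E' a b N m d :=
  { h with edge := fun e he => h.edge e (hE he) }

theorem Good.symm {γ y X : ℝ} {M a b : ℕ} (h : Good γ y M X a b) : Good γ y M X b a := by
  obtain ⟨h1, h2, h3, h4, h5⟩ := h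
  refine ⟨h2, h1, ?_, h5, h4⟩
  intro t t' a1 a2 a3 a4 hne hn
  refine h3 t' t a3 a4 a1 a2 (fun h => hne h.symm) ?_
  have := hn.neg
  have e : γ * ((t' : ℝ) * a - t * b) = -(γ * ((t : ℝ) * b - t' * a)) := by ring
  rw [e]; exact this

theorem th_ge {ε : ℝ} (h0 : 0 < ε) (h1 : ε ≤ 1 / 10) : 2 ≤ th ε := by
  unfold th
  rw [le_div_iff₀ (by linarith)]; linarith

theorem th_le {ε : ℝ} (h1 : ε ≤ 1 / 10) : th ε ≤ 3 := by
  unfold th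
  rw [div_le_iff₀ (by linarith)]; linarith

end Vale.Agent.P028
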