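import Vale.Agent.P028.Ovl

/-! From bounded second moments on blocks to full measure. -/

namespace Vale.Agent.P028

open Finset Real MeasureTheory

theorem fin_inner (η : ℝ) (hη : 0 < η) (U : Set ℝ) (hU : IsOpen U) (hfin : volume U ≠ ⊤) :
    ∃ n : ℕ, volume.real U - η ≤ volume.real {x | Metric.ball x (1 / ((n : ℝ) + 1)) ⊆ U} := by
  have hmono : Monotone fun n : ℕ => {x | Metric.ball x (1 / ((n : ℝ) + 1)) ⊆ U} := by
    intro i j hij x hx
    exact (Metric.ball_subset_ball (Nat.one_div_le_one_div hij)).trans hx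
  have hun : (⋃ n : ℕ, {x | Metric.ball x (1 / ((n : ℝ) + 1)) ⊆ U}) = U := by
    ext x
    simp only [Set.mem_iUnion]
    constructor
    · rintro ⟨n, hn⟩
      exact hn (Metric.mem_ball_self (by positivity))
    · intro hx
      obtain ⟨r, hr, hb⟩ := Metric.isOpen_iff.1 hU x hx
      obtain ⟨n, hn⟩ := exists_nat_one_div_lt hr
      exact ⟨n, (Metric.ball_subset_ball hn.le).trans hb⟩
  have ht := tendsto_measure_iUnion_atTop (μ := volume) hmono
  rw [hun] at ht
  have ht2 := (ENNReal.tendsto_toReal hfin).comp ht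
  obtain ⟨n, hn⟩ := (ht2.eventually (lt_mem_nhds
    (show volume.real U - η < (volume U).toReal from sub_lt_self _ hη))).exists
  exact ⟨n, hn.le⟩

/-- Equidistribution at macroscopic scale, uniformly in the radius. -/
theorem equi (γ s η : ℝ) (hη : 0 < η) (U : Set ℝ) (hU : IsOpen U) (hUs : U ⊆ Set.Ico s (s + 3)) :
    ∃ Q : ℕ, ∀ q : ℕ, Q < q → ∀ ψ : ℕ → ℝ, 0 < ψ q → ψ q ≤ 1 / 2 →
      2 * ψ q * (volume.real U - η) ≤ volume.real (ES γ ψ q ∩ U) := by
  classical
  have hfin : volume U ≠ ⊤ := ne_top_of_le_ne_top (by simp) (measure_mono hUs)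
  obtain ⟨n, hn⟩ := fin_inner η hη U hU hfin
  refine ⟨n, fun q hq ψ h0 h1 => ?_⟩
  set Un : Set ℝ := {x | Metric.ball x (1 / ((n : ℝ) + 1)) ⊆ U} with hUn
  have hq1 : (n : ℝ) + 1 ≤ q := by exact_mod_cast hq
  have hq0 : (0 : ℝ) < q := lt_of_lt_of_le (by positivity) hq1
  set cell : ℤ → Set ℝ := fun a => Set.Ico ((a + γ - 1 / 2) / q) ((a + γ + 1 / 2) / q) with hcell
  set I : ℤ → Set ℝ := fun a => Set.Ioo ((a + γ - ψ q) / q) ((a + γ + ψ q) / q) with hI
  set A : Finset ℤ := (Finset.Icc ⌊q * s - γ + 1 / 2⌋ ⌊q * (s + 3) - γ + 1 / 2⌋).filter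
    fun a => (cell a ∩ Un).Nonempty with hA
  have hcm : ∀ (a : ℤ) (x : ℝ), x ∈ cell a ↔ a + γ - 1 / 2 ≤ x * q ∧ x * q < a + γ + 1 / 2 := by
    intro a x
    simp only [hcell, Set.mem_Ico, div_le_iff₀ hq0, lt_div_iff₀ hq0]
  have hIm : ∀ (a : ℤ) (x : ℝ), x ∈ I a ↔ a + γ - ψ q < x * q ∧ x * q < a + γ + ψ q := by
    intro a x
    simp only [hI, Set.mem_Ioo, div_lt_iff₀ hq0, lt_div_iff₀ hq0]
  have hcov : Un ⊆ ⋃ a ∈ A, cell a := by
    intro x hx
    have hxU := hUs (hx (Metric.mem_ball_self (by positivity)))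
    have hc : x ∈ cell ⌊q * x - γ + 1 / 2⌋ := by
      rw [hcm]
      constructor
      · linarith [Int.floor_le (q * x - γ + 1 / 2)]
      · linarith [Int.lt_floor_add_one (q * x - γ + 1 / 2)]
    simp only [Set.mem_iUnion]
    refine ⟨_, ?_, hc⟩
    rw [hA, Finset.mem_filter, Finset.mem_Icc]
    refine ⟨⟨Int.floor_le_floor ?_, Int.floor_le_floor ?_⟩, x, hc, hx⟩
    · linarith [mul_le_mul_of_nonneg_left hxU.1 hq0.le]
    · linarith [mul_le_mul_of_nonneg_left hxU.2.le hq0.le]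
  have hsub : (⋃ a ∈ A, I a) ⊆ ES γ ψ q ∩ U := by
    intro x hx
    simp only [Set.mem_iUnion] at hx
    obtain ⟨a, ha, hx⟩ := hx
    rw [hIm] at hx
    refine ⟨⟨a, abs_lt.2 ⟨by linarith [hx.1], by linarith [hx.2]⟩⟩, ?_⟩
    obtain ⟨y, hy, hyU⟩ := (Finset.mem_filter.1 ha).2
    rw [hcm] at hy
    refine hyU ?_
    rw [Metric.mem_ball, Real.dist_eq]
    have h2 : |x - y| * q < 1 := by
      rw [← abs_of_pos hq0, ← abs_mul, abs_lt]
      constructor <;> nlinarith [hx.1, hx.2, hy.1, hy.2]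
    rw [lt_div_iff₀ (by positivity)]
    exact lt_of_le_of_lt (mul_le_mul_of_nonneg_left hq1 (abs_nonneg _)) h2
  have hv1 : volume.real Un ≤ A.card * (1 / q) := by
    refine (measureReal_mono hcov ?_).trans ((measureReal_biUnion_finset_le _ _).trans ?_)
    · exact ne_top_of_le_ne_top (ENNReal.sum_ne_top.2 fun a _ => by simp [hcell])
        (measure_biUnion_finset_le _ _)
    · refine le_of_eq ?_
      rw [← nsmul_eq_mul, ← Finset.sum_const]
      refine Finset.sum_congr rfl fun a _ => ?_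
      rw [hcell, Real.volume_real_Ico_of_le (div_le_div_of_nonneg_right (by linarith) hq0.le)]
      ring
  have hv2 : volume.real (⋃ a ∈ A, I a) = A.card * (2 * ψ q / q) := by
    rw [measureReal_biUnion_finset ?_ (fun a _ => measurableSet_Ioo) (fun a _ => by simp),
      ← nsmul_eq_mul, ← Finset.sum_const]
    · refine Finset.sum_congr rfl fun a _ => ?_
      rw [Real.volume_real_Ioo_of_le (div_le_div_of_nonneg_right (by linarith) hq0.le)]
      ring
    · intro a _ a' _ hne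
      refine Set.disjoint_left.2 fun x hx hx' => hne ?_
      rw [hIm] at hx hx'
      have e1 : (a : ℝ) < a' + 1 := by linarith [hx.1, hx'.2]
      have e2 : (a' : ℝ) < a + 1 := by linarith [hx.2, hx'.1]
      have e3 : a < a' + 1 := by exact_mod_cast e1
      have e4 : a' < a + 1 := by exact_mod_cast e2
      omega
  calc 2 * ψ q * (volume.real U - η) ≤ 2 * ψ q * (A.card * (1 / q)) :=
        mul_le_mul_of_nonneg_left (hn.trans hv1) (by positivity)
    _ = volume.real (⋃ a ∈ A, I a) := by rw [hv2]; ring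
    _ ≤ _ := measureReal_mono hsub (ne_top_of_le_ne_top hfin (measure_mono Set.inter_subset_right))

theorem fin_l2 (μ : Measure ℝ) [IsFiniteMeasure μ] (B : Finset ℕ) (c : ℕ → ℝ) (S : ℕ → Set ℝ)
    (hS : ∀ q, MeasurableSet (S q)) {t : ℝ} (ht : 0 < t) :
    ∑ q ∈ B, c q * μ.real (S q) ≤
      t / 2 * ∑ q ∈ B, ∑ r ∈ B, c q * c r * μ.real (S q ∩ S r) + μ.real Set.univ / (2 * t) := by
  have hi : ∀ T : Set ℝ, MeasurableSet T → Integrable (T.indicator (1 : ℝ → ℝ)) μ :=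
    fun T hT => (integrable_const (1 : ℝ)).indicator hT
  have i1 : Integrable (fun x => ∑ q ∈ B, c q * (S q).indicator (1 : ℝ → ℝ) x) μ :=
    integrable_finsetSum _ fun q _ => (hi _ (hS q)).const_mul _
  have i2' : ∀ q, Integrable
      (fun x => ∑ r ∈ B, c q * c r * (S q ∩ S r).indicator (1 : ℝ → ℝ) x) μ :=
    fun q => integrable_finsetSum _ fun r _ => (hi _ ((hS q).inter (hS r))).const_mul _
  have i2 : Integrable
      (fun x => ∑ q ∈ B, ∑ r ∈ B, c q * c r * (S q ∩ S r).indicator (1 : ℝ → ℝ) x) μ :=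
    integrable_finsetSum _ fun q _ => i2' q
  have e1 : ∫ x, ∑ q ∈ B, c q * (S q).indicator (1 : ℝ → ℝ) x ∂μ =
      ∑ q ∈ B, c q * μ.real (S q) := by
    rw [integral_finsetSum _ fun q _ => (hi _ (hS q)).const_mul _]
    exact Finset.sum_congr rfl fun q _ => by rw [integral_const_mul, integral_indicator_one (hS q)]
  have e2 : ∫ x, ∑ q ∈ B, ∑ r ∈ B, c q * c r * (S q ∩ S r).indicator (1 : ℝ → ℝ) x ∂μ =
      ∑ q ∈ B, ∑ r ∈ B, c q * c r * μ.real (S q ∩ S r) := by
    rw [integral_finsetSum _ fun q _ => i2' q]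
    refine Finset.sum_congr rfl fun q _ => ?_
    rw [integral_finsetSum _ fun r _ => (hi _ ((hS q).inter (hS r))).const_mul _]
    exact Finset.sum_congr rfl fun r _ => by
      rw [integral_const_mul, integral_indicator_one ((hS q).inter (hS r))]
  have e3 : μ.real Set.univ / (2 * t) = ∫ _, 1 / (2 * t) ∂μ := by
    rw [integral_const, smul_eq_mul]
    ring
  rw [← e1, ← e2, e3, ← integral_const_mul, ← integral_add (i2.const_mul _) (integrable_const _)]
  refine integral_mono i1 ((i2.const_mul _).add (integrable_const _)) fun x => ?_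
  have e4 : ∑ q ∈ B, ∑ r ∈ B, c q * c r * (S q ∩ S r).indicator (1 : ℝ → ℝ) x =
      (∑ q ∈ B, c q * (S q).indicator (1 : ℝ → ℝ) x) ^ 2 := by
    rw [sq, Finset.sum_mul_sum]
    refine Finset.sum_congr rfl fun q _ => Finset.sum_congr rfl fun r _ => ?_
    rw [Set.inter_indicator_one, Pi.mul_apply]
    ring
  simp only [e4]
  generalize ∑ q ∈ B, c q * (S q).indicator (1 : ℝ → ℝ) x = F
  have h : 0 ≤ (t * F - 1) ^ 2 / (2 * t) := by positivity
  have e5 : (t * F - 1) ^ 2 / (2 * t) = t / 2 * F ^ 2 + 1 / (2 * t) - F := by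
    field_simp
    ring
  linarith

theorem fin_null (γ C s : ℝ) (ψ : ℕ → ℝ)
    (h : ∀ Q : ℕ, ∃ B : Finset ℕ, (∀ q ∈ B, Q < q ∧ 0 < ψ q ∧ ψ q ≤ 1 / 2) ∧
      1 ≤ ∑ q ∈ B, wt ψ q ∧ ∑ q ∈ B, ∑ r ∈ B, exc γ ψ q r ≤ C * (∑ q ∈ B, wt ψ q) ^ 2)
    (Q : ℕ) (K : Set ℝ) (hK : MeasurableSet K) (hKs : K ⊆ Set.Ioo s (s + 3))
    (hKE : ∀ q, Q < q → ∀ x ∈ K, x ∉ ES γ ψ q) : volume K = 0 := by
  have hKfin : volume K ≠ ⊤ := ne_top_of_le_ne_top (by simp) (measure_mono hKs)
  have key : ∀ δ : ℝ, 0 < δ → volume.real K ≤ δ ^ 2 + δ * (|50 + 10 * C| + 1) := by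
    intro δ hδ
    obtain ⟨U₀, hKU, hUo, -, hUd⟩ := hK.exists_isOpen_sdiff_lt hKfin
      (show ENNReal.ofReal (δ ^ 2) ≠ 0 by simpa using hδ.ne')
    set U := U₀ ∩ Set.Ioo s (s + 3) with hUdef
    have hUs : U ⊆ Set.Ico s (s + 3) := Set.inter_subset_right.trans Set.Ioo_subset_Ico_self
    have hUfin : volume U ≠ ⊤ := ne_top_of_le_ne_top (by simp) (measure_mono hUs)
    have hUop : IsOpen U := hUo.inter isOpen_Ioo
    obtain ⟨Q₁, hQ₁⟩ := equi γ s (δ ^ 2) (by positivity) U hUop hUs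
    obtain ⟨B, hB, hW, hC⟩ := h (max Q Q₁)
    have hsm := second_moment γ s C ψ B
      (fun q hq => ⟨lt_of_le_of_lt (Nat.zero_le _) (hB q hq).1, (hB q hq).2⟩) hW hC
    set W := ∑ q ∈ B, wt ψ q with hWdef
    have hW0 : 0 < W := by linarith
    have hDm : MeasurableSet (U \ K) := hUop.measurableSet.diff hK
    have hDfin : volume (U \ K) ≠ ⊤ := ne_top_of_le_ne_top hUfin (measure_mono Set.sdiff_subset)
    have : IsFiniteMeasure (volume.restrict (U \ K)) := isFiniteMeasure_restrict.2 hDfin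
    have hD : volume.real (U \ K) ≤ δ ^ 2 :=
      ENNReal.toReal_le_of_le_ofReal (by positivity)
        ((measure_mono (Set.sdiff_subset_sdiff_left Set.inter_subset_left)).trans hUd.le)
    have hl := fin_l2 (volume.restrict (U \ K)) B (fun q => (Nat.totient q : ℝ) / q) (ES γ ψ)
      (measurableSet_ES γ ψ) (show 0 < δ / W by positivity)
    have hKU' : volume.real K ≤ volume.real U :=
      measureReal_mono (Set.subset_inter hKU hKs) hUfin
    have h1 : 2 * W * (volume.real K - δ ^ 2) ≤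
        ∑ q ∈ B, (Nat.totient q : ℝ) / q * (volume.restrict (U \ K)).real (ES γ ψ q) := by
      rw [hWdef, Finset.mul_sum, Finset.sum_mul]
      refine Finset.sum_le_sum fun q hq => ?_
      obtain ⟨hq1, hq2, hq3⟩ := hB q hq
      have e : ES γ ψ q ∩ (U \ K) = ES γ ψ q ∩ U := by
        ext x
        exact ⟨fun hx => ⟨hx.1, hx.2.1⟩, fun hx => ⟨hx.1, hx.2,
          fun hxK => hKE q (lt_of_le_of_lt (le_max_left _ _) hq1) x hxK hx.1⟩⟩
      rw [measureReal_restrict_apply (measurableSet_ES γ ψ q), e]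
      have h2 := hQ₁ q (lt_of_le_of_lt (le_max_right _ _) hq1) ψ hq2 hq3
      calc 2 * wt ψ q * (volume.real K - δ ^ 2)
          = (Nat.totient q : ℝ) / q * (2 * ψ q * (volume.real K - δ ^ 2)) := by
            unfold wt; ring
        _ ≤ _ := by
            refine mul_le_mul_of_nonneg_left (le_trans ?_ h2) (by positivity)
            exact mul_le_mul_of_nonneg_left (by linarith) (by positivity)
    have h2 : ∑ q ∈ B, ∑ r ∈ B, (Nat.totient q : ℝ) / q * ((Nat.totient r : ℝ) / r) *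
        (volume.restrict (U \ K)).real (ES γ ψ q ∩ ES γ ψ r) ≤ |50 + 10 * C| * W ^ 2 := by
      refine le_trans ?_ (hsm.trans (mul_le_mul_of_nonneg_right (le_abs_self _) (sq_nonneg _)))
      refine Finset.sum_le_sum fun q _ => Finset.sum_le_sum fun r _ => ?_
      refine mul_le_mul_of_nonneg_left ?_ (by positivity)
      rw [measureReal_restrict_apply ((measurableSet_ES γ ψ q).inter (measurableSet_ES γ ψ r))]
      exact measureReal_mono (Set.inter_subset_inter_right _ (Set.sdiff_subset.trans hUs))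
        (ne_top_of_le_ne_top (by simp) (measure_mono Set.inter_subset_right))
    rw [measureReal_restrict_apply MeasurableSet.univ, Set.univ_inter] at hl
    have h3 := mul_le_mul_of_nonneg_left h2 (show 0 ≤ δ / W / 2 by positivity)
    have h4 := div_le_div_of_nonneg_right hD (show 0 ≤ 2 * (δ / W) by positivity)
    have h5 : δ / W / 2 * (|50 + 10 * C| * W ^ 2) + δ ^ 2 / (2 * (δ / W)) =
        2 * W * (δ * (|50 + 10 * C| + 1) / 4) := by
      field_simp
      ring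
    have h6 : 2 * W * (volume.real K - δ ^ 2) ≤ 2 * W * (δ * (|50 + 10 * C| + 1) / 4) := by
      linarith
    have h7 := le_of_mul_le_mul_left h6 (by positivity)
    have h8 : 0 ≤ δ * (|50 + 10 * C| + 1) := by positivity
    linarith
  have hc : Continuous fun δ : ℝ => δ ^ 2 + δ * (|50 + 10 * C| + 1) := by fun_prop
  have ht : Filter.Tendsto (fun δ : ℝ => δ ^ 2 + δ * (|50 + 10 * C| + 1))
      (nhdsWithin 0 (Set.Ioi 0)) (nhds 0) := by
    simpa using (hc.tendsto 0).mono_left nhdsWithin_le_nhds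
  have h0 : volume.real K ≤ 0 :=
    ge_of_tendsto ht (Filter.eventually_of_mem self_mem_nhdsWithin key)
  exact (measureReal_eq_zero_iff hKfin).1 (le_antisymm h0 measureReal_nonneg)

theorem full_measure (γ C : ℝ) (ψ : ℕ → ℝ)
    (h : ∀ Q : ℕ, ∃ B : Finset ℕ, (∀ q ∈ B, Q < q ∧ 0 < ψ q ∧ ψ q ≤ 1 / 2) ∧
      1 ≤ ∑ q ∈ B, wt ψ q ∧ ∑ q ∈ B, ∑ r ∈ B, exc γ ψ q r ≤ C * (∑ q ∈ B, wt ψ q) ^ 2) :
    ∀ᵐ x : ℝ, Set.Infinite {q : ℕ | 0 < q ∧ ∃ a : ℤ, |(q : ℝ) * x - a - γ| < ψ q} := by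
  have key : ∀ (Q : ℕ) (z : ℤ), ∀ᵐ x : ℝ,
      x ∉ Set.Ico (z : ℝ) (z + 1) \ ⋃ q ∈ {q : ℕ | Q < q}, ES γ ψ q := by
    intro Q z
    rw [← measure_eq_zero_iff_ae_notMem]
    refine fin_null γ C (z - 1) ψ h Q _ (measurableSet_Ico.diff
      (MeasurableSet.biUnion (Set.to_countable _) fun q _ => measurableSet_ES γ ψ q)) ?_ ?_
    · exact fun x hx => ⟨by linarith [hx.1.1], by linarith [hx.1.2]⟩
    · exact fun q hq x hx hxq => hx.2 (Set.mem_biUnion hq hxq)
  have key2 := ae_all_iff.2 fun Q => ae_all_iff.2 (key Q)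
  filter_upwards [key2] with x hx
  refine Set.infinite_of_forall_exists_gt fun Q => ?_
  have h1 := hx Q ⌊x⌋
  by_contra hcon
  refine h1 ⟨⟨Int.floor_le x, Int.lt_floor_add_one x⟩, fun hmem => hcon ?_⟩
  simp only [Set.mem_iUnion] at hmem
  obtain ⟨q, hq, hxq⟩ := hmem
  exact ⟨q, ⟨lt_of_le_of_lt (Nat.zero_le _) hq, hxq⟩, hq⟩

end Vale.Agent.P028
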