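import Vale.Agent.P028.Pi

/-! Verifying the level hypothesis. -/

namespace Vale.Agent.P028

open Finset Real Filter

theorem dio_of (γ : ℝ) (hirr : Irrational γ) (hL : ¬ Liouville γ) :
    ∃ (κ : ℝ) (τ : ℕ), 0 < κ ∧ κ ≤ 1 ∧ 1 ≤ τ ∧ Dio γ κ τ := by
  unfold Liouville at hL
  simp only [not_forall, not_exists, not_and, not_lt] at hL
  obtain ⟨n, hn⟩ := hL
  refine ⟨1 / 2 ^ n, n + 1, by positivity, ?_, by omega, fun m hm z => ?_⟩
  · rw [div_le_one (by positivity)]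
    exact one_le_pow₀ (by norm_num)
  · have hm1 : (1 : ℝ) ≤ m := by exact_mod_cast hm
    have h := hn (2 * z) (2 * m) (by omega) (hirr.ne_rational _ _)
    push_cast at h
    have e : γ * m - z = m * (γ - 2 * z / (2 * m)) := by field_simp
    rw [e, abs_mul, abs_of_pos (show (0 : ℝ) < m by linarith)]
    refine le_trans ?_ (mul_le_mul hm1 h (by positivity) (by positivity))
    rw [one_mul, div_div, mul_pow]
    refine one_div_le_one_div_of_le (by positivity) ?_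
    exact mul_le_mul_of_nonneg_left (pow_le_pow_right₀ hm1 (by omega)) (by positivity)

theorem hyps_ll {x : ℝ} (hx : 16 ≤ x) : 1 ≤ log (log x) := by
  have h1 : log 16 ≤ log x := log_le_log (by norm_num) hx
  have h2 : log 16 = 4 * log 2 := by
    rw [show (16 : ℝ) = 2 ^ 4 by norm_num, log_pow]
    norm_num
  have h3 := log_two_gt_d9
  have h4 := exp_one_lt_d9
  rw [le_log_iff_exp_le (by linarith)]
  linarith

theorem hyps_inv {A y τ : ℝ} (hA : 0 < A) (hτ : 0 < τ) (hy : 0 < y) (h : y ≤ A ^ (-(40 * τ))) :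
    A ≤ y ^ (-(1 / (40 * τ))) := by
  have h1 := rpow_le_rpow_of_nonpos hy h (show -(1 / (40 * τ)) ≤ 0 by
    rw [neg_nonpos]; positivity)
  rw [← rpow_mul hA.le, show -(40 * τ) * -(1 / (40 * τ)) = 1 by field_simp, rpow_one] at h1
  exact h1

theorem hyps_pow {A y τ c : ℝ} (hτ : 0 < τ) (hy : 0 < y) (hc : 0 ≤ c)
    (h : y ^ (-(1 / (40 * τ))) ≤ A) : y ^ (-c) ≤ A ^ (40 * τ * c) := by
  have h1 := rpow_le_rpow (rpow_nonneg hy.le _) h (show 0 ≤ 40 * τ * c by positivity)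
  rw [← rpow_mul hy.le, show -(1 / (40 * τ)) * (40 * τ * c) = -c by field_simp] at h1
  exact h1

theorem hyps_ev (C K e : ℝ) (he : 0 < e) : ∃ l₀ : ℝ, 12 ≤ l₀ ∧ ∀ l ≥ l₀,
    C ≤ l ^ (e / 4) ∧ K ≤ l ^ (e / 2) := by
  obtain ⟨l₀, h⟩ := eventually_atTop.1
    (((tendsto_rpow_atTop (show 0 < e / 4 by positivity)).eventually_ge_atTop C).and
      ((tendsto_rpow_atTop (show 0 < e / 2 by positivity)).eventually_ge_atTop K))
  exact ⟨max 12 l₀, le_max_left _ _, fun l hl => h l ((le_max_right _ _).trans hl)⟩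

theorem hypA (κ ε e : ℝ) (τ : ℕ) (hτ : 1 ≤ τ) (hκ : 0 < κ) (he : 0 < e) (he1 : e ≤ 1)
    (hε : 0 < ε) (hε1 : ε ≤ e / (1280 * τ)) : ∃ yA : ℝ, 0 < yA ∧
    ∀ (ψ : ℕ → ℝ) (B : Finset ℕ),
    (∀ v ∈ B, 16 ≤ v ∧ 0 ≤ ψ v ∧ ψ v ≤ exp (-(log (log v)) ^ (1 + e))) →
    ∀ y : ℝ, 0 < y → y ≤ yA → Hyp ψ B κ τ ε y := by
  obtain ⟨C₀, hC₀, hLam⟩ := Lam_le
  obtain ⟨C, hC⟩ : ∃ C : ℝ, C = C₀ + 1 := ⟨_, rfl⟩
  have hC1 : 1 ≤ C := by linarith
  have hτ0 : (0 : ℝ) < τ := by exact_mod_cast hτ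
  obtain ⟨l₀, hl₀, hev⟩ := hyps_ev (C * C ^ (e / 4))
    (4 * ((τ + 1) * (1 + 880 * τ * C) + |log κ|)) e he
  refine ⟨(C * l₀) ^ (-(40 * (τ : ℝ))), by positivity, fun ψ B hB y hy hyA N hN => ?_⟩
  obtain ⟨v, hv, w, hw, hdvd⟩ := hN
  have hN0 : 0 < N := Nat.pos_of_dvd_of_pos hdvd
    (Nat.mul_pos (by linarith [(hB v hv).1]) (by linarith [(hB w hw).1]))
  have hy0 := hyps_inv (by positivity) hτ0 hy hyA
  have hX : (16 : ℝ) ≤ max (N : ℝ) 16 := le_max_right _ _
  have hl1 := hyps_ll hX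
  have hL : Lam N ≤ C * log (log (max (N : ℝ) 16)) :=
    (hLam _ hX N hN0 (le_max_left _ _)).trans
      (mul_le_mul_of_nonneg_right (by linarith) (by linarith))
  rcases le_or_gt (C * log (log (max (N : ℝ) 16))) (y ^ (-(1 / (40 * (τ : ℝ))))) with h | h
  · exact Or.inl (hL.trans h)
  right
  have hll : l₀ < log (log (max (N : ℝ) 16)) :=
    lt_of_mul_lt_mul_left (hy0.trans_lt h) (by linarith)
  have hmax : max (N : ℝ) 16 = N := by
    refine max_eq_left (le_of_not_gt fun hlt => ?_)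
    rw [max_eq_right hlt.le] at hll
    have h1 : log (log (16 : ℝ)) ≤ log 16 - 1 := log_le_sub_one_of_pos (log_pos (by norm_num))
    have h2 : log (16 : ℝ) = 4 * log 2 := by
      rw [show (16 : ℝ) = 2 ^ 4 by norm_num, log_pow]
      norm_num
    linarith [log_two_lt_d9]
  rw [hmax] at hX hl1 hL h hll
  have hlogN : 0 < log (N : ℝ) := log_pos (by linarith)
  have hexp : exp (log (log (N : ℝ))) = log N := exp_log hlogN
  generalize log (log (N : ℝ)) = l at *
  have hl12 : 12 ≤ l := by linarith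
  have hl0 : 0 < l := by linarith
  obtain ⟨e1, e2⟩ := hev l hll.le
  have hCl : 1 ≤ C * l := one_le_mul_of_one_le_of_one_le hC1 hl1
  have hP : 0 < l ^ (1 + e / 2) := by positivity
  refine ⟨exp (l ^ (1 + e / 2)), one_lt_exp_iff.2 hP, ?_, fun u hu hNu => ?_⟩
  · rw [log_exp]
    have h1 := hyps_pow hτ0 hy (show 0 ≤ 8 * ε by positivity) h.le
    have h2 : (C * l) ^ (40 * (τ : ℝ) * (8 * ε)) ≤ (C * l) ^ (e / 4) := by
      refine rpow_le_rpow_of_exponent_le hCl ?_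
      rw [le_div_iff₀ (by positivity)] at hε1
      linarith
    have h3 : C * l * (C * l) ^ (e / 4) ≤ l ^ (1 + e / 2) := by
      rw [mul_rpow (by linarith) hl0.le, show 1 + e / 2 = e / 4 + (1 + e / 4) by ring,
        rpow_add hl0, rpow_add hl0, rpow_one]
      calc C * l * (C ^ (e / 4) * l ^ (e / 4)) = C * C ^ (e / 4) * (l * l ^ (e / 4)) := by ring
        _ ≤ _ := mul_le_mul_of_nonneg_right e1 (by positivity)
    have h4 : y ^ (8 * ε) * y ^ (-(8 * ε)) = 1 := by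
      rw [← rpow_add hy]
      simp
    calc Lam N ≤ C * l := hL
      _ = y ^ (8 * ε) * (C * l * y ^ (-(8 * ε))) := by
          rw [mul_left_comm, h4, mul_one]
      _ ≤ y ^ (8 * ε) * l ^ (1 + e / 2) := by
          refine mul_le_mul_of_nonneg_left (le_trans ?_ h3) (by positivity)
          exact mul_le_mul_of_nonneg_left (h1.trans h2) (by positivity)
  · obtain ⟨hu16, hψ0, hψ⟩ := hB u hu
    have hu' : (16 : ℝ) ≤ u := by exact_mod_cast hu16
    have h1 : log (N : ℝ) ≤ l ^ (1 + e / 2) + log u := by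
      have := log_le_log (by linarith) hNu
      rwa [log_mul (exp_pos _).ne' (by linarith), log_exp] at this
    have h2 : l ^ (1 + e / 2) ≤ exp l / 2 := by
      have a1 : l ^ (1 + e / 2) ≤ l ^ (2 : ℝ) := rpow_le_rpow_of_exponent_le hl1 (by linarith)
      have a2 := pow_div_factorial_le_exp l hl0.le 3
      rw [rpow_two] at a1
      norm_num [Nat.factorial] at a2
      nlinarith [mul_le_mul_of_nonneg_left hl12 (sq_nonneg l)]
    have h3 : l - 1 ≤ log (log (u : ℝ)) := by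
      rw [le_log_iff_exp_le (log_pos (by linarith)), exp_sub, div_le_iff₀ (exp_pos _)]
      have a1 : 2 ≤ exp 1 := by linarith [add_one_le_exp (1 : ℝ)]
      have a2 : 0 ≤ log (u : ℝ) := log_nonneg (by linarith)
      nlinarith [mul_le_mul_of_nonneg_left a1 a2]
    have h4 : l ^ (1 + e) / 4 ≤ log (log (u : ℝ)) ^ (1 + e) := by
      have a1 : (l / 2) ^ (1 + e) ≤ log (log (u : ℝ)) ^ (1 + e) :=
        rpow_le_rpow (by positivity) (by linarith) (by positivity)
      have a2 : (2 : ℝ) ^ (1 + e) ≤ 2 ^ (2 : ℝ) :=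
        rpow_le_rpow_of_exponent_le (by norm_num) (by linarith)
      rw [div_rpow hl0.le (by norm_num)] at a1
      rw [rpow_two] at a2
      exact le_trans (div_le_div_of_nonneg_left (by positivity) (by positivity) (by linarith)) a1
    have h5 : y ^ (-(22 : ℝ)) ≤ exp (880 * τ * (C * l ^ (1 + e / 2))) := by
      refine (hyps_pow hτ0 hy (by norm_num) h.le).trans ?_
      rw [rpow_def_of_pos (by positivity), exp_le_exp]
      have a1 : log (C * l) ≤ C * l := (log_le_sub_one_of_pos (by positivity)).trans (by linarith)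
      have a2 : l ≤ l ^ (1 + e / 2) := by
        simpa using rpow_le_rpow_of_exponent_le hl1 (show (1 : ℝ) ≤ 1 + e / 2 by linarith)
      have a3 : log (C * l) ≤ C * l ^ (1 + e / 2) :=
        a1.trans (mul_le_mul_of_nonneg_left a2 (by linarith))
      calc log (C * l) * (40 * τ * 22) = 880 * τ * log (C * l) := by ring
        _ ≤ _ := mul_le_mul_of_nonneg_left a3 (by positivity)
    have h6 : (exp (l ^ (1 + e / 2)) * y ^ (-(22 : ℝ))) ^ (τ + 1) ≤
        exp ((τ + 1) * (1 + 880 * τ * C) * l ^ (1 + e / 2)) := by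
      refine (pow_le_pow_left₀ (by positivity)
        (mul_le_mul_of_nonneg_left h5 (exp_pos _).le) _).trans (le_of_eq ?_)
      rw [← exp_add, ← exp_nat_mul]
      congr 1
      push_cast
      ring
    have h7 : ((τ + 1) * (1 + 880 * τ * C) + |log κ|) * l ^ (1 + e / 2) ≤ l ^ (1 + e) / 4 := by
      rw [show 1 + e = e / 2 + (1 + e / 2) by ring, rpow_add hl0 (e / 2)]
      nlinarith [mul_le_mul_of_nonneg_right e2 hP.le]
    have h8 : 1 ≤ l ^ (1 + e / 2) := one_le_rpow hl1 (by positivity)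
    have h9 : -log κ ≤ |log κ| * l ^ (1 + e / 2) :=
      (neg_le_abs _).trans (le_mul_of_one_le_right (abs_nonneg _) h8)
    calc ψ u * (exp (l ^ (1 + e / 2)) * y ^ (-(22 : ℝ))) ^ (τ + 1)
        ≤ exp (-(log (log u)) ^ (1 + e)) *
            exp ((τ + 1) * (1 + 880 * τ * C) * l ^ (1 + e / 2)) :=
          mul_le_mul hψ h6 (by positivity) (exp_pos _).le
      _ ≤ exp (log κ) := by
          rw [← exp_add, exp_le_exp]
          linarith
      _ = κ := exp_log hκ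

theorem hypB : ∃ C : ℝ, 1 ≤ C ∧ ∀ (κ ε : ℝ) (τ : ℕ) (ψ : ℕ → ℝ) (B : Finset ℕ) (X : ℕ), 1 ≤ τ →
    16 ≤ X → (∀ v ∈ B, 0 < v ∧ v ≤ X) → ∀ y : ℝ, 0 < y →
    y ≤ (C * log (log X)) ^ (-(40 * (τ : ℝ))) → Hyp ψ B κ τ ε y := by
  obtain ⟨C₀, hC₀, hLam⟩ := Lam_le
  refine ⟨2 * C₀ + 1, by linarith, fun κ ε τ ψ B X hτ hX hB y hy hyX N hN => Or.inl ?_⟩
  obtain ⟨v, hv, w, hw, hdvd⟩ := hN
  have hX' : (16 : ℝ) ≤ X := by exact_mod_cast hX
  have hl := hyps_ll hX'
  have hpos : 0 < v * w := Nat.mul_pos (hB v hv).1 (hB w hw).1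
  have hN1 : N ≤ X ^ 2 := (Nat.le_of_dvd hpos hdvd).trans
    (by rw [sq]; exact Nat.mul_le_mul (hB v hv).2 (hB w hw).2)
  have h1 := hLam ((X : ℝ) ^ 2) (by nlinarith) N (Nat.pos_of_dvd_of_pos hdvd hpos)
    (by exact_mod_cast hN1)
  have hlog : 0 < log (X : ℝ) := log_pos (by linarith)
  rw [log_pow, log_mul (by norm_num) hlog.ne'] at h1
  have h2 : log ((2 : ℕ) : ℝ) ≤ log (log (X : ℝ)) := by
    push_cast
    linarith [log_two_lt_d9]
  refine le_trans ?_ (hyps_inv (by positivity) (by exact_mod_cast hτ) hy hyX)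
  nlinarith [mul_le_mul_of_nonneg_left h2 hC₀.le]

theorem blocksB (w : ℕ → ℝ) (hw : ∀ q, 0 ≤ w q) (e : ℝ) (he : 0 < e)
    (h : ¬ Summable fun q : ℕ => w q / (log (log q)) ^ e) (Q X₀ : ℕ) :
    ∃ X : ℕ, X₀ ≤ X ∧ (log (log X)) ^ (e / 2) ≤ ∑ q ∈ Ioc Q X, w q := by
  by_contra hcon
  simp only [not_exists, not_and, not_le] at hcon
  apply h
  obtain ⟨m, hm1, hm2, hm3⟩ : ∃ m : ℕ, X₀ ≤ m ∧ 16 ≤ m ∧ Q ≤ m :=
    ⟨X₀ + 16 + Q, by omega, by omega, by omega⟩
  rw [← summable_nat_add_iff (m + 1)]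
  set S : ℕ → ℝ := fun X => ∑ q ∈ Ioc Q X, w q with hS
  have hS0 : ∀ X, 0 ≤ S X := fun X => Finset.sum_nonneg fun q _ => hw q
  have hl : ∀ i : ℕ, 1 ≤ log (log ((i + (m + 1) : ℕ) : ℝ)) := fun i =>
    hyps_ll (by exact_mod_cast (show 16 ≤ i + (m + 1) by omega))
  have key : ∀ i : ℕ, w (i + (m + 1)) / log (log ((i + (m + 1) : ℕ) : ℝ)) ^ e ≤
      4 / (S (i + m) + 1) - 4 / (S (i + 1 + m) + 1) := by
    intro i
    have e1 : S (i + 1 + m) = S (i + m) + w (i + (m + 1)) := by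
      simp only [hS]
      rw [show i + 1 + m = i + m + 1 by ring, Finset.sum_Ioc_succ_top (by omega), add_assoc]
    have e2 : S (i + 1 + m) < log (log ((i + (m + 1) : ℕ) : ℝ)) ^ (e / 2) := by
      rw [show i + 1 + m = i + (m + 1) by ring]
      exact hcon _ (by omega)
    have e3 : 1 ≤ log (log ((i + (m + 1) : ℕ) : ℝ)) ^ (e / 2) :=
      one_le_rpow (hl i) (by positivity)
    have e4 : log (log ((i + (m + 1) : ℕ) : ℝ)) ^ e =
        (log (log ((i + (m + 1) : ℕ) : ℝ)) ^ (e / 2)) ^ 2 := by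
      rw [← rpow_natCast, ← rpow_mul (by linarith [hl i])]
      congr 1
      push_cast
      ring
    rw [e4]
    generalize log (log ((i + (m + 1) : ℕ) : ℝ)) ^ (e / 2) = f at *
    have h0 := hS0 (i + m)
    have h1 := hw (i + (m + 1))
    have e5 : 4 / (S (i + m) + 1) - 4 / (S (i + 1 + m) + 1) =
        w (i + (m + 1)) / ((S (i + m) + 1) * (S (i + 1 + m) + 1) / 4) := by
      rw [e1]
      field_simp
      ring
    rw [e5]
    have h2 := hS0 (i + 1 + m)
    refine div_le_div_of_nonneg_left h1 (by positivity) ?_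
    have e6 : (S (i + m) + 1) * (S (i + 1 + m) + 1) ≤ (2 * f) * (2 * f) :=
      mul_le_mul (by linarith) (by linarith) (by positivity) (by positivity)
    linarith
  refine summable_of_sum_range_le (c := 4) (fun i => ?_) fun n => ?_
  · exact div_nonneg (hw _) (rpow_nonneg (by linarith [hl i]) _)
  · refine (Finset.sum_le_sum fun i _ => key i).trans ?_
    rw [Finset.sum_range_sub' (fun i => 4 / (S (i + m) + 1)) n]
    have h1 : 4 / (S (0 + m) + 1) ≤ 4 := by
      rw [div_le_iff₀ (by linarith [hS0 (0 + m)])]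
      linarith [hS0 (0 + m)]
    have h2 : 0 ≤ 4 / (S (n + m) + 1) := div_nonneg (by norm_num) (by linarith [hS0 (n + m)])
    linarith

end Vale.Agent.P028
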