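import Vale.Agent.P028.Seq
import Vale.Agent.P028.Base
import Vale.Agent.P028.Bad

/-! Mass of the pairs at one level. -/

namespace Vale.Agent.P028

open Finset Real

theorem level_interp {ε μ z u A : ℝ} (h0 : 0 < ε) (h1 : ε ≤ 1 / 10) (hμ : 0 ≤ μ) (hz : 0 ≤ z)
    (hu : 0 < u) (hA : 0 ≤ A) (hm1 : μ ≤ z / √u * √A) (hm2 : μ ≤ A) :
    μ ≤ z ^ (1 - 2 * ε) * u ^ (-(1 / 2 - ε)) * A ^ (1 / 2 + ε) := by
  have he : 0 ≤ 1 - 2 * ε := by linarith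
  have e1 : μ = μ ^ (1 - 2 * ε) * μ ^ (2 * ε) := by
    rw [← rpow_add' hμ (by norm_num)]; simp
  have e2 : (z / √u * √A) ^ (1 - 2 * ε) =
      z ^ (1 - 2 * ε) * u ^ (-(1 / 2 - ε)) * A ^ (1 / 2 - ε) := by
    rw [mul_rpow (by positivity) (by positivity), div_rpow hz (by positivity), sqrt_eq_rpow,
      sqrt_eq_rpow, ← rpow_mul hu.le, ← rpow_mul hA, rpow_neg hu.le, div_eq_mul_inv]
    have : 1 / 2 * (1 - 2 * ε) = 1 / 2 - ε := by ring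
    rw [this]
  have e3 : A ^ (1 / 2 + ε) = A ^ (1 / 2 - ε) * A ^ (2 * ε) := by
    rw [← rpow_add' hA (by linarith)]; congr 1; ring
  calc μ = μ ^ (1 - 2 * ε) * μ ^ (2 * ε) := e1
    _ ≤ (z / √u * √A) ^ (1 - 2 * ε) * A ^ (2 * ε) :=
      mul_le_mul (rpow_le_rpow hμ hm1 he) (rpow_le_rpow hμ hm2 (by linarith)) (by positivity)
        (by positivity)
    _ = _ := by rw [e2, e3]; ring

theorem level_zeta {ε ζ : ℝ} (hζ0 : 0 < ζ)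
    (hζ : ∀ S : Finset ℕ, (∀ n ∈ S, 0 < n) → ∑ n ∈ S, (n : ℝ) ^ (-(1 + ε)) ≤ ζ)
    (T : Finset (ℕ × ℕ)) (hT : ∀ t ∈ T, 0 < t.1 ∧ 0 < t.2) :
    ∑ t ∈ T, ((t.1 : ℝ) * t.2) ^ (-(1 + ε)) ≤ ζ ^ 2 := by
  have hs : T ⊆ T.image Prod.fst ×ˢ T.image Prod.snd := fun t ht =>
    mem_product.2 ⟨mem_image_of_mem _ ht, mem_image_of_mem _ ht⟩
  refine (sum_le_sum_of_subset_of_nonneg hs fun t _ _ => by positivity).trans ?_
  have e : ∑ t ∈ T.image Prod.fst ×ˢ T.image Prod.snd, ((t.1 : ℝ) * t.2) ^ (-(1 + ε)) =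
      (∑ n ∈ T.image Prod.fst, (n : ℝ) ^ (-(1 + ε))) *
        ∑ n ∈ T.image Prod.snd, (n : ℝ) ^ (-(1 + ε)) := by
    rw [sum_mul_sum, sum_product]
    exact sum_congr rfl fun a _ => sum_congr rfl fun b _ =>
      mul_rpow (Nat.cast_nonneg _) (Nat.cast_nonneg _)
  rw [e, sq]
  refine mul_le_mul (hζ _ ?_) (hζ _ ?_) (sum_nonneg fun _ _ => by positivity) hζ0.le
  · intro n hn
    obtain ⟨t, ht, rfl⟩ := mem_image.1 hn
    exact (hT t ht).1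
  · intro n hn
    obtain ⟨t, ht, rfl⟩ := mem_image.1 hn
    exact (hT t ht).2

theorem level_gen (ε : ℝ) (h0 : 0 < ε) (h1 : ε ≤ 1 / 10) : ∃ K : ℝ, 0 < K ∧
    ∀ (ψ : ℕ → ℝ) (B : Finset ℕ), (∀ q, 0 ≤ ψ q) → (∀ q ∈ B, 0 < q) →
    ∀ E : Finset (ℕ × ℕ), (∀ e ∈ E, e.1 ∈ B ∧ e.2 ∈ B) → ∀ z : ℕ → ℕ → ℝ, (∀ a b, 0 ≤ z a b) →
    ∀ S0 x : ℝ, 0 ≤ S0 → 0 ≤ x →
    (∀ T : Finset (ℕ × ℕ), (∀ t ∈ T, 0 < t.1 ∧ 0 < t.2) →
      ∑ t ∈ T, ((t.1 : ℝ) * t.2) ^ (-(1 + ε)) * (z t.1 t.2 ^ (1 - 2 * ε)) ^ th ε ≤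
        S0 * x ^ th ε) →
    (∀ V ⊆ B, ∀ W ⊆ B, ∀ E' ⊆ E, ∀ (a b N : ℕ) (m d : ℕ → ℕ), Clu V W E' a b N m d →
      ms (wt ψ) E' ≤ z a b / √((a : ℝ) * b) * √((∑ v ∈ V, wt ψ v) * ∑ w ∈ W, wt ψ w)) →
    ms (wt ψ) E ≤ (K * S0) ^ (1 / th ε) * x * (∑ q ∈ B, wt ψ q) ^ (1 + 2 * ε) := by
  obtain ⟨K, hK, hseq⟩ := seq ε h0 h1
  refine ⟨K, hK, ?_⟩
  intro ψ B hψ hB E hE z hz S0 x hS0 hx hS hclu
  have hw : ∀ v, 0 ≤ wt ψ v := fun v => wt_nonneg (hψ v)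
  have hth : 0 < th ε := lt_of_lt_of_le two_pos (th_ge h0 h1)
  have hP : ∀ p ∈ B.biUnion Nat.primeFactors, p.Prime := by
    intro p hp
    obtain ⟨q, -, hq⟩ := mem_biUnion.1 hp
    exact Nat.prime_of_mem_primeFactors hq
  have key := hseq (B.biUnion Nat.primeFactors) hP (wt ψ) hw B B E hE
    (fun a b => z a b ^ (1 - 2 * ε)) (fun a b => rpow_nonneg (hz a b) _) _ hS ?_
  · have hW : 0 ≤ ∑ q ∈ B, wt ψ q := sum_nonneg fun q _ => hw q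
    have e1 : ((∑ q ∈ B, wt ψ q) * ∑ q ∈ B, wt ψ q) ^ (1 / 2 + ε) =
        (∑ q ∈ B, wt ψ q) ^ (1 + 2 * ε) := by
      rw [mul_rpow hW hW, ← rpow_add' hW (by linarith)]; congr 1; ring
    have e2 : (K * (S0 * x ^ th ε)) ^ (1 / th ε) = (K * S0) ^ (1 / th ε) * x := by
      rw [← mul_assoc, mul_rpow (by positivity) (by positivity), ← rpow_mul hx,
        mul_one_div_cancel hth.ne', rpow_one]
    rwa [e1, e2] at key
  intro pt hd hU V hV W hW E' hE' hf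
  have hsub : ∀ v ∈ B, 0 < v ∧ v.primeFactors ⊆ pt.F ∪ pt.C := fun v hv =>
    ⟨hB v hv, by rw [hU]; exact subset_biUnion_of_mem _ hv⟩
  obtain ⟨N, m, d, hC⟩ := clu_of_fits pt hd (by rw [hU]; exact hP) V W E'
    (fun v hv => hsub v (hV hv)) (fun v hv => hsub v (hW hv)) hf
  have ha : (0 : ℝ) < pt.a := Nat.cast_pos.2 hC.apos
  have hb : (0 : ℝ) < pt.b := Nat.cast_pos.2 hC.bpos
  refine level_interp h0 h1 (sum_nonneg fun e _ => mul_nonneg (hw _) (hw _)) (hz _ _)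
    (mul_pos ha hb) (mul_nonneg (sum_nonneg fun q _ => hw q) (sum_nonneg fun q _ => hw q))
    (hclu V hV W hW E' hE' _ _ N m d hC) ?_
  exact ms_le _ hw V W E' fun e he => ⟨(hC.edge e he).1, (hC.edge e he).2.1⟩

theorem level_triv (ε : ℝ) (h0 : 0 < ε) (h1 : ε ≤ 1 / 10) : ∃ C : ℝ, 0 < C ∧
    ∀ (ψ : ℕ → ℝ) (B : Finset ℕ), (∀ q, 0 ≤ ψ q) → (∀ q ∈ B, 0 < q ∧ 0 < ψ q) →
    ∀ y : ℝ, 0 < y → ∀ E : Finset (ℕ × ℕ),
    (∀ e ∈ E, e.1 ∈ B ∧ e.2 ∈ B ∧ DD ψ e.1 e.2 ≤ y) →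
    ms (wt ψ) E ≤ C * y ^ (1 - 2 * ε) * (∑ q ∈ B, wt ψ q) ^ (1 + 2 * ε) := by
  obtain ⟨K, hK, hgen⟩ := level_gen ε h0 h1
  obtain ⟨ζ, hζ0, hζ⟩ := zeta_bound ε h0
  refine ⟨(K * ζ ^ 2) ^ (1 / th ε) * 2 ^ (1 - 2 * ε), by positivity, ?_⟩
  intro ψ B hψ hB y hy E hE
  have key := hgen ψ B hψ (fun q hq => (hB q hq).1) E (fun e he => ⟨(hE e he).1, (hE e he).2.1⟩)
    (fun _ _ => 2 * y) (fun _ _ => by positivity) (ζ ^ 2) ((2 * y) ^ (1 - 2 * ε))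
    (by positivity) (by positivity) ?_ ?_
  · rw [mul_rpow (by norm_num) hy.le] at key
    simpa only [mul_assoc] using key
  · intro T hT
    rw [← sum_mul]
    exact mul_le_mul_of_nonneg_right (level_zeta hζ0 hζ T hT) (by positivity)
  · intro V hV W hW E' hE' a b N m d hC
    exact base_triv hC ψ (fun v hv => (hB v (hV hv)).2) (fun v hv => (hB v (hW hv)).2) y hy
      fun e he => (hE e (hE' he)).2.2

theorem level_M9 {γ κ y : ℝ} {τ : ℕ} (hτ : 1 ≤ τ) (hκ : 0 < κ) (hγ : Dio γ κ τ) (hy : 0 < y)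
    (hyκ : y ≤ (κ / 16) ^ 10) (n : ℕ) (hn : 0 < n) (h : Near (γ * n) (16 * y)) :
    ⌊y ^ (-(1 / (10 * (τ : ℝ))))⌋₊ ^ 9 ≤ n := by
  obtain ⟨z, hz⟩ := h
  have hτ0 : (0 : ℝ) < τ := Nat.cast_pos.2 hτ
  have hn0 : (0 : ℝ) < n := Nat.cast_pos.2 hn
  have h1 : κ / (n : ℝ) ^ τ ≤ 16 * y := (hγ n hn z).trans hz
  have h2 : y ^ (1 / 10 : ℝ) ≤ κ / 16 := by
    have := rpow_le_rpow hy.le hyκ (by norm_num : (0 : ℝ) ≤ 1 / 10)
    rwa [← rpow_natCast, ← rpow_mul (by positivity), show ((10 : ℕ) : ℝ) * (1 / 10) = 1 by norm_num,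
      rpow_one] at this
  have h3 : y ^ (-(9 / 10) : ℝ) ≤ (n : ℝ) ^ τ := by
    have e : y ^ (-(9 / 10) : ℝ) = y ^ (1 / 10 : ℝ) / y := by
      rw [← rpow_sub_one hy.ne']; congr 1; norm_num
    rw [e, div_le_iff₀ hy]
    rw [div_le_iff₀ (by positivity)] at h1
    nlinarith
  have h4 : ((⌊y ^ (-(1 / (10 * (τ : ℝ))))⌋₊ : ℝ) ^ 9) ^ τ ≤ y ^ (-(9 / 10) : ℝ) := by
    have e : ((y ^ (-(1 / (10 * (τ : ℝ))))) ^ 9) ^ τ = y ^ (-(9 / 10) : ℝ) := by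
      rw [← pow_mul, ← rpow_natCast, ← rpow_mul hy.le]
      congr 1
      push_cast
      field_simp
    rw [← e]
    exact pow_le_pow_left₀ (by positivity)
      (pow_le_pow_left₀ (by positivity) (Nat.floor_le (by positivity)) 9) τ
  have h5 := le_of_pow_le_pow_left₀ (by omega : τ ≠ 0) hn0.le (h4.trans h3)
  exact_mod_cast h5

theorem level_Minv {y c : ℝ} (hy : 0 < y) (hy1 : y ≤ 1) (hc : 0 ≤ c) :
    1 ≤ ⌊y ^ (-c)⌋₊ ∧ 1 / (⌊y ^ (-c)⌋₊ : ℝ) ≤ 2 * y ^ c := by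
  have h1 : 1 ≤ y ^ (-c) := one_le_rpow_of_pos_of_le_one_of_nonpos hy hy1 (by linarith)
  have h2 : 1 ≤ ⌊y ^ (-c)⌋₊ := Nat.le_floor (by simpa using h1)
  refine ⟨h2, ?_⟩
  have h3 : (1 : ℝ) ≤ ⌊y ^ (-c)⌋₊ := by exact_mod_cast h2
  have h4 := Nat.lt_floor_add_one (y ^ (-c))
  have h5 : y ^ c * y ^ (-c) = 1 := by rw [← rpow_add hy]; simp
  have h6 : 0 < y ^ c := by positivity
  rw [div_le_iff₀ (by linarith)]
  nlinarith

theorem level_save (κ ε : ℝ) (τ : ℕ) (hτ : 1 ≤ τ) (hκ : 0 < κ) (hκ1 : κ ≤ 1)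
    (hε : 0 < ε) (hε1 : ε ≤ 1 / (320 * τ)) : ∃ C : ℝ, 0 < C ∧
    ∀ (γ : ℝ), Dio γ κ τ → ∀ (ψ : ℕ → ℝ) (B : Finset ℕ), (∀ q, 0 ≤ ψ q) →
    (∀ q ∈ B, 0 < q ∧ 0 < ψ q) → ∀ y : ℝ, 0 < y → y ≤ (κ / 16) ^ 10 → Hyp ψ B κ τ ε y →
    ∀ E : Finset (ℕ × ℕ), (∀ e ∈ E, e.1 ∈ B ∧ e.2 ∈ B ∧ e.1 ≠ e.2 ∧ y / 2 < DD ψ e.1 e.2 ∧
      DD ψ e.1 e.2 ≤ y ∧ Bohr γ e.1 e.2 (2 * y)) →
    ms (wt ψ) E ≤ C * y ^ (1 + ε) * (∑ q ∈ B, wt ψ q) ^ (1 + 2 * ε) := by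
  classical
  have hτ1 : (1 : ℝ) ≤ τ := by exact_mod_cast hτ
  have hε2 : ε ≤ 1 / 320 :=
    hε1.trans (one_div_le_one_div_of_le (by norm_num) (by linarith))
  have h1 : ε ≤ 1 / 10 := by linarith
  have hc : 32 * ε ≤ 1 / (10 * (τ : ℝ)) := by
    have : 1 / (10 * (τ : ℝ)) = 32 * (1 / (320 * τ)) := by field_simp; norm_num
    rw [this]; linarith
  obtain ⟨K, hK, hgen⟩ := level_gen ε hε h1
  obtain ⟨ζ, hζ0, hζ⟩ := zeta_bound ε hε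
  obtain ⟨Cb, hCb, hbad⟩ := bad_sum ε hε
  have ht2 := th_ge hε h1
  have ht3 := th_le h1
  set a1 : ℝ := ((24 : ℝ) ^ (1 - 2 * ε)) ^ th ε with ha1
  set a2 : ℝ := ((2 : ℝ) ^ (1 - 2 * ε)) ^ th ε with ha2
  have ha1p : 0 < a1 := by positivity
  have ha2p : 0 < a2 := by positivity
  refine ⟨(K * (ζ ^ 2 * a1 + 3 * Cb * a2)) ^ (1 / th ε), by positivity, ?_⟩
  intro γ hγ ψ B hψ hB y hy hyκ hH E hE
  have hy4 : y ≤ 1 / 4 := by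
    refine hyκ.trans ((pow_le_pow_left₀ (by positivity) (show κ / 16 ≤ 1 / 16 by linarith) 10).trans
      (by norm_num))
  have hy1 : y ≤ 1 := by linarith
  set M : ℕ := ⌊y ^ (-(1 / (10 * (τ : ℝ))))⌋₊ with hM
  set X : ℝ := y ^ (-(20 : ℝ)) with hX
  obtain ⟨hM1, hMi⟩ := level_Minv hy hy1 (show 0 ≤ 1 / (10 * (τ : ℝ)) by positivity)
  have hX1 : 1 ≤ X := one_le_rpow_of_pos_of_le_one_of_nonpos hy hy1 (by norm_num)
  refine hgen ψ B hψ (fun q hq => (hB q hq).1) E (fun e he => ⟨(hE e he).1, (hE e he).2.1⟩)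
    (fun a b => if Good γ y M X a b then 24 * y ^ (4 * ε) * y else 2 * y)
    (fun a b => by split_ifs <;> positivity) _ (y ^ (1 + ε)) (by positivity) (by positivity) ?_ ?_
  · intro T hT
    have g1 : ((24 * y ^ (4 * ε) * y) ^ (1 - 2 * ε)) ^ th ε ≤ a1 * (y ^ (1 + ε)) ^ th ε := by
      rw [ha1, ← mul_rpow (by positivity) (by positivity)]
      refine rpow_le_rpow (by positivity) ?_ (by linarith)
      rw [mul_assoc, mul_rpow (by norm_num) (by positivity), ← rpow_add_one hy.ne',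
        ← rpow_mul hy.le]
      refine mul_le_mul_of_nonneg_left (rpow_le_rpow_of_exponent_ge hy hy1 ?_) (by positivity)
      nlinarith
    have g2 : ((2 * y) ^ (1 - 2 * ε)) ^ th ε * y ^ (9 * ε) ≤ a2 * (y ^ (1 + ε)) ^ th ε := by
      rw [ha2, mul_rpow (by norm_num) hy.le, mul_rpow (by positivity) (by positivity), mul_assoc,
        ← rpow_mul hy.le, ← rpow_mul hy.le, ← rpow_add hy]
      refine mul_le_mul_of_nonneg_left (rpow_le_rpow_of_exponent_ge hy hy1 ?_) (by positivity)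
      nlinarith
    have g3 : 1 / (M : ℝ) + X ^ (-(ε / 2)) ≤ 3 * y ^ (9 * ε) := by
      have k1 : y ^ (1 / (10 * (τ : ℝ))) ≤ y ^ (9 * ε) :=
        rpow_le_rpow_of_exponent_ge hy hy1 (by linarith)
      have k2 : X ^ (-(ε / 2)) ≤ y ^ (9 * ε) := by
        rw [hX, ← rpow_mul hy.le]
        exact rpow_le_rpow_of_exponent_ge hy hy1 (by linarith)
      linarith
    have g4 := hbad γ y X M hM1 hX1 hy (level_M9 hτ hκ hγ hy hyκ)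
      (T.filter fun t => ¬ Good γ y M X t.1 t.2)
      fun t ht => ⟨(hT t (mem_filter.1 ht).1).1, (hT t (mem_filter.1 ht).1).2, (mem_filter.1 ht).2⟩
    have g5 := level_zeta hζ0 hζ (T.filter fun t => Good γ y M X t.1 t.2)
      fun t ht => hT t (mem_filter.1 ht).1
    rw [← sum_filter_add_sum_filter_not T fun t => Good γ y M X t.1 t.2,
      sum_congr rfl fun t ht => by rw [if_pos (mem_filter.1 ht).2],
      sum_congr (s₁ := T.filter fun t => ¬ Good γ y M X t.1 t.2) rfl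
        fun t ht => by rw [if_neg (mem_filter.1 ht).2], ← sum_mul, ← sum_mul]
    have g6 := g4.trans (mul_le_mul_of_nonneg_left g3 hCb.le)
    have g7 := mul_le_mul g5 g1 (by positivity) (by positivity)
    have g8 := mul_le_mul_of_nonneg_right g6
      (show 0 ≤ ((2 * y) ^ (1 - 2 * ε)) ^ th ε by positivity)
    have g9 := mul_le_mul_of_nonneg_left g2 (show 0 ≤ 3 * Cb by positivity)
    nlinarith
  · intro V hV W hW E' hE' a b N m d hC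
    by_cases hg : Good γ y M X a b
    · rw [if_pos hg]
      exact base_save hC hV hW ψ (fun v hv => (hB v hv).2) γ κ ε y τ hτ hκ hκ1 hγ hε hε1 hy hy4
        hH hg fun e he => (hE e (hE' he)).2.2
    · rw [if_neg hg]
      exact base_triv hC ψ (fun v hv => (hB v (hV hv)).2) (fun v hv => (hB v (hW hv)).2) y hy
        fun e he => (hE e (hE' he)).2.2.2.2.1

end Vale.Agent.P028
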