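import Vale.Agent.P028.Block
import Vale.Agent.P028.Fin
import Vale.Agent.P028.Hyps

/-! The two main theorems. -/

namespace Vale.Agent.P028

open Finset Real Filter MeasureTheory

theorem main_ll : Tendsto (fun q : ℕ => log (log (q : ℝ))) atTop atTop :=
  tendsto_log_atTop.comp (tendsto_log_atTop.comp tendsto_natCast_atTop_atTop)

theorem main_filter (ψ : ℕ → ℝ) (hψ : ∀ q, 0 ≤ ψ q) (S : Finset ℕ) :
    ∑ q ∈ S.filter (fun q => 0 < ψ q), wt ψ q = ∑ q ∈ S, wt ψ q := by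
  rw [sum_filter]
  refine sum_congr rfl fun q _ => ?_
  split_ifs with h
  · rfl
  · have : ψ q = 0 := le_antisymm (not_lt.1 h) (hψ q)
    simp [wt, this]

theorem main_big (w : ℕ → ℝ) (hw : ∀ q, 0 ≤ w q) (h : ¬ Summable w) (Q : ℕ) (A : ℝ) :
    ∃ X : ℕ, A ≤ ∑ q ∈ Ioc Q X, w q := by
  have h1 := (not_summable_iff_tendsto_nat_atTop_of_nonneg hw).1 h
  obtain ⟨n, hn⟩ := ((h1.eventually_ge_atTop (A + ∑ q ∈ range (Q + 1), w q)).and
    (eventually_ge_atTop (Q + 1))).exists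
  refine ⟨n - 1, ?_⟩
  have h2 := Finset.sum_range_add_sum_Ico w hn.2
  have h3 : Ico (Q + 1) n = Ioc Q (n - 1) := by
    ext q; simp only [mem_Ico, mem_Ioc]; omega
  rw [h3] at h2
  linarith [hn.1]

theorem main_eps {e : ℝ} {τ : ℕ} (hτ : 1 ≤ τ) (he : 0 < e) (he1 : e ≤ 1) :
    0 < e / (1280 * τ) ∧ e / (1280 * τ) ≤ 1 / (320 * τ) ∧ e / (1280 * τ) ≤ 1 / 10 := by
  have h1 : (1 : ℝ) ≤ τ := by exact_mod_cast hτ
  refine ⟨by positivity, ?_, ?_⟩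
  · rw [div_le_div_iff₀ (by positivity) (by positivity)]; nlinarith
  · rw [div_le_div_iff₀ (by positivity) (by positivity)]; nlinarith

theorem mainA (γ : ℝ) (hirr : Irrational γ) (hL : ¬ Liouville γ) (ψ : ℕ → ℝ) (hψ : ∀ q, 0 ≤ ψ q)
    (e : ℝ) (he : 0 < e) (hdiv : ¬ Summable fun q : ℕ => (Nat.totient q : ℝ) / q * ψ q)
    (hs : ∀ᶠ q : ℕ in atTop, ψ q ≤ exp (-(log (log q)) ^ (1 + e))) :
    ∀ᵐ x : ℝ, Set.Infinite {q : ℕ | 0 < q ∧ ∃ a : ℤ, |(q : ℝ) * x - a - γ| < ψ q} := by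
  obtain ⟨κ, τ, hκ, hκ1, hτ, hγ⟩ := dio_of γ hirr hL
  set e' := min e 1 with he'
  have he0 : 0 < e' := lt_min he one_pos
  have he1 : e' ≤ 1 := min_le_right _ _
  have hee : e' ≤ e := min_le_left _ _
  obtain ⟨hε, hε1, hε2⟩ := main_eps hτ he0 he1
  set ε := e' / (1280 * τ) with hεd
  obtain ⟨C, hC, hblock⟩ := block κ ε τ hτ hκ hκ1 hε hε1
  obtain ⟨yA, hyA, hA⟩ := hypA κ ε e' τ hτ hκ he0 he1 hε le_rfl
  have hev : ∀ᶠ q : ℕ in atTop, 16 ≤ q ∧ ψ q ≤ exp (-(log (log q)) ^ (1 + e')) ∧ ψ q ≤ 1 / 2 := by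
    filter_upwards [hs, main_ll.eventually_ge_atTop 1, eventually_ge_atTop 16] with q h1 h2 h3
    have h4 : (log (log q)) ^ (1 + e') ≤ (log (log q)) ^ (1 + e) :=
      rpow_le_rpow_of_exponent_le h2 (by linarith)
    have h5 : ψ q ≤ exp (-(log (log q)) ^ (1 + e')) := h1.trans (exp_le_exp.2 (by linarith))
    refine ⟨h3, h5, h5.trans ?_⟩
    have h6 : 1 ≤ (log (log q)) ^ (1 + e') := one_le_rpow h2 (by linarith)
    have h7 : exp (-(log (log q)) ^ (1 + e')) ≤ exp (-1) := exp_le_exp.2 (by linarith)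
    refine h7.trans ?_
    rw [exp_neg, one_div]
    exact inv_anti₀ (by norm_num) (by linarith [add_one_le_exp (1 : ℝ)])
  obtain ⟨Q₀, hQ₀⟩ := eventually_atTop.1 hev
  set y₁ := min ((κ / 16) ^ 10) yA with hy₁
  have hy0 : 0 < y₁ := lt_min (by positivity) hyA
  refine full_measure γ C ψ fun Q => ?_
  obtain ⟨X, hX⟩ := main_big (wt ψ) (fun q => wt_nonneg (hψ q)) hdiv (max Q Q₀)
    (max 1 ((y₁ ^ (-(3 * ε))) ^ (2 : ℝ)))
  set B := (Ioc (max Q Q₀) X).filter (fun q => 0 < ψ q) with hB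
  have hW : ∑ q ∈ B, wt ψ q = ∑ q ∈ Ioc (max Q Q₀) X, wt ψ q := main_filter ψ hψ _
  have hmem : ∀ q ∈ B, Q < q ∧ Q₀ ≤ q ∧ 0 < ψ q := by
    intro q hq
    simp only [hB, mem_filter, mem_Ioc, max_lt_iff] at hq
    exact ⟨hq.1.1.1, hq.1.1.2.le, hq.2⟩
  have hW1 : 1 ≤ ∑ q ∈ B, wt ψ q := by rw [hW]; exact (le_max_left _ _).trans hX
  refine ⟨B, fun q hq => ⟨(hmem q hq).1, (hmem q hq).2.2, (hQ₀ q (hmem q hq).2.1).2.2⟩, hW1, ?_⟩
  refine hblock γ hγ ψ B hψ (fun q hq => ⟨by have := (hmem q hq).1; omega, (hmem q hq).2.2⟩) y₁ hy0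
    (min_le_left _ _) (fun y hy hy1 => hA ψ B (fun v hv => ⟨(hQ₀ v (hmem v hv).2.1).1, hψ v,
      (hQ₀ v (hmem v hv).2.1).2.1⟩) y hy (hy1.trans (min_le_right _ _))) hW1 ?_
  have h2 : (y₁ ^ (-(3 * ε))) ^ (2 : ℝ) ≤ ∑ q ∈ B, wt ψ q := by
    rw [hW]; exact (le_max_right _ _).trans hX
  have h3 : 0 ≤ y₁ ^ (-(3 * ε)) := by positivity
  calc y₁ ^ (-(3 * ε)) = ((y₁ ^ (-(3 * ε))) ^ (2 : ℝ)) ^ (1 / 2 : ℝ) := by
        rw [← rpow_mul h3]; norm_num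
    _ ≤ (∑ q ∈ B, wt ψ q) ^ (1 / 2 : ℝ) := rpow_le_rpow (by positivity) h2 (by norm_num)
    _ ≤ _ := rpow_le_rpow_of_exponent_le hW1 (by linarith)

theorem main_triv (γ : ℝ) (ψ : ℕ → ℝ) (h : ∃ᶠ q : ℕ in atTop, 1 / 2 < ψ q) (x : ℝ) :
    Set.Infinite {q : ℕ | 0 < q ∧ ∃ a : ℤ, |(q : ℝ) * x - a - γ| < ψ q} := by
  rw [← Nat.frequently_atTop_iff_infinite]
  refine (h.and_eventually (eventually_gt_atTop 0)).mono fun q hq => ⟨hq.2, round (q * x - γ), ?_⟩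
  have := abs_sub_round ((q : ℝ) * x - γ)
  have e : (q : ℝ) * x - (round ((q : ℝ) * x - γ) : ℝ) - γ =
      (q : ℝ) * x - γ - (round ((q : ℝ) * x - γ) : ℝ) := by ring
  rw [e]; linarith [hq.1]

theorem main_asym (C c e : ℝ) (hC : 1 ≤ C) (he : 0 < e) :
    ∀ᶠ l : ℝ in atTop, 1 ≤ l ∧ c ≤ l ^ (e / 4) ∧ (C * l) ^ (e / 8) ≤ l ^ (e / 4) := by
  filter_upwards [eventually_ge_atTop 1, (tendsto_rpow_atTop (by positivity : 0 < e / 4)).eventually_ge_atTop c,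
    eventually_ge_atTop C] with l h1 h2 h3
  refine ⟨h1, h2, ?_⟩
  calc (C * l) ^ (e / 8) ≤ (l * l) ^ (e / 8) :=
        rpow_le_rpow (by positivity) (by nlinarith) (by positivity)
    _ = l ^ (e / 4) := by
        rw [mul_rpow (by positivity) (by positivity), ← rpow_add (by positivity)]; ring_nf

theorem mainB (γ : ℝ) (hirr : Irrational γ) (hL : ¬ Liouville γ) (ψ : ℕ → ℝ) (hψ : ∀ q, 0 ≤ ψ q)
    (e : ℝ) (he : 0 < e)
    (hdiv : ¬ Summable fun q : ℕ => (Nat.totient q : ℝ) / q * ψ q / (log (log q)) ^ e) :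
    ∀ᵐ x : ℝ, Set.Infinite {q : ℕ | 0 < q ∧ ∃ a : ℤ, |(q : ℝ) * x - a - γ| < ψ q} := by
  by_cases hfr : ∃ᶠ q : ℕ in atTop, 1 / 2 < ψ q
  · exact Eventually.of_forall (main_triv γ ψ hfr)
  have hhalf : ∀ᶠ q : ℕ in atTop, ψ q ≤ 1 / 2 := by
    rw [not_frequently] at hfr
    exact hfr.mono fun q hq => not_lt.1 hq
  obtain ⟨κ, τ, hκ, hκ1, hτ, hγ⟩ := dio_of γ hirr hL
  set e' := min e 1 with he'
  have he0 : 0 < e' := lt_min he one_pos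
  have he1 : e' ≤ 1 := min_le_right _ _
  have hee : e' ≤ e := min_le_left _ _
  have hdiv' : ¬ Summable fun q : ℕ => wt ψ q / (log (log q)) ^ e' := by
    intro hs
    refine hdiv (Summable.of_norm_bounded_eventually_nat hs ?_)
    filter_upwards [main_ll.eventually_ge_atTop 1] with q h1
    have h2 : 0 ≤ wt ψ q := wt_nonneg (hψ q)
    have h3 : 0 < (log (log q)) ^ e' := by positivity
    have h4 : (log (log q)) ^ e' ≤ (log (log q)) ^ e := rpow_le_rpow_of_exponent_le h1 hee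
    change ‖wt ψ q / (log (log q)) ^ e‖ ≤ _
    rw [Real.norm_of_nonneg (by positivity)]
    exact div_le_div_of_nonneg_left h2 h3 h4
  obtain ⟨hε, hε1, hε2⟩ := main_eps hτ he0 he1
  set ε := e' / (1280 * τ) with hεd
  obtain ⟨C, hC, hblock⟩ := block κ ε τ hτ hκ hκ1 hε hε1
  obtain ⟨CL, hCL, hB'⟩ := hypB
  obtain ⟨Q₀, hQ₀⟩ := eventually_atTop.1 hhalf
  obtain ⟨X₀, hX₀⟩ := eventually_atTop.1 ((main_ll.eventually
    (main_asym CL (((κ / 16) ^ 10) ^ (-(3 * ε))) e' hCL he0)).and (eventually_ge_atTop 16))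
  refine full_measure γ C ψ fun Q => ?_
  obtain ⟨X, hX1, hX⟩ := blocksB (wt ψ) (fun q => wt_nonneg (hψ q)) e' he0 hdiv' (max Q Q₀) X₀
  obtain ⟨⟨hl1, hl2, hl3⟩, hX16⟩ := hX₀ X hX1
  set l := log (log (X : ℝ)) with hl
  set B := (Ioc (max Q Q₀) X).filter (fun q => 0 < ψ q) with hB
  have hW : ∑ q ∈ B, wt ψ q = ∑ q ∈ Ioc (max Q Q₀) X, wt ψ q := main_filter ψ hψ _
  have hmem : ∀ q ∈ B, Q < q ∧ Q₀ ≤ q ∧ 0 < ψ q ∧ q ≤ X := by
    intro q hq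
    simp only [hB, mem_filter, mem_Ioc, max_lt_iff] at hq
    exact ⟨hq.1.1.1, hq.1.1.2.le, hq.2, hq.1.2⟩
  have hW0 : l ^ (e' / 2) ≤ ∑ q ∈ B, wt ψ q := by rw [hW]; exact hX
  have hW1 : 1 ≤ ∑ q ∈ B, wt ψ q := (one_le_rpow hl1 (by positivity)).trans hW0
  set y₁ := min ((κ / 16) ^ 10) ((CL * l) ^ (-(40 * (τ : ℝ)))) with hy₁
  have hCl : 0 < CL * l := by positivity
  have hy0 : 0 < y₁ := lt_min (by positivity) (by positivity)
  refine ⟨B, fun q hq => ⟨(hmem q hq).1, (hmem q hq).2.2.1, hQ₀ q (hmem q hq).2.1⟩, hW1, ?_⟩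
  refine hblock γ hγ ψ B hψ (fun q hq => ⟨by have := (hmem q hq).1; omega, (hmem q hq).2.2.1⟩) y₁
    hy0 (min_le_left _ _) (fun y hy hy1 => hB' κ ε τ ψ B X hτ hX16
      (fun v hv => ⟨by have := (hmem v hv).1; omega, (hmem v hv).2.2.2⟩) y hy
      (hy1.trans (min_le_right _ _))) hW1 ?_
  have h5 : y₁ ^ (-(3 * ε)) ≤ l ^ (e' / 4) := by
    rcases min_choice ((κ / 16) ^ 10) ((CL * l) ^ (-(40 * (τ : ℝ)))) with h | h
    · rw [hy₁, h]; exact hl2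
    · rw [hy₁, h, ← rpow_mul hCl.le]
      refine le_trans (rpow_le_rpow_of_exponent_le (by nlinarith) ?_) hl3
      have h1 : (0 : ℝ) < τ := by exact_mod_cast hτ
      have : -(40 * (τ : ℝ)) * -(3 * ε) = 3 * e' / 32 := by
        rw [hεd]; field_simp; ring
      rw [this]; linarith
  calc y₁ ^ (-(3 * ε)) ≤ l ^ (e' / 4) := h5
    _ = (l ^ (e' / 2)) ^ (1 / 2 : ℝ) := by
        rw [← rpow_mul (by positivity)]; ring_nf
    _ ≤ (∑ q ∈ B, wt ψ q) ^ (1 / 2 : ℝ) := rpow_le_rpow (by positivity) hW0 (by norm_num)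
    _ ≤ _ := rpow_le_rpow_of_exponent_le hW1 (by linarith)

end Vale.Agent.P028
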