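import Vale.Agent.P028.Defs

/-! The one-prime inequality. -/

namespace Vale.Agent.P028

open Finset Real

theorem one_sq_le (r : ℝ) (hr : 1 / 2 ≤ r) (J : Finset ℕ) (α : ℕ → ℝ) (hα : ∀ i, 0 ≤ α i) (m : ℝ)
    (hm : ∀ i ∈ J, α i ≤ m) : ∑ i ∈ J, (α i ^ r) ^ 2 ≤ (∑ i ∈ J, α i) * m ^ (2 * r - 1) := by
  rw [Finset.sum_mul]
  refine Finset.sum_le_sum fun i hi => ?_
  have e : (α i ^ r) ^ 2 = α i * α i ^ (2 * r - 1) := by
    rw [← Real.rpow_natCast, ← Real.rpow_mul (hα i)]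
    have : r * ((2 : ℕ) : ℝ) = 1 + (2 * r - 1) := by push_cast; ring
    rw [this, Real.rpow_one_add' (hα i) (by linarith)]
  rw [e]
  exact mul_le_mul_of_nonneg_left (Real.rpow_le_rpow (hα i) (hm i hi) (by linarith)) (hα i)

theorem one_sq_le' (r : ℝ) (hr : 1 / 2 ≤ r) (J : Finset ℕ) (α : ℕ → ℝ) (hα : ∀ i, 0 ≤ α i) (u : ℝ)
    (hu : ∑ i ∈ J, α i ≤ u) : ∑ i ∈ J, (α i ^ r) ^ 2 ≤ (u ^ r) ^ 2 := by
  have hs : 0 ≤ ∑ i ∈ J, α i := Finset.sum_nonneg fun i _ => hα i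
  have hu0 : 0 ≤ u := hs.trans hu
  have h := one_sq_le r hr J α hα u
    (fun i hi => (Finset.single_le_sum (fun j _ => hα j) hi).trans hu)
  have e : (u ^ r) ^ 2 = u * u ^ (2 * r - 1) := by
    rw [← Real.rpow_natCast, ← Real.rpow_mul hu0]
    have : r * ((2 : ℕ) : ℝ) = 1 + (2 * r - 1) := by push_cast; ring
    rw [this, Real.rpow_one_add' hu0 (by linarith)]
  rw [e]
  exact h.trans (mul_le_mul_of_nonneg_right hu (Real.rpow_nonneg hu0 _))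

theorem one_off_le (I A B : Finset ℕ) (hA : A ⊆ I) (hB : B ⊆ I) (x y : ℕ → ℝ)
    (c : ℕ → ℕ → ℝ) (Λ p q : ℝ) (hc : ∀ i l, 0 ≤ c i l) (hΛ0 : 0 ≤ Λ)
    (hrow : ∀ i ∈ I, ∑ l ∈ I.erase i, c i l ≤ Λ) (hcol : ∀ l ∈ I, ∑ i ∈ I.erase l, c i l ≤ Λ)
    (hp : 0 ≤ p) (hq : 0 ≤ q) (hx : ∑ i ∈ A, x i ^ 2 ≤ p ^ 2) (hy : ∑ i ∈ B, y i ^ 2 ≤ q ^ 2) :
    ∑ i ∈ A, ∑ l ∈ B, (if i = l then 0 else c i l) * (x i * y l) ≤ Λ * (p * q) := by
  set d : ℕ → ℕ → ℝ := fun i l => if i = l then 0 else c i l with hd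
  have hd0 : ∀ i l, 0 ≤ d i l := fun i l => by
    simp only [hd]; split_ifs
    · exact le_rfl
    · exact hc i l
  have hr : ∀ i ∈ A, ∑ l ∈ B, d i l ≤ Λ := fun i hi => by
    refine (Finset.sum_le_sum_of_subset_of_nonneg hB fun l _ _ => hd0 i l).trans ?_
    rw [← Finset.add_sum_erase I _ (hA hi)]
    have h1 : d i i = 0 := by simp [hd]
    have h2 : ∑ l ∈ I.erase i, d i l = ∑ l ∈ I.erase i, c i l :=
      Finset.sum_congr rfl fun l hl => by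
        have : i ≠ l := (Finset.ne_of_mem_erase hl).symm
        simp [hd, this]
    rw [h1, h2, zero_add]; exact hrow i (hA hi)
  have hcl : ∀ l ∈ B, ∑ i ∈ A, d i l ≤ Λ := fun l hl => by
    refine (Finset.sum_le_sum_of_subset_of_nonneg hA fun i _ _ => hd0 i l).trans ?_
    rw [← Finset.add_sum_erase I _ (hB hl)]
    have h1 : d l l = 0 := by simp [hd]
    have h2 : ∑ i ∈ I.erase l, d i l = ∑ i ∈ I.erase l, c i l :=
      Finset.sum_congr rfl fun i hi => by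
        have : i ≠ l := Finset.ne_of_mem_erase hi
        simp [hd, this]
    rw [h1, h2, zero_add]; exact hcol l (hB hl)
  have hcs := Finset.sum_sq_le_sum_mul_sum_of_sq_le_mul (A ×ˢ B)
    (r := fun e => d e.1 e.2 * (x e.1 * y e.2)) (f := fun e => d e.1 e.2 * x e.1 ^ 2)
    (g := fun e => d e.1 e.2 * y e.2 ^ 2)
    (fun e _ => mul_nonneg (hd0 _ _) (sq_nonneg _)) (fun e _ => mul_nonneg (hd0 _ _) (sq_nonneg _))
    (fun e _ => le_of_eq (by ring))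
  have hf : ∑ e ∈ A ×ˢ B, d e.1 e.2 * x e.1 ^ 2 ≤ Λ * p ^ 2 := by
    rw [Finset.sum_product]
    calc ∑ i ∈ A, ∑ l ∈ B, d i l * x i ^ 2 = ∑ i ∈ A, (∑ l ∈ B, d i l) * x i ^ 2 := by
          refine Finset.sum_congr rfl fun i _ => ?_
          rw [Finset.sum_mul]
      _ ≤ ∑ i ∈ A, Λ * x i ^ 2 :=
          Finset.sum_le_sum fun i hi => mul_le_mul_of_nonneg_right (hr i hi) (sq_nonneg _)
      _ = Λ * ∑ i ∈ A, x i ^ 2 := by rw [Finset.mul_sum]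
      _ ≤ Λ * p ^ 2 := mul_le_mul_of_nonneg_left hx hΛ0
  have hg : ∑ e ∈ A ×ˢ B, d e.1 e.2 * y e.2 ^ 2 ≤ Λ * q ^ 2 := by
    rw [Finset.sum_product_right]
    calc ∑ l ∈ B, ∑ i ∈ A, d i l * y l ^ 2 = ∑ l ∈ B, (∑ i ∈ A, d i l) * y l ^ 2 := by
          refine Finset.sum_congr rfl fun i _ => ?_
          rw [Finset.sum_mul]
      _ ≤ ∑ l ∈ B, Λ * y l ^ 2 :=
          Finset.sum_le_sum fun i hi => mul_le_mul_of_nonneg_right (hcl i hi) (sq_nonneg _)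
      _ = Λ * ∑ i ∈ B, y i ^ 2 := by rw [Finset.mul_sum]
      _ ≤ Λ * q ^ 2 := mul_le_mul_of_nonneg_left hy hΛ0
  have hg0 : 0 ≤ ∑ e ∈ A ×ˢ B, d e.1 e.2 * y e.2 ^ 2 :=
    Finset.sum_nonneg fun e _ => mul_nonneg (hd0 _ _) (sq_nonneg _)
  have h2 : (∑ e ∈ A ×ˢ B, d e.1 e.2 * (x e.1 * y e.2)) ^ 2 ≤ (Λ * (p * q)) ^ 2 := by
    refine hcs.trans ?_
    calc _ ≤ (Λ * p ^ 2) * (Λ * q ^ 2) := mul_le_mul hf hg hg0 (by positivity)
      _ = _ := by ring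
  have h3 := le_sqrt_of_sq_le h2
  rw [Real.sqrt_sq (by positivity), Finset.sum_product] at h3
  exact h3

theorem one_split (J : Finset ℕ) (x y : ℕ → ℝ) (c : ℕ → ℕ → ℝ) :
    ∑ i ∈ J, ∑ l ∈ J, c i l * (x i * y l) = ∑ i ∈ J, c i i * (x i * y i) +
      ∑ i ∈ J, ∑ l ∈ J, (if i = l then 0 else c i l) * (x i * y l) := by
  rw [← Finset.sum_add_distrib]
  refine Finset.sum_congr rfl fun i hi => ?_
  rw [← Finset.add_sum_erase J _ hi, ← Finset.add_sum_erase J _ hi]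
  simp only [if_true, zero_mul, zero_add]
  congr 1
  refine Finset.sum_congr rfl fun l hl => ?_
  have : i ≠ l := (Finset.ne_of_mem_erase hl).symm
  simp [this]

theorem one_diag_le (J : Finset ℕ) (x y : ℕ → ℝ) (p q : ℝ) (hp : 0 ≤ p) (hq : 0 ≤ q)
    (hx : ∑ i ∈ J, x i ^ 2 ≤ p ^ 2) (hy : ∑ i ∈ J, y i ^ 2 ≤ q ^ 2) :
    ∑ i ∈ J, x i * y i ≤ p * q := by
  have h := Finset.sum_mul_sq_le_sq_mul_sq J x y
  have h2 : (∑ i ∈ J, x i * y i) ^ 2 ≤ (p * q) ^ 2 := by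
    refine h.trans ?_
    rw [mul_pow]
    exact mul_le_mul hx hy (Finset.sum_nonneg fun i _ => sq_nonneg _) (sq_nonneg _)
  have h3 := le_sqrt_of_sq_le h2
  rwa [Real.sqrt_sq (by positivity)] at h3

theorem one_bil_gen (r : ℝ) (hr : 1 / 2 ≤ r) (I J : Finset ℕ) (hJ : J ⊆ I) (α β : ℕ → ℝ)
    (c : ℕ → ℕ → ℝ) (σ Λ u : ℝ)
    (hα : ∀ i, 0 ≤ α i) (hβ : ∀ i, 0 ≤ β i) (hα1 : ∑ i ∈ J, α i ≤ u) (hβ1 : ∑ i ∈ J, β i ≤ u)
    (hc : ∀ i l, 0 ≤ c i l) (hσ0 : 0 ≤ σ) (hΛ0 : 0 ≤ Λ) (hσ : ∀ i ∈ I, c i i ≤ σ)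
    (hrow : ∀ i ∈ I, ∑ l ∈ I.erase i, c i l ≤ Λ) (hcol : ∀ l ∈ I, ∑ i ∈ I.erase l, c i l ≤ Λ) :
    ∑ i ∈ J, ∑ l ∈ J, c i l * (α i ^ r * β l ^ r) ≤ (σ + Λ) * (u ^ r * u ^ r) := by
  have hu0 : 0 ≤ u := (Finset.sum_nonneg fun i _ => hα i).trans hα1
  have hur : 0 ≤ u ^ r := Real.rpow_nonneg hu0 _
  have hx := one_sq_le' r hr J α hα u hα1
  have hy := one_sq_le' r hr J β hβ u hβ1
  rw [one_split J (fun i => α i ^ r) (fun i => β i ^ r) c]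
  have h1 := one_off_le I J J hJ hJ (fun i => α i ^ r) (fun i => β i ^ r) c Λ _ _ hc hΛ0 hrow hcol
    hur hur hx hy
  have h2 := one_diag_le J (fun i => α i ^ r) (fun i => β i ^ r) _ _ hur hur hx hy
  have h3 : ∑ i ∈ J, c i i * (α i ^ r * β i ^ r) ≤ σ * ∑ i ∈ J, α i ^ r * β i ^ r := by
    rw [Finset.mul_sum]
    exact Finset.sum_le_sum fun i hi => mul_le_mul_of_nonneg_right (hσ i (hJ hi))
      (mul_nonneg (Real.rpow_nonneg (hα i) _) (Real.rpow_nonneg (hβ i) _))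
  have h4 := mul_le_mul_of_nonneg_left h2 hσ0
  linarith

/-- Crude form: the full bilinear sum is at most `σ + Λ`. -/
theorem bil_le (r : ℝ) (hr : 1 / 2 ≤ r) (I : Finset ℕ) (α β : ℕ → ℝ) (c : ℕ → ℕ → ℝ) (σ Λ : ℝ)
    (hα : ∀ i, 0 ≤ α i) (hβ : ∀ i, 0 ≤ β i) (hα1 : ∑ i ∈ I, α i ≤ 1) (hβ1 : ∑ i ∈ I, β i ≤ 1)
    (hc : ∀ i l, 0 ≤ c i l) (hσ0 : 0 ≤ σ) (hΛ0 : 0 ≤ Λ) (hσ : ∀ i ∈ I, c i i ≤ σ)
    (hrow : ∀ i ∈ I, ∑ l ∈ I.erase i, c i l ≤ Λ) (hcol : ∀ l ∈ I, ∑ i ∈ I.erase l, c i l ≤ Λ) :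
    ∑ i ∈ I, ∑ l ∈ I, c i l * (α i ^ r * β l ^ r) ≤ σ + Λ := by
  have h := one_bil_gen r hr I I subset_rfl α β c σ Λ 1 hα hβ hα1 hβ1 hc hσ0 hΛ0 hσ hrow hcol
  simpa using h

theorem one_diag_save (ε : ℝ) (h0 : 0 < ε) (h1 : ε ≤ 1 / 10) (I : Finset ℕ) (k : ℕ) (hk : k ∈ I)
    (α β : ℕ → ℝ) (hα : ∀ i, 0 ≤ α i) (hβ : ∀ i, 0 ≤ β i) (hα1 : ∑ i ∈ I, α i ≤ 1)
    (hβ1 : ∑ i ∈ I, β i ≤ 1) (hmax : ∀ i ∈ I, α i ≤ α k) :
    ∑ i ∈ I, α i ^ (1 / 2 + ε) * β i ^ (1 / 2 + ε) ≤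
      1 - ε * max (∑ i ∈ I.erase k, α i) (∑ i ∈ I.erase k, β i) / 8 := by
  set r : ℝ := 1 / 2 + ε with hr
  have hr2 : 1 / 2 ≤ r := by linarith
  set a := ∑ i ∈ I.erase k, α i with ha
  set b := ∑ i ∈ I.erase k, β i with hb
  have ha0 : 0 ≤ a := Finset.sum_nonneg fun i _ => hα i
  have hb0 : 0 ≤ b := Finset.sum_nonneg fun i _ => hβ i
  have hak : α k + a ≤ 1 := by rw [ha, Finset.add_sum_erase I _ hk]; exact hα1
  have hbk : β k + b ≤ 1 := by rw [hb, Finset.add_sum_erase I _ hk]; exact hβ1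
  have ha1 : a ≤ 1 := by linarith [hα k]
  have hb1 : b ≤ 1 := by linarith [hβ k]
  have amgm : ∀ (J : Finset ℕ) (x y : ℕ → ℝ) (t : ℝ), 0 < t →
      ∑ i ∈ J, x i * y i ≤ (t * ∑ i ∈ J, x i ^ 2 + (∑ i ∈ J, y i ^ 2) / t) / 2 := by
    intro J x y t ht
    rw [Finset.mul_sum, Finset.sum_div, ← Finset.sum_add_distrib, Finset.sum_div]
    refine Finset.sum_le_sum fun i _ => ?_
    have : 0 ≤ (t * x i - y i) ^ 2 / t := by positivity
    have e : (t * x i - y i) ^ 2 / t = t * x i ^ 2 + y i ^ 2 / t - 2 * (x i * y i) := by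
      field_simp; ring
    linarith
  have first : ∑ i ∈ I, α i ^ r * β i ^ r ≤ 1 - ε * a := by
    have hx := one_sq_le r hr2 I α hα (1 - a) (fun i hi => (hmax i hi).trans (by linarith))
    have hy := one_sq_le' r hr2 I β hβ 1 hβ1
    rw [Real.one_rpow, one_pow] at hy
    have hz : (1 - a) ^ (2 * r - 1) ≤ 1 - 2 * ε * a := by
      have := rpow_one_add_le_one_add_mul_self (s := -a) (by linarith) (p := 2 * r - 1)
        (by linarith) (by linarith)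
      rw [← sub_eq_add_neg] at this
      refine this.trans (le_of_eq ?_)
      rw [hr]; ring
    have hz0 : 0 ≤ (1 - a) ^ (2 * r - 1) := Real.rpow_nonneg (by linarith) _
    have hx2 : ∑ i ∈ I, (α i ^ r) ^ 2 ≤ 1 - 2 * ε * a := by
      refine hx.trans ?_
      calc (∑ i ∈ I, α i) * (1 - a) ^ (2 * r - 1) ≤ 1 * (1 - a) ^ (2 * r - 1) :=
            mul_le_mul_of_nonneg_right hα1 hz0
        _ ≤ _ := by linarith
    have := amgm I (fun i => α i ^ r) (fun i => β i ^ r) 1 one_pos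
    simp only [one_mul, div_one] at this
    linarith
  have second : ∑ i ∈ I, α i ^ r * β i ^ r ≤ 1 - 3 * b / 8 + 2 * a := by
    rw [← Finset.add_sum_erase I _ hk]
    have hx := one_sq_le r hr2 (I.erase k) α hα 1
      (fun i hi => (Finset.single_le_sum (fun j _ => hα j) hi).trans ha1)
    have hy := one_sq_le r hr2 (I.erase k) β hβ 1
      (fun i hi => (Finset.single_le_sum (fun j _ => hβ j) hi).trans hb1)
    rw [Real.one_rpow, mul_one] at hx hy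
    have h4 := amgm (I.erase k) (fun i => α i ^ r) (fun i => β i ^ r) 4 (by norm_num)
    have hα' : α k ^ r ≤ 1 := Real.rpow_le_one (hα k) (by linarith) (by linarith)
    have hβ' : β k ^ r ≤ 1 - b / 2 := by
      have e1 : β k ^ r ≤ (1 - b) ^ r := Real.rpow_le_rpow (hβ k) (by linarith) (by linarith)
      have e2 := rpow_one_add_le_one_add_mul_self (s := -b) (by linarith) (p := r)
        (by linarith) (by linarith)
      rw [← sub_eq_add_neg] at e2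
      nlinarith
    have h5 : α k ^ r * β k ^ r ≤ 1 - b / 2 := by
      calc α k ^ r * β k ^ r ≤ 1 * β k ^ r :=
            mul_le_mul_of_nonneg_right hα' (Real.rpow_nonneg (hβ k) _)
        _ ≤ _ := by linarith
    linarith
  rcases le_total (b / 8) a with hab | hab
  · have : max a b ≤ 8 * a := max_le (by linarith) (by linarith)
    nlinarith
  · have : max a b = b := max_eq_right (by linarith)
    rw [this]
    nlinarith

theorem one_final (ε : ℝ) (h0 : 0 < ε) (h1 : ε ≤ 1 / 10) (σ Λ T u : ℝ) (hσ0 : 0 ≤ σ)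
    (hΛ0 : 0 ≤ Λ) (hT0 : 0 ≤ T) (hu0 : 0 ≤ u) (hu1 : u ≤ 1) (hA : T ≤ σ + Λ)
    (hB : T ≤ σ * (1 - ε * u / 8) + 2 * Λ * u ^ (1 / 2 + ε))
    (hC : T ≤ σ + (σ + Λ) * (u ^ (1 / 2 + ε) * u ^ (1 / 2 + ε))) :
    T ^ th ε ≤ σ ^ th ε + 26 * (16 / ε) ^ 3 * Λ ^ th ε := by
  have t2 := th_ge h0 h1
  have t3 := th_le h1
  have hK : (1 : ℝ) ≤ 16 / ε := by rw [le_div_iff₀ h0]; linarith
  have hK3 : (1 : ℝ) ≤ (16 / ε) ^ 3 := one_le_pow₀ hK
  have hσt : 0 ≤ σ ^ th ε := Real.rpow_nonneg hσ0 _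
  have hΛt : 0 ≤ Λ ^ th ε := Real.rpow_nonneg hΛ0 _
  rcases le_or_gt σ Λ with hσΛ | hσΛ
  · have e1 : T ^ th ε ≤ (2 * Λ) ^ th ε := Real.rpow_le_rpow hT0 (by linarith) (by linarith)
    rw [Real.mul_rpow (by norm_num) hΛ0] at e1
    have e2 : (2 : ℝ) ^ th ε ≤ 2 ^ (3 : ℝ) := Real.rpow_le_rpow_of_exponent_le (by norm_num) t3
    have e3 : (2 : ℝ) ^ (3 : ℝ) = 8 := by norm_num
    have e4 : (2 : ℝ) ^ th ε * Λ ^ th ε ≤ 8 * Λ ^ th ε :=
      mul_le_mul_of_nonneg_right (e3 ▸ e2) hΛt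
    nlinarith
  have hσp : 0 < σ := lt_of_le_of_lt hΛ0 hσΛ
  set r : ℝ := 1 / 2 + ε with hr
  rcases le_or_gt (2 * Λ * u ^ r) (σ * (ε * u / 8)) with hc | hc
  · have e0 : T ≤ σ := by linarith
    have e1 : T ^ th ε ≤ σ ^ th ε := Real.rpow_le_rpow hT0 e0 (by linarith)
    have : 0 ≤ 26 * (16 / ε) ^ 3 * Λ ^ th ε := by positivity
    linarith
  have hup : 0 < u := by
    rcases hu0.eq_or_lt with h | h
    · exfalso
      rw [← h, Real.zero_rpow (by linarith)] at hc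
      simp at hc
    · exact h
  have hur : 0 < u ^ r := Real.rpow_pos_of_pos hup _
  have hsplit : u = u ^ r * u ^ (1 / 2 - ε) := by
    rw [← Real.rpow_add hup]
    have : r + (1 / 2 - ε) = 1 := by rw [hr]; ring
    rw [this, Real.rpow_one]
  have hs0 : 0 ≤ u ^ (1 / 2 - ε) := Real.rpow_nonneg hu0 _
  have hs : u ^ (1 / 2 - ε) ≤ 16 / ε * (Λ / σ) := by
    have e : σ * (ε * u / 8) = (σ * ε * u ^ (1 / 2 - ε) / 8) * u ^ r := by
      conv_lhs => rw [hsplit]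
      ring
    rw [e] at hc
    have e2 := lt_of_mul_lt_mul_right hc hur.le
    rw [div_mul_div_comm, le_div_iff₀ (by positivity)]
    nlinarith
  have hz : u ^ r * u ^ r = (u ^ (1 / 2 - ε)) ^ th ε := by
    rw [← Real.rpow_add hup, ← Real.rpow_mul hu0]
    congr 1
    unfold th
    have : (1 / 2 - ε : ℝ) ≠ 0 := by linarith
    rw [hr, mul_div_cancel₀ _ this]; ring
  have hz1 : u ^ r * u ^ r ≤ 1 := by
    have : u ^ r ≤ 1 := Real.rpow_le_one hu0 hu1 (by linarith)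
    nlinarith
  have hz2 : u ^ r * u ^ r ≤ (16 / ε) ^ 3 * (Λ / σ) ^ th ε := by
    rw [hz]
    refine (Real.rpow_le_rpow hs0 hs (by linarith)).trans ?_
    rw [Real.mul_rpow (by positivity) (by positivity)]
    refine mul_le_mul_of_nonneg_right ?_ (Real.rpow_nonneg (by positivity) _)
    have := Real.rpow_le_rpow_of_exponent_le hK t3
    rwa [show (3 : ℝ) = ((3 : ℕ) : ℝ) by norm_num, Real.rpow_natCast] at this
  set w := u ^ r * u ^ r with hw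
  have hw0 : 0 ≤ w := by positivity
  have e0 : T ≤ σ * (1 + 2 * w) := by nlinarith
  have e1 : T ^ th ε ≤ (σ * (1 + 2 * w)) ^ th ε := Real.rpow_le_rpow hT0 e0 (by linarith)
  rw [Real.mul_rpow hσ0 (by positivity)] at e1
  have e2 : (1 + 2 * w) ^ th ε ≤ 1 + 26 * w := by
    have := Real.rpow_le_rpow_of_exponent_le (x := 1 + 2 * w) (by linarith) t3
    rw [show (3 : ℝ) = ((3 : ℕ) : ℝ) by norm_num, Real.rpow_natCast] at this
    refine this.trans ?_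
    nlinarith [mul_nonneg hw0 hw0, mul_nonneg hw0 (sub_nonneg.2 hz1),
      mul_nonneg (mul_nonneg hw0 hw0) (sub_nonneg.2 hz1)]
  have e3 : σ ^ th ε * (Λ / σ) ^ th ε = Λ ^ th ε := by
    rw [← Real.mul_rpow hσ0 (by positivity)]
    congr 1
    field_simp
  calc T ^ th ε ≤ σ ^ th ε * (1 + 26 * w) := e1.trans (mul_le_mul_of_nonneg_left e2 hσt)
    _ ≤ σ ^ th ε * (1 + 26 * ((16 / ε) ^ 3 * (Λ / σ) ^ th ε)) :=
        mul_le_mul_of_nonneg_left (by linarith) hσt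
    _ = σ ^ th ε + 26 * (16 / ε) ^ 3 * (σ ^ th ε * (Λ / σ) ^ th ε) := by ring
    _ = _ := by rw [e3]

/-- The one-prime lemma. -/
theorem one_prime (ε : ℝ) (h0 : 0 < ε) (h1 : ε ≤ 1 / 10) (I : Finset ℕ) (hI : I.Nonempty)
    (α β : ℕ → ℝ) (c : ℕ → ℕ → ℝ) (σ Λ T : ℝ)
    (hα : ∀ i, 0 ≤ α i) (hβ : ∀ i, 0 ≤ β i) (hα1 : ∑ i ∈ I, α i ≤ 1) (hβ1 : ∑ i ∈ I, β i ≤ 1)
    (hc : ∀ i l, 0 ≤ c i l) (hσ0 : 0 ≤ σ) (hΛ0 : 0 ≤ Λ) (hσ : ∀ i ∈ I, c i i ≤ σ)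
    (hrow : ∀ i ∈ I, ∑ l ∈ I.erase i, c i l ≤ Λ) (hcol : ∀ l ∈ I, ∑ i ∈ I.erase l, c i l ≤ Λ)
    (hT0 : 0 ≤ T)
    (hT1 : T ≤ ∑ i ∈ I, ∑ l ∈ I, c i l * (α i ^ (1 / 2 + ε) * β l ^ (1 / 2 + ε)))
    (hT2 : ∀ k ∈ I, T ≤ σ + ∑ i ∈ I.erase k, ∑ l ∈ I.erase k,
      c i l * (α i ^ (1 / 2 + ε) * β l ^ (1 / 2 + ε))) :
    T ^ th ε ≤ σ ^ th ε + 26 * (16 / ε) ^ 3 * Λ ^ th ε := by
  obtain ⟨k, hk, hmax⟩ := Finset.exists_max_image I α hI
  set r : ℝ := 1 / 2 + ε with hr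
  have hr2 : 1 / 2 ≤ r := by linarith
  set a := ∑ i ∈ I.erase k, α i with ha
  set b := ∑ i ∈ I.erase k, β i with hb
  have ha0 : 0 ≤ a := Finset.sum_nonneg fun i _ => hα i
  have hak : α k + a ≤ 1 := by rw [ha, Finset.add_sum_erase I _ hk]; exact hα1
  have hbk : β k + b ≤ 1 := by rw [hb, Finset.add_sum_erase I _ hk]; exact hβ1
  have hu0 : 0 ≤ max a b := le_max_of_le_left ha0
  have hu1 : max a b ≤ 1 := max_le (by linarith [hα k]) (by linarith [hβ k])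
  have hur : 0 ≤ max a b ^ r := Real.rpow_nonneg hu0 _
  have hJ : I.erase k ⊆ I := Finset.erase_subset k I
  refine one_final ε h0 h1 σ Λ T (max a b) hσ0 hΛ0 hT0 hu0 hu1 ?_ ?_ ?_
  · exact hT1.trans (bil_le r hr2 I α β c σ Λ hα hβ hα1 hβ1 hc hσ0 hΛ0 hσ hrow hcol)
  · refine hT1.trans ?_
    rw [one_split I (fun i => α i ^ r) (fun i => β i ^ r) c]
    have hd := one_diag_save ε h0 h1 I k hk α β hα hβ hα1 hβ1 hmax
    have h3 : ∑ i ∈ I, c i i * (α i ^ r * β i ^ r) ≤ σ * ∑ i ∈ I, α i ^ r * β i ^ r := by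
      rw [Finset.mul_sum]
      exact Finset.sum_le_sum fun i hi => mul_le_mul_of_nonneg_right (hσ i hi)
        (mul_nonneg (Real.rpow_nonneg (hα i) _) (Real.rpow_nonneg (hβ i) _))
    have h4 := mul_le_mul_of_nonneg_left hd hσ0
    have hx := one_sq_le' r hr2 (I.erase k) α hα (max a b) (le_max_left _ _)
    have hy := one_sq_le' r hr2 (I.erase k) β hβ (max a b) (le_max_right _ _)
    have hx1 := one_sq_le' r hr2 I α hα 1 hα1
    have hy1 := one_sq_le' r hr2 I β hβ 1 hβ1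
    rw [Real.one_rpow] at hx1 hy1
    have hA := one_off_le I (I.erase k) I hJ subset_rfl (fun i => α i ^ r) (fun i => β i ^ r) c Λ
      _ _ hc hΛ0 hrow hcol hur zero_le_one hx hy1
    have hx2 : ∑ i ∈ ({k} : Finset ℕ), (α i ^ r) ^ 2 ≤ 1 ^ 2 :=
      (Finset.sum_le_sum_of_subset_of_nonneg (Finset.singleton_subset_iff.2 hk)
        fun i _ _ => sq_nonneg _).trans hx1
    have hB := one_off_le I {k} (I.erase k) (Finset.singleton_subset_iff.2 hk) hJ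
      (fun i => α i ^ r) (fun i => β i ^ r) c Λ _ _ hc hΛ0 hrow hcol zero_le_one hur hx2 hy
    rw [Finset.sum_singleton] at hB
    have e : ∑ i ∈ I, ∑ l ∈ I, (if i = l then 0 else c i l) * (α i ^ r * β l ^ r) =
        ∑ l ∈ I.erase k, (if k = l then 0 else c k l) * (α k ^ r * β l ^ r) +
        ∑ i ∈ I.erase k, ∑ l ∈ I, (if i = l then 0 else c i l) * (α i ^ r * β l ^ r) := by
      rw [← Finset.add_sum_erase I _ hk, ← Finset.add_sum_erase I _ hk]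
      simp
    rw [e]
    linarith
  · refine (hT2 k hk).trans ?_
    have := one_bil_gen r hr2 I (I.erase k) hJ α β c σ Λ (max a b) hα hβ (le_max_left _ _)
      (le_max_right _ _) hc hσ0 hΛ0 hσ hrow hcol
    linarith

end Vale.Agent.P028
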