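import Vale.Agent.P028.Defs

/-! Overlap estimates. -/

namespace Vale.Agent.P028

open Finset Real MeasureTheory

theorem measurableSet_ES (γ : ℝ) (ψ : ℕ → ℝ) (q : ℕ) : MeasurableSet (ES γ ψ q) := by
  have e : ES γ ψ q = ⋃ a : ℤ, {x : ℝ | |(q : ℝ) * x - a - γ| < ψ q} := by
    ext x
    simp [ES]
  rw [e]
  exact (isOpen_iUnion fun a => isOpen_lt (by fun_prop) continuous_const).measurableSet

theorem ovl_cover {γ p : ℝ} {q : ℕ} (hq : 0 < q) (hp : 0 < p) (A : Finset ℤ) {S : Set ℝ}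
    (h : ∀ x ∈ S, ∃ a ∈ A, |(q : ℝ) * x - a - γ| < p) :
    volume.real S ≤ A.card * (2 * p / q) := by
  have hq' : (0 : ℝ) < q := by exact_mod_cast hq
  have h1 : S ⊆ ⋃ a ∈ A, Set.Ioo ((a + γ - p) / q) ((a + γ + p) / q) := fun x hx => by
    obtain ⟨a, ha, h2⟩ := h x hx
    rw [abs_lt] at h2
    refine Set.mem_iUnion₂.2 ⟨a, ha, ?_, ?_⟩
    · rw [div_lt_iff₀ hq']
      linarith [h2.1]
    · rw [lt_div_iff₀ hq']
      linarith [h2.2]
  refine (measureReal_mono h1 ?_).trans ((measureReal_biUnion_finset_le _ _).trans (le_of_eq ?_))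
  · exact (measure_biUnion_lt_top A.finite_toSet fun a _ => measure_Ioo_lt_top).ne
  · rw [← nsmul_eq_mul, ← sum_const]
    refine sum_congr rfl fun a _ => ?_
    rw [Real.volume_real_Ioo_of_le (by gcongr; linarith)]
    ring

theorem ovl_win {γ s p x : ℝ} {q : ℕ} {a : ℤ} (hp : p ≤ 1 / 2) (hx : x ∈ Set.Ico s (s + 3))
    (h : |(q : ℝ) * x - a - γ| < p) :
    a ∈ Ioo ⌊q * s - γ - 1 / 2⌋ (⌊q * s - γ - 1 / 2⌋ + 3 * q + 2) := by
  have hq : (0 : ℝ) ≤ q := Nat.cast_nonneg q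
  rw [abs_lt] at h
  have h1 := mul_le_mul_of_nonneg_left hx.1 hq
  have h2 := mul_le_mul_of_nonneg_left hx.2.le hq
  refine mem_Ioo.2 ⟨Int.floor_lt.2 (by linarith [h.2]), ?_⟩
  have h3 := Int.lt_floor_add_one (q * s - γ - 1 / 2)
  have h4 : (a : ℝ) < (⌊q * s - γ - 1 / 2⌋ : ℝ) + 3 * q + 2 := by linarith [h.1]
  exact_mod_cast h4

theorem vol_ES_le (γ s : ℝ) (ψ : ℕ → ℝ) (q : ℕ) (hq : 0 < q) (h0 : 0 < ψ q) (h1 : ψ q ≤ 1 / 2) :
    volume.real (ES γ ψ q ∩ Set.Ico s (s + 3)) ≤ 10 * ψ q := by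
  have hq' : (1 : ℝ) ≤ q := by exact_mod_cast hq
  refine (ovl_cover (γ := γ) hq h0 (Ioo ⌊q * s - γ - 1 / 2⌋ (⌊q * s - γ - 1 / 2⌋ + 3 * q + 2))
    fun x hx => ?_).trans ?_
  · obtain ⟨⟨a, ha⟩, hx⟩ := hx
    exact ⟨a, ovl_win h1 hx ha, ha⟩
  · have e : (Ioo ⌊q * s - γ - 1 / 2⌋ (⌊q * s - γ - 1 / 2⌋ + 3 * q + 2)).card = 3 * q + 1 := by
      rw [Int.card_Ioo]
      omega
    rw [e, mul_div_assoc', div_le_iff₀ (by linarith)]
    push_cast
    nlinarith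

open Classical in
theorem ovl_count {θ D : ℝ} (hD : 0 < D) {g u v : ℕ} (hg : 0 < g) (hu : 0 < u)
    (huv : u.Coprime v) (c : ℤ) :
    (((Ioo c (c + 3 * (g * u : ℕ) + 2)).filter
      fun a : ℤ => ∃ b : ℤ, |θ - (a * v - b * u : ℤ)| < 2 * D).card : ℝ) ≤ (4 * D + 1) * (5 * g) := by
  have hu' : (0 : ℤ) < u := by exact_mod_cast hu
  have hex : ∀ a : ℤ, ∃ b : ℤ, (∃ b : ℤ, |θ - (a * v - b * u : ℤ)| < 2 * D) →
      |θ - (a * v - b * u : ℤ)| < 2 * D := fun a => by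
    by_cases h : ∃ b : ℤ, |θ - (a * v - b * u : ℤ)| < 2 * D
    · exact ⟨h.choose, fun _ => h.choose_spec⟩
    · exact ⟨0, fun h' => absurd h' h⟩
  choose b hb using hex
  have h1 := card_le_card_of_injOn (s := (Ioo c (c + 3 * (g * u : ℕ) + 2)).filter
      fun a : ℤ => ∃ b : ℤ, |θ - (a * v - b * u : ℤ)| < 2 * D)
    (t := Ioo ⌊θ - 2 * D⌋ ⌈θ + 2 * D⌉ ×ˢ Ico (0 : ℤ) (3 * g + 2))
    (fun a => (a * v - b a * u, (a - c) / u)) (fun a ha => by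
      obtain ⟨ha1, ha2⟩ := mem_filter.1 (mem_coe.1 ha)
      obtain ⟨ha3, ha4⟩ := mem_Ioo.1 ha1
      have h2 := abs_lt.1 (hb a ha2)
      refine mem_coe.2 (mem_product.2 ⟨mem_Ioo.2 ⟨Int.floor_lt.2 ?_, Int.lt_ceil.2 ?_⟩,
        mem_Ico.2 ⟨Int.ediv_nonneg (by omega) hu'.le, ?_⟩⟩)
      · linarith [h2.2]
      · linarith [h2.1]
      · refine Int.ediv_lt_of_lt_mul hu' ?_
        push_cast at ha4
        nlinarith) (fun a _ a' _ e => by
      obtain ⟨e1, e2⟩ := Prod.ext_iff.1 e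
      simp only at e1 e2
      have h2 : (u : ℤ) ∣ (a - a') * v := ⟨b a - b a', by linarith⟩
      have h3 : (u : ℤ) ∣ a - a' :=
        (Nat.isCoprime_iff_coprime.2 huv).dvd_of_dvd_mul_right h2
      have h4 : (a - c) % u = (a' - c) % u :=
        (Int.emod_emod_of_dvd _ dvd_rfl).symm.trans ((Int.emod_emod_of_dvd _ dvd_rfl).trans
          (Int.emod_eq_emod_iff_emod_sub_eq_zero.2 (Int.emod_eq_zero_of_dvd (by
            rwa [sub_sub_sub_cancel_right]))))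
      have h5 := Int.mul_ediv_add_emod (a - c) u
      have h6 := Int.mul_ediv_add_emod (a' - c) u
      rw [e2, h4] at h5
      linarith)
  have h2 : ((Ioo ⌊θ - 2 * D⌋ ⌈θ + 2 * D⌉).card : ℝ) ≤ 4 * D + 1 := by
    rw [Int.card_Ioo]
    have h3 := Int.lt_floor_add_one (θ - 2 * D)
    have h4 := Int.ceil_lt_add_one (θ + 2 * D)
    rcases le_total (⌈θ + 2 * D⌉ - ⌊θ - 2 * D⌋ - 1) 0 with h5 | h5
    · rw [Int.toNat_of_nonpos h5]
      push_cast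
      linarith
    · rw [← Int.cast_natCast, Int.toNat_of_nonneg h5]
      push_cast
      linarith
  have h3 : ((Ico (0 : ℤ) (3 * g + 2)).card : ℝ) ≤ 5 * g := by
    have h4 : (Ico (0 : ℤ) (3 * g + 2)).card ≤ 5 * g := by
      rw [Int.card_Ico]
      omega
    exact_mod_cast h4
  rw [card_product] at h1
  refine le_trans (Nat.cast_le.2 h1) ?_
  rw [Nat.cast_mul]
  exact mul_le_mul h2 h3 (Nat.cast_nonneg _) (by linarith)

open Classical in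
theorem ovl_half (γ s : ℝ) (ψ : ℕ → ℝ) (q r : ℕ) (hq : 0 < q) (hr : 0 < r)
    (h0 : 0 < ψ q) (h1 : ψ q ≤ 1 / 2) (h2 : 0 < ψ r)
    (hle : ψ q * ((r / Nat.gcd q r : ℕ) : ℝ) ≤ ψ r * ((q / Nat.gcd q r : ℕ) : ℝ)) :
    volume.real (ES γ ψ q ∩ ES γ ψ r ∩ Set.Ico s (s + 3)) ≤
      40 * (ψ q * ψ r) +
        10 * (if Bohr γ q r (2 * DD ψ q r) then ψ q * ψ r / DD ψ q r else 0) := by
  have hg : 0 < Nat.gcd q r := Nat.gcd_pos_of_pos_left r hq
  have huv := Nat.coprime_div_gcd_div_gcd hg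
  have eq : Nat.gcd q r * (q / Nat.gcd q r) = q := Nat.mul_div_cancel' (Nat.gcd_dvd_left q r)
  have er : Nat.gcd q r * (r / Nat.gcd q r) = r := Nat.mul_div_cancel' (Nat.gcd_dvd_right q r)
  rw [DD, max_eq_right hle, Bohr]
  generalize q / Nat.gcd q r = u at *
  generalize r / Nat.gcd q r = v at *
  generalize Nat.gcd q r = g at *
  subst eq er
  have hu : 0 < u := Nat.pos_of_mul_pos_left hq
  have hv : 0 < v := Nat.pos_of_mul_pos_left hr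
  have hu' : (0 : ℝ) < u := by exact_mod_cast hu
  have hv' : (0 : ℝ) < v := by exact_mod_cast hv
  have hg' : (0 : ℝ) < g := by exact_mod_cast hg
  have key : ∀ (x : ℝ) (a b : ℤ), |((g * u : ℕ) : ℝ) * x - a - γ| < ψ (g * u) →
      |((g * v : ℕ) : ℝ) * x - b - γ| < ψ (g * v) →
      |γ * ((u : ℝ) - v) - (a * v - b * u : ℤ)| < 2 * (ψ (g * v) * u) := fun x a b ha hb => by
    have e : γ * ((u : ℝ) - v) - (a * v - b * u : ℤ) =
        v * (((g * u : ℕ) : ℝ) * x - a - γ) - u * (((g * v : ℕ) : ℝ) * x - b - γ) := by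
      push_cast
      ring
    rw [e]
    refine (abs_sub _ _).trans_lt ?_
    rw [abs_mul, abs_mul, abs_of_pos hu', abs_of_pos hv']
    nlinarith [mul_lt_mul_of_pos_left ha hv', mul_lt_mul_of_pos_left hb hu']
  split_ifs with hB
  · refine (ovl_cover (γ := γ) hq h0 ((Ioo ⌊(g * u : ℕ) * s - γ - 1 / 2⌋
      (⌊(g * u : ℕ) * s - γ - 1 / 2⌋ + 3 * (g * u : ℕ) + 2)).filter fun a : ℤ => ∃ b : ℤ,
        |γ * ((u : ℝ) - v) - (a * v - b * u : ℤ)| < 2 * (ψ (g * v) * u)) fun x hx => ?_).trans ?_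
    · obtain ⟨⟨⟨a, ha⟩, b, hb⟩, hx⟩ := hx
      exact ⟨a, mem_filter.2 ⟨ovl_win h1 hx ha, b, key x a b ha hb⟩, ha⟩
    · refine (mul_le_mul_of_nonneg_right (ovl_count (by positivity) hg hu huv _)
        (by positivity)).trans (le_of_eq ?_)
      push_cast
      field_simp
      ring
  · have e : ES γ ψ (g * u) ∩ ES γ ψ (g * v) ∩ Set.Ico s (s + 3) = ∅ := by
      refine Set.eq_empty_of_forall_notMem fun x hx => ?_
      obtain ⟨⟨⟨a, ha⟩, b, hb⟩, -⟩ := hx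
      exact hB ⟨_, (key x a b ha hb).le⟩
    rw [e, measureReal_empty]
    positivity

open Classical in
theorem vol_inter_le (γ s : ℝ) (ψ : ℕ → ℝ) (q r : ℕ) (hq : 0 < q) (hr : 0 < r)
    (h0 : 0 < ψ q) (h1 : ψ q ≤ 1 / 2) (h2 : 0 < ψ r) (h3 : ψ r ≤ 1 / 2) :
    volume.real (ES γ ψ q ∩ ES γ ψ r ∩ Set.Ico s (s + 3)) ≤
      40 * (ψ q * ψ r) +
        10 * (if Bohr γ q r (2 * DD ψ q r) then ψ q * ψ r / DD ψ q r else 0) := by
  rcases le_total (ψ q * ((r / Nat.gcd q r : ℕ) : ℝ)) (ψ r * ((q / Nat.gcd q r : ℕ) : ℝ))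
    with h | h
  · exact ovl_half γ s ψ q r hq hr h0 h1 h2 h
  · have h4 := ovl_half γ s ψ r q hr hq h2 h3 h0 (by rwa [Nat.gcd_comm r q])
    rw [Set.inter_comm (ES γ ψ r), mul_comm (ψ r), DD_comm ψ r q] at h4
    refine h4.trans (le_of_eq ?_)
    rw [if_congr (⟨Bohr.symm, Bohr.symm⟩ : Bohr γ r q _ ↔ Bohr γ q r _) rfl rfl]

theorem second_moment (γ s C : ℝ) (ψ : ℕ → ℝ) (B : Finset ℕ)
    (hB : ∀ q ∈ B, 0 < q ∧ 0 < ψ q ∧ ψ q ≤ 1 / 2) (hW : 1 ≤ ∑ q ∈ B, wt ψ q)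
    (hC : ∑ q ∈ B, ∑ r ∈ B, exc γ ψ q r ≤ C * (∑ q ∈ B, wt ψ q) ^ 2) :
    ∑ q ∈ B, ∑ r ∈ B, (Nat.totient q : ℝ) / q * ((Nat.totient r : ℝ) / r) *
        volume.real (ES γ ψ q ∩ ES γ ψ r ∩ Set.Ico s (s + 3)) ≤
      (50 + 10 * C) * (∑ q ∈ B, wt ψ q) ^ 2 := by
  have key : ∀ q ∈ B, ∀ r ∈ B, (Nat.totient q : ℝ) / q * ((Nat.totient r : ℝ) / r) *
      volume.real (ES γ ψ q ∩ ES γ ψ r ∩ Set.Ico s (s + 3)) ≤
        40 * (wt ψ q * wt ψ r) + 10 * exc γ ψ q r + if q = r then 10 * wt ψ q else 0 := by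
    intro q hq r hr
    obtain ⟨a1, a2, a3⟩ := hB q hq
    obtain ⟨b1, b2, b3⟩ := hB r hr
    by_cases e : q = r
    · subst e
      have h1 := vol_ES_le γ s ψ q a1 a2 a3
      have h2 : (Nat.totient q : ℝ) / q ≤ 1 :=
        div_le_one_of_le₀ (Nat.cast_le.2 (Nat.totient_le q)) (Nat.cast_nonneg q)
      have h3 : 0 ≤ (Nat.totient q : ℝ) / q := by positivity
      have h4 := wt_nonneg a2.le
      rw [Set.inter_self, if_pos rfl, exc, if_neg (fun h => h.1 rfl)]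
      have h5 : (Nat.totient q : ℝ) / q * ((Nat.totient q : ℝ) / q) *
          volume.real (ES γ ψ q ∩ Set.Ico s (s + 3)) ≤
            (Nat.totient q : ℝ) / q * 1 * (10 * ψ q) := by gcongr
      have h6 : (Nat.totient q : ℝ) / q * 1 * (10 * ψ q) = 10 * wt ψ q := by
        rw [wt]
        ring
      nlinarith [mul_nonneg h4 h4]
    · refine (mul_le_mul_of_nonneg_left (vol_inter_le γ s ψ q r a1 b1 a2 a3 b2 b3)
        (by positivity)).trans (le_of_eq ?_)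
      rw [if_neg e, exc]
      by_cases hb : Bohr γ q r (2 * DD ψ q r)
      · rw [if_pos hb, if_pos ⟨e, hb⟩, wt, wt]
        ring
      · rw [if_neg hb, if_neg (fun h => hb h.2), wt, wt]
        ring
  refine (sum_le_sum fun q hq => sum_le_sum fun r hr => key q hq r hr).trans ?_
  have e1 : ∑ q ∈ B, ∑ r ∈ B, 40 * (wt ψ q * wt ψ r) = 40 * (∑ q ∈ B, wt ψ q) ^ 2 := by
    rw [sq, sum_mul_sum, mul_sum]
    exact sum_congr rfl fun q _ => (mul_sum _ _ _).symm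
  have e2 : ∑ q ∈ B, ∑ r ∈ B, 10 * exc γ ψ q r = 10 * ∑ q ∈ B, ∑ r ∈ B, exc γ ψ q r := by
    rw [mul_sum]
    exact sum_congr rfl fun q _ => (mul_sum _ _ _).symm
  have e3 : ∑ q ∈ B, ∑ r ∈ B, (if q = r then 10 * wt ψ q else 0) = 10 * ∑ q ∈ B, wt ψ q := by
    rw [mul_sum]
    exact sum_congr rfl fun q hq => by rw [sum_ite_eq, if_pos hq]
  simp only [sum_add_distrib]
  rw [e1, e2, e3]
  nlinarith

end Vale.Agent.P028
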