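import Vale.Agent.P028.Defs
import Vale.Agent.Lib.Mertens

/-! The law of the greatest common divisor. -/

namespace Vale.Agent.P028

open Finset Real

theorem pw_nonneg (N d : ℕ) : 0 ≤ pw N d := by
  unfold pw; positivity

theorem Pi_sum_tot (N : ℕ) : ∑ d ∈ N.divisors, (Nat.totient (N / d) : ℝ) = N := by
  rw [Nat.sum_div_divisors N (fun d => (Nat.totient d : ℝ))]
  exact_mod_cast Nat.sum_totient N

theorem sum_pw (N : ℕ) (hN : 0 < N) : ∑ d ∈ N.divisors, pw N d = 1 := by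
  unfold pw
  have hN' : (N : ℝ) ≠ 0 := by exact_mod_cast hN.ne'
  rw [← Finset.sum_div, Pi_sum_tot, div_self hN']

theorem pw_le (N d : ℕ) (hN : 0 < N) (hd : d ∣ N) : pw N d ≤ 1 / d := by
  obtain ⟨n, rfl⟩ := hd
  have hd0 : 0 < d := Nat.pos_of_mul_pos_right hN
  have hn0 : 0 < n := Nat.pos_of_mul_pos_left hN
  have hd' : (0 : ℝ) < d := by exact_mod_cast hd0
  have hn' : (0 : ℝ) < n := by exact_mod_cast hn0
  unfold pw
  rw [Nat.mul_div_cancel_left n hd0, Nat.cast_mul, div_le_div_iff₀ (by positivity) hd']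
  have h1 : (Nat.totient n : ℝ) ≤ n := by exact_mod_cast Nat.totient_le n
  nlinarith

theorem Pi_tot_mul (k n : ℕ) : Nat.totient (k * n) ≤ k * Nat.totient n := by
  induction k using induction_on_primes with
  | zero => simp
  | one => simp
  | prime_mul p a hp ih =>
    rw [mul_assoc, mul_assoc]
    refine le_trans ?_ (Nat.mul_le_mul_left p ih)
    by_cases h : p ∣ a * n
    · rw [Nat.totient_mul_of_prime_of_dvd hp h]
    · rw [Nat.totient_mul_of_prime_of_not_dvd hp h]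
      exact Nat.mul_le_mul_right _ (Nat.sub_le p 1)

theorem wt_le_pw (ψ : ℕ → ℝ) (N d v : ℕ) (hN : 0 < N) (hd : d ∣ N) (hv : 0 < v)
    (h : N / d ∣ v) (hψ : 0 ≤ ψ v) : wt ψ v ≤ pw N d * d * ψ v := by
  obtain ⟨n, rfl⟩ := hd
  have hd0 : 0 < d := Nat.pos_of_mul_pos_right hN
  have hn0 : 0 < n := Nat.pos_of_mul_pos_left hN
  rw [Nat.mul_div_cancel_left n hd0] at h
  obtain ⟨k, rfl⟩ := h
  have hk0 : 0 < k := Nat.pos_of_mul_pos_left hv
  have hd' : (0 : ℝ) < d := by exact_mod_cast hd0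
  have hn' : (0 : ℝ) < n := by exact_mod_cast hn0
  have hk' : (0 : ℝ) < k := by exact_mod_cast hk0
  unfold wt pw
  refine mul_le_mul_of_nonneg_right ?_ hψ
  rw [Nat.mul_div_cancel_left n hd0]
  have h1 : (Nat.totient (n * k) : ℝ) ≤ k * Nat.totient n := by
    rw [mul_comm n k]; exact_mod_cast Pi_tot_mul k n
  have h2 : (Nat.totient n : ℝ) / ((d * n : ℕ) : ℝ) * d = (k * Nat.totient n) / ((n * k : ℕ) : ℝ) := by
    push_cast; field_simp
  rw [h2]
  exact div_le_div_of_nonneg_right h1 (by positivity)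

theorem Lam_nonneg (N : ℕ) : 0 ≤ Lam N := by
  unfold Lam
  refine sum_nonneg fun p _ => ?_
  have := log_natCast_nonneg p
  positivity

/-- The mass of the divisors that are multiples of `e`. -/
theorem Pi_mult (N e : ℕ) (hN : 0 < N) :
    ∑ d ∈ N.divisors, (if e ∣ d then pw N d else 0) ≤ 1 / e := by
  by_cases he : e ∣ N
  · obtain ⟨n, rfl⟩ := he
    have he0 : 0 < e := Nat.pos_of_mul_pos_right hN
    have hn0 : 0 < n := Nat.pos_of_mul_pos_left hN
    have he' : (0 : ℝ) < e := by exact_mod_cast he0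
    have hn' : (0 : ℝ) < n := by exact_mod_cast hn0
    rw [← sum_filter]
    have h1 : (e * n).divisors.filter (fun d => e ∣ d) = n.divisors.image (fun c => e * c) := by
      ext d
      simp only [mem_filter, Nat.mem_divisors, mem_image]
      constructor
      · rintro ⟨⟨h1, _⟩, c, rfl⟩
        exact ⟨c, ⟨Nat.dvd_of_mul_dvd_mul_left he0 h1, hn0.ne'⟩, rfl⟩
      · rintro ⟨c, ⟨h1, _⟩, rfl⟩
        exact ⟨⟨Nat.mul_dvd_mul_left e h1, hN.ne'⟩, Dvd.intro c rfl⟩
    rw [h1, sum_image (fun a _ b _ hab => Nat.eq_of_mul_eq_mul_left he0 hab)]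
    have h2 : ∀ c ∈ n.divisors, pw (e * n) (e * c) = (Nat.totient (n / c) : ℝ) / (e * n) := by
      intro c _
      unfold pw
      rw [Nat.mul_div_mul_left n c he0, Nat.cast_mul]
    rw [sum_congr rfl h2, ← sum_div, Pi_sum_tot]
    refine le_of_eq ?_
    field_simp
  · have h1 : ∑ d ∈ N.divisors, (if e ∣ d then pw N d else 0) = 0 := by
      refine sum_eq_zero fun d hd => if_neg fun h => he (h.trans (Nat.dvd_of_mem_divisors hd))
    rw [h1]; positivity

theorem Pi_log (N d : ℕ) (hN : 0 < N) (hd : d ∣ N) :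
    log d = ∑ p ∈ N.primeFactors, ∑ i ∈ Ico 1 N, (if p ^ i ∣ d then log p else 0) := by
  have hd0 : 0 < d := Nat.pos_of_dvd_of_pos hd hN
  rw [log_nat_eq_sum_factorization, Finsupp.sum_of_support_subset (s := N.primeFactors)]
  · refine sum_congr rfl fun p hp => ?_
    have hpp := Nat.prime_of_mem_primeFactors hp
    have hlt : d < p ^ N :=
      lt_of_le_of_lt (Nat.le_of_dvd hN hd) (Nat.lt_pow_self hpp.one_lt)
    rw [Nat.factorization_eq_card_pow_dvd_of_lt hpp hd0 hlt, ← sum_filter, sum_const,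
      nsmul_eq_mul]
  · rw [Nat.support_factorization]
    exact Nat.primeFactors_mono hd hN.ne'
  · intro p _; simp

theorem Pi_geom (p M : ℕ) (hp : 2 ≤ p) : ∑ i ∈ Ico 1 M, 1 / ((p ^ i : ℕ) : ℝ) ≤ 2 / p := by
  have hp' : (2 : ℝ) ≤ p := by exact_mod_cast hp
  have hp0 : (0 : ℝ) < p := by linarith
  have h1 : ∀ i ∈ Ico 1 M, 1 / ((p ^ i : ℕ) : ℝ) = (1 / (p : ℝ)) ^ i := by
    intro i _; rw [Nat.cast_pow, one_div_pow]
  have h2 : 1 / (p : ℝ) ≤ 1 / 2 := one_div_le_one_div_of_le (by norm_num) hp'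
  have h3 : 0 < 1 / (p : ℝ) := by positivity
  rw [sum_congr rfl h1]
  refine (geom_sum_Ico_le_of_lt_one h3.le (by linarith)).trans ?_
  rw [pow_one, div_le_iff₀ (by linarith), show 2 / (p : ℝ) = 2 * (1 / p) by ring]
  nlinarith

theorem sum_pw_log (N : ℕ) (hN : 0 < N) : ∑ d ∈ N.divisors, pw N d * log d ≤ Lam N := by
  have h1 : ∀ d ∈ N.divisors, pw N d * log d = ∑ p ∈ N.primeFactors, ∑ i ∈ Ico 1 N,
      log p * (if p ^ i ∣ d then pw N d else 0) := by
    intro d hd
    rw [Pi_log N d hN (Nat.dvd_of_mem_divisors hd), mul_sum]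
    refine sum_congr rfl fun p _ => ?_
    rw [mul_sum]
    refine sum_congr rfl fun i _ => ?_
    split_ifs
    · ring
    · ring
  rw [sum_congr rfl h1, sum_comm]
  unfold Lam
  refine sum_le_sum fun p hp => ?_
  have hpp := Nat.prime_of_mem_primeFactors hp
  have hl := log_natCast_nonneg p
  rw [sum_comm]
  calc ∑ i ∈ Ico 1 N, ∑ d ∈ N.divisors, log p * (if p ^ i ∣ d then pw N d else 0)
      ≤ ∑ i ∈ Ico 1 N, log p * (1 / ((p ^ i : ℕ) : ℝ)) := by
        refine sum_le_sum fun i _ => ?_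
        rw [← mul_sum]
        exact mul_le_mul_of_nonneg_left (Pi_mult N _ hN) hl
    _ ≤ log p * (2 / p) := by
        rw [← mul_sum]
        exact mul_le_mul_of_nonneg_left (Pi_geom p N hpp.two_le) hl
    _ = 2 * log p / p := by ring

theorem pw_tail (N : ℕ) (hN : 0 < N) (Z : ℝ) (hZ : 1 < Z) :
    ∑ d ∈ N.divisors.filter (fun d : ℕ => Z < d), pw N d ≤ Lam N / log Z := by
  have hl : 0 < log Z := log_pos hZ
  rw [le_div_iff₀ hl, sum_mul]
  refine le_trans ?_ (sum_pw_log N hN)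
  calc ∑ d ∈ N.divisors.filter (fun d : ℕ => Z < d), pw N d * log Z
      ≤ ∑ d ∈ N.divisors.filter (fun d : ℕ => Z < d), pw N d * log d := by
        refine sum_le_sum fun d hd => mul_le_mul_of_nonneg_left ?_ (pw_nonneg N d)
        exact log_le_log (by linarith) (mem_filter.1 hd).2.le
    _ ≤ _ := sum_le_sum_of_subset_of_nonneg (filter_subset _ _) fun d _ _ =>
        mul_nonneg (pw_nonneg N d) (log_natCast_nonneg d)

theorem Pi_sum_log (N : ℕ) (hN : 0 < N) : ∑ p ∈ N.primeFactors, log p ≤ log N := by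
  have h0 : ∀ p ∈ N.primeFactors, (p : ℝ) ≠ 0 := fun p hp => by
    exact_mod_cast (Nat.prime_of_mem_primeFactors hp).ne_zero
  rw [← log_prod h0, ← Nat.cast_prod]
  refine log_le_log ?_ ?_
  · exact_mod_cast prod_pos fun p hp => (Nat.prime_of_mem_primeFactors hp).pos
  · exact_mod_cast Nat.le_of_dvd hN (Nat.prod_primeFactors_dvd N)

theorem Pi_loglog (X : ℝ) (hX : 16 ≤ X) : 1 ≤ log X ∧ 1 ≤ log (log X) := by
  have h1 : log 16 = 4 * log 2 := by
    rw [show (16 : ℝ) = 2 ^ 4 by norm_num, log_pow]; norm_num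
  have h2 : log 16 ≤ log X := log_le_log (by norm_num) hX
  have h3 := log_two_gt_d9
  have h4 := exp_one_lt_d9
  refine ⟨by linarith, ?_⟩
  rw [le_log_iff_exp_le (by linarith)]
  linarith

theorem Lam_le : ∃ C : ℝ, 0 < C ∧ ∀ X : ℝ, 16 ≤ X → ∀ N : ℕ, 0 < N → (N : ℝ) ≤ X →
    Lam N ≤ C * log (log X) := by
  obtain ⟨C, hC⟩ := Vale.Agent.Lib.Mertens.mertens1
  have hC0 : 0 ≤ C := (abs_nonneg _).trans (hC 1 le_rfl)
  refine ⟨2 * (2 + C), by positivity, fun X hX N hN hNX => ?_⟩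
  obtain ⟨hY, hL⟩ := Pi_loglog X hX
  have hlN : log N ≤ log X := log_le_log (by exact_mod_cast hN) hNX
  generalize log X = Y at hY hL hlN ⊢
  have hY0 : 0 < Y := by linarith
  have hA : ∑ p ∈ N.primeFactors.filter (fun p : ℕ => (p : ℝ) ≤ Y), log p / p ≤ log Y + C := by
    have h1 := (abs_le.1 (hC Y hY)).2
    refine le_trans (sum_le_sum_of_subset_of_nonneg (t := (Icc 1 ⌊Y⌋₊).filter Nat.Prime) ?_ ?_)
      (by linarith)
    · intro p hp
      obtain ⟨h2, h3⟩ := mem_filter.1 hp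
      have hpp := Nat.prime_of_mem_primeFactors h2
      exact mem_filter.2 ⟨mem_Icc.2 ⟨hpp.pos, Nat.le_floor h3⟩, hpp⟩
    · intro p _ _
      have := log_natCast_nonneg p
      positivity
  have hB : ∑ p ∈ N.primeFactors.filter (fun p : ℕ => ¬ (p : ℝ) ≤ Y), log p / p ≤ 1 := by
    calc ∑ p ∈ N.primeFactors.filter (fun p : ℕ => ¬ (p : ℝ) ≤ Y), log p / p
        ≤ ∑ p ∈ N.primeFactors.filter (fun p : ℕ => ¬ (p : ℝ) ≤ Y), log p / Y := by
          refine sum_le_sum fun p hp => ?_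
          exact div_le_div_of_nonneg_left (log_natCast_nonneg p) hY0
            (not_le.1 (mem_filter.1 hp).2).le
      _ ≤ ∑ p ∈ N.primeFactors, log p / Y :=
          sum_le_sum_of_subset_of_nonneg (filter_subset _ _) fun p _ _ =>
            div_nonneg (log_natCast_nonneg p) hY0.le
      _ ≤ 1 := by
          rw [← sum_div, div_le_one hY0]
          exact (Pi_sum_log N hN).trans hlN
  have hE : Lam N = 2 * ∑ p ∈ N.primeFactors, log p / p := by
    unfold Lam
    rw [mul_sum]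
    exact sum_congr rfl fun p _ => by ring
  rw [hE, ← sum_filter_add_sum_filter_not N.primeFactors (fun p : ℕ => (p : ℝ) ≤ Y)]
  nlinarith

end Vale.Agent.P028
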