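import Vale.Agent.P028.Pi
import Vale.Agent.P028.Clu

/-! The Schur test inside a cluster. -/

namespace Vale.Agent.P028

open Finset Real

theorem schur_pt {p D ψ c y mv mw w : ℝ} (hp : 0 ≤ p) (hD : 0 < D) (hψ : 0 < ψ) (hc : 0 < c)
    (hy : 0 < y) (hmv : 0 < mv) (hmw : 0 < mw) (hw : w ≤ p * D * ψ) (h : ψ * (c * mv * D) ≤ y) :
    w * (√(y / (ψ * c * D)) / √mw) ≤ y / c / √mv * (p / √mw) := by
  set Y := y / (ψ * c * D) with hY
  have hY0 : 0 < Y := by positivity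
  have h1 : mv ≤ Y := by
    rw [hY, le_div_iff₀ (by positivity)]
    linarith
  have h2 : √mv ≤ √Y := sqrt_le_sqrt h1
  have h3 : 0 < √mv := sqrt_pos.2 hmv
  have h4 : 0 < √Y := sqrt_pos.2 hY0
  have h5 : 0 < √mw := sqrt_pos.2 hmw
  have h6 : D * ψ * √Y = y / c / √Y := by
    rw [eq_div_iff h4.ne', mul_assoc, mul_self_sqrt hY0.le, hY]
    field_simp
  calc w * (√Y / √mw) ≤ p * D * ψ * (√Y / √mw) := by gcongr
    _ = D * ψ * √Y * (p / √mw) := by ring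
    _ ≤ y / c / √mv * (p / √mw) := by
      rw [h6]
      gcongr

theorem schur_side (E : Finset (ℕ × ℕ)) (f g : ℕ × ℕ → ℕ) (V : Finset ℕ) (N : ℕ) (m d : ℕ → ℕ)
    (μ Y β : ℕ → ℝ) (c σ : ℝ) (hc : 0 ≤ c) (hμ : ∀ v ∈ V, 0 ≤ μ v) (hY : ∀ v ∈ V, 0 < Y v)
    (hm : ∀ v ∈ V, 0 < m v) (hf : ∀ e ∈ E, f e ∈ V)
    (hinj : ∀ e ∈ E, ∀ e' ∈ E, f e = f e' → m (g e) = m (g e') → d (g e) = d (g e') → e = e')
    (hpt : ∀ e ∈ E, μ (g e) * β (g e) ≤ c / √(m (f e)) * (pw N (d (g e)) / √(m (g e))))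
    (hn : ∀ v ∈ V, nb N ((E.filter fun e => f e = v).image fun e => (m (g e), d (g e))) ≤
      σ * √(Y v)) :
    ∑ e ∈ E, μ (f e) * μ (g e) * (β (g e) / (√(Y (f e)) / √(m (f e)))) ≤ c * σ * ∑ v ∈ V, μ v := by
  rw [← sum_fiberwise_of_maps_to hf, mul_sum]
  refine sum_le_sum fun v hv => ?_
  have h1 : 0 < √(Y v) := sqrt_pos.2 (hY v hv)
  have h2 : 0 < √(m v : ℝ) := sqrt_pos.2 (by exact_mod_cast hm v hv)
  have h0 := hμ v hv
  have h3 := hn v hv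
  rw [nb, sum_image (fun e he e' he' h => hinj e (mem_filter.1 he).1 e' (mem_filter.1 he').1
    ((mem_filter.1 he).2.trans (mem_filter.1 he').2.symm) (congrArg Prod.fst h)
    (congrArg Prod.snd h))] at h3
  calc ∑ e ∈ E with f e = v, μ (f e) * μ (g e) * (β (g e) / (√(Y (f e)) / √(m (f e))))
      ≤ ∑ e ∈ E with f e = v, μ v * c / √(Y v) * (pw N (d (g e)) / √(m (g e))) := by
        refine sum_le_sum fun e he => ?_
        have h4 := hpt e (mem_filter.1 he).1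
        rw [(mem_filter.1 he).2] at h4 ⊢
        calc μ v * μ (g e) * (β (g e) / (√(Y v) / √(m v)))
            = μ v * √(m v) / √(Y v) * (μ (g e) * β (g e)) := by field_simp
          _ ≤ μ v * √(m v) / √(Y v) * (c / √(m v) * (pw N (d (g e)) / √(m (g e)))) := by gcongr
          _ = _ := by field_simp
    _ ≤ μ v * c / √(Y v) * (σ * √(Y v)) := by
        rw [← mul_sum]
        gcongr
    _ = c * σ * μ v := by field_simp

theorem schur_sq {x z : ℝ} (h : x ^ 2 ≤ z ^ 2) (hz : 0 ≤ z) : x ≤ z :=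
  (abs_le_of_sq_le_sq' h hz).2

theorem schur {V W : Finset ℕ} {E : Finset (ℕ × ℕ)} {a b N : ℕ} {m d : ℕ → ℕ}
    (hC : Clu V W E a b N m d) (ψ : ℕ → ℝ) (hV : ∀ v ∈ V, 0 < ψ v) (hW : ∀ w ∈ W, 0 < ψ w)
    (y : ℝ) (hy : 0 < y) (hD : ∀ e ∈ E, DD ψ e.1 e.2 ≤ y) (σ₁ σ₂ : ℝ) (h1 : 0 ≤ σ₁) (h2 : 0 ≤ σ₂)
    (n1 : ∀ v ∈ V, nb N ((E.filter fun e => e.1 = v).image fun e => (m e.2, d e.2)) ≤
      σ₁ * √(y / (ψ v * b * d v)))
    (n2 : ∀ w ∈ W, nb N ((E.filter fun e => e.2 = w).image fun e => (m e.1, d e.1)) ≤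
      σ₂ * √(y / (ψ w * a * d w))) :
    ms (wt ψ) E ≤ y / √((a : ℝ) * b) * √(σ₁ * σ₂) *
      √((∑ v ∈ V, wt ψ v) * ∑ w ∈ W, wt ψ w) := by
  have ha : (0 : ℝ) < a := by exact_mod_cast hC.apos
  have hb : (0 : ℝ) < b := by exact_mod_cast hC.bpos
  have hdV : ∀ v ∈ V, (0 : ℝ) < d v := fun v hv => by
    exact_mod_cast Nat.pos_of_dvd_of_pos (hC.vV v hv).2.2.1 hC.Npos
  have hdW : ∀ w ∈ W, (0 : ℝ) < d w := fun w hw => by
    exact_mod_cast Nat.pos_of_dvd_of_pos (hC.vW w hw).2.2.1 hC.Npos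
  have hmV : ∀ v ∈ V, (0 : ℝ) < m v := fun v hv => by exact_mod_cast (hC.vV v hv).2.1
  have hmW : ∀ w ∈ W, (0 : ℝ) < m w := fun w hw => by exact_mod_cast (hC.vW w hw).2.1
  have hYV : ∀ v ∈ V, 0 < y / (ψ v * b * d v) := fun v hv => by
    have := hV v hv
    have := hdV v hv
    positivity
  have hYW : ∀ w ∈ W, 0 < y / (ψ w * a * d w) := fun w hw => by
    have := hW w hw
    have := hdW w hw
    positivity
  have s1 := schur_side E Prod.fst Prod.snd V N m d (wt ψ) (fun v => y / (ψ v * b * d v))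
    (fun w => √(y / (ψ w * a * d w)) / √(m w)) (y / a) σ₁ (by positivity)
    (fun v hv => wt_nonneg (hV v hv).le) hYV (fun v hv => (hC.vV v hv).2.1)
    (fun e he => (hC.edge e he).1)
    (fun e he e' he' h1 h2 h3 => Prod.ext h1
      (hC.injW _ (hC.edge e he).2.1 _ (hC.edge e' he').2.1 h2 h3))
    (fun e he => by
      obtain ⟨e1, e2, e3, -, -⟩ := hC.edge e he
      obtain ⟨w1, -, w3, w4⟩ := hC.vW _ e2
      refine schur_pt (pw_nonneg _ _) (hdW _ e2) (hW _ e2) ha hy (hmV _ e1) (hmW _ e2)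
        (wt_le_pw ψ N _ _ hC.Npos w3 w1 w4 (hW _ e2).le) ?_
      have := (le_max_right _ _).trans (hD e he)
      rw [e3] at this
      exact_mod_cast this) n1
  have s2 := schur_side E Prod.snd Prod.fst W N m d (wt ψ) (fun w => y / (ψ w * a * d w))
    (fun v => √(y / (ψ v * b * d v)) / √(m v)) (y / b) σ₂ (by positivity)
    (fun w hw => wt_nonneg (hW w hw).le) hYW (fun w hw => (hC.vW w hw).2.1)
    (fun e he => (hC.edge e he).2.1)
    (fun e he e' he' h1 h2 h3 => Prod.ext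
      (hC.injV _ (hC.edge e he).1 _ (hC.edge e' he').1 h2 h3) h1)
    (fun e he => by
      obtain ⟨e1, e2, -, e4, -⟩ := hC.edge e he
      obtain ⟨w1, -, w3, w4⟩ := hC.vV _ e1
      refine schur_pt (pw_nonneg _ _) (hdV _ e1) (hV _ e1) hb hy (hmW _ e2) (hmV _ e1)
        (wt_le_pw ψ N _ _ hC.Npos w3 w1 w4 (hV _ e1).le) ?_
      have := (le_max_left _ _).trans (hD e he)
      rw [e4] at this
      exact_mod_cast this) n2
  have hpos : ∀ e ∈ E, 0 < √(y / (ψ e.1 * b * d e.1)) / √(m e.1) ∧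
      0 < √(y / (ψ e.2 * a * d e.2)) / √(m e.2) ∧ 0 ≤ wt ψ e.1 ∧ 0 ≤ wt ψ e.2 := fun e he =>
    ⟨div_pos (sqrt_pos.2 (hYV _ (hC.edge e he).1)) (sqrt_pos.2 (hmV _ (hC.edge e he).1)),
      div_pos (sqrt_pos.2 (hYW _ (hC.edge e he).2.1)) (sqrt_pos.2 (hmW _ (hC.edge e he).2.1)),
      wt_nonneg (hV _ (hC.edge e he).1).le, wt_nonneg (hW _ (hC.edge e he).2.1).le⟩
  have cs := sum_sq_le_sum_mul_sum_of_sq_le_mul E (r := fun e => wt ψ e.1 * wt ψ e.2)
    (f := fun e => wt ψ e.1 * wt ψ e.2 *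
      (√(y / (ψ e.2 * a * d e.2)) / √(m e.2) / (√(y / (ψ e.1 * b * d e.1)) / √(m e.1))))
    (g := fun e => wt ψ e.2 * wt ψ e.1 *
      (√(y / (ψ e.1 * b * d e.1)) / √(m e.1) / (√(y / (ψ e.2 * a * d e.2)) / √(m e.2))))
    (fun e he => by
      obtain ⟨p1, p2, p3, p4⟩ := hpos e he
      positivity)
    (fun e he => by
      obtain ⟨p1, p2, p3, p4⟩ := hpos e he
      positivity)
    (fun e he => by
      obtain ⟨p1, p2, -, -⟩ := hpos e he
      generalize √(y / (ψ e.1 * b * d e.1)) / √(m e.1) = A at p1 ⊢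
      generalize √(y / (ψ e.2 * a * d e.2)) / √(m e.2) = B at p2 ⊢
      exact le_of_eq (by field_simp))
  have hA : 0 ≤ ∑ v ∈ V, wt ψ v := sum_nonneg fun v hv => wt_nonneg (hV v hv).le
  have hB : 0 ≤ ∑ w ∈ W, wt ψ w := sum_nonneg fun w hw => wt_nonneg (hW w hw).le
  have hfin := cs.trans (mul_le_mul s1 s2 (sum_nonneg fun e he => by
    obtain ⟨p1, p2, p3, p4⟩ := hpos e he
    positivity) (by positivity))
  refine schur_sq (hfin.trans_eq ?_) (by positivity)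
  rw [mul_pow, mul_pow, div_pow, sq_sqrt (by positivity), sq_sqrt (by positivity),
    sq_sqrt (by positivity)]
  field_simp

end Vale.Agent.P028
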