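import Vale.Agent.P028.One

/-! Sequential induction over the primes. -/

namespace Vale.Agent.P028

open Finset Real

theorem seq_inj {S X : Finset ℕ} {φ : ℕ → ℕ} (hi : Set.InjOn φ S) (hm : ∀ l ∈ S, φ l ∈ X)
    {f : ℕ → ℝ} (hf : ∀ x, 0 ≤ f x) : ∑ l ∈ S, f (φ l) ≤ ∑ x ∈ X, f x := by
  rw [← sum_image hi]
  exact sum_le_sum_of_subset_of_nonneg (image_subset_iff.2 hm) fun x _ _ => hf x

theorem seq_row {d : ℕ → ℕ → ℝ} (hd : ∀ e f, 0 ≤ d e f) {R i : ℕ} (hi : i ∈ range (R + 1)) :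
    ∑ l ∈ (range (R + 1)).erase i, d (i - l) (l - i) ≤
      ∑ e ∈ range R, (d (e + 1) 0 + d 0 (e + 1)) := by
  rw [← sum_filter_add_sum_filter_not _ (fun l => l < i), sum_add_distrib]
  rw [mem_range] at hi
  refine add_le_add (le_of_eq_of_le (sum_congr rfl fun l hl => ?_)
    (seq_inj (φ := fun l => i - l - 1) (f := fun e => d (e + 1) 0) ?_ ?_ fun _ => hd _ _))
    (le_of_eq_of_le (sum_congr rfl fun l hl => ?_)
      (seq_inj (φ := fun l => l - i - 1) (f := fun e => d 0 (e + 1)) ?_ ?_ fun _ => hd _ _))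
  · simp only [mem_filter] at hl
    rw [show i - l - 1 + 1 = i - l by omega, show l - i = 0 by omega]
  · intro l hl l' hl' e
    simp only [coe_filter, Set.mem_ofPred_eq] at hl hl' e
    omega
  · intro l hl
    simp only [mem_filter, mem_range] at hl ⊢
    omega
  · simp only [mem_filter, mem_erase] at hl
    rw [show l - i - 1 + 1 = l - i by omega, show i - l = 0 by omega]
  · intro l hl l' hl' e
    simp only [coe_filter, Set.mem_ofPred_eq, mem_erase] at hl hl' e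
    omega
  · intro l hl
    simp only [mem_filter, mem_range, mem_erase] at hl ⊢
    omega

/-- The geometric factor at `p`. -/
noncomputable def seqG (ε : ℝ) (p : ℕ) : ℝ :=
  2 * ((p : ℝ) ^ (-(ε / th ε)) / (1 - (p : ℝ) ^ (-(ε / th ε))))

theorem seq_kap {ε : ℝ} (h0 : 0 < ε) (h1 : ε ≤ 1 / 10) : ∃ (κ : ℕ → ℝ) (K : ℝ), 0 < K ∧
    (∀ p, 1 ≤ κ p) ∧ (∀ p, 26 * (16 / ε) ^ 3 * seqG ε p ^ th ε ≤ κ p) ∧
    ∀ U : Finset ℕ, ∏ p ∈ U, κ p ≤ K := by
  have ht : 0 < th ε := by linarith [th_ge h0 h1]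
  have l1 : Filter.Tendsto (fun p : ℕ => (p : ℝ) ^ (-(ε / th ε))) Filter.atTop (nhds 0) :=
    (tendsto_rpow_neg_atTop (div_pos h0 ht)).comp tendsto_natCast_atTop_atTop
  have l2 : Filter.Tendsto (seqG ε) Filter.atTop (nhds (2 * (0 / (1 - 0)))) :=
    (l1.div (l1.const_sub 1) (by norm_num)).const_mul 2
  have l3 := (l2.rpow_const (p := th ε) (Or.inr ht.le)).const_mul (26 * (16 / ε) ^ 3)
  rw [zero_div, mul_zero, zero_rpow ht.ne', mul_zero] at l3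
  obtain ⟨p₀, hp₀⟩ := Filter.eventually_atTop.1 (l3.eventually (ge_mem_nhds one_pos))
  set κ : ℕ → ℝ := fun p => max 1 (26 * (16 / ε) ^ 3 * seqG ε p ^ th ε) with hκ
  have hκ1 : ∀ p, 1 ≤ κ p := fun p => le_max_left _ _
  refine ⟨κ, ∏ p ∈ range p₀, κ p, prod_pos fun p _ => one_pos.trans_le (hκ1 p), hκ1,
    fun p => le_max_right _ _, fun U => ?_⟩
  rw [← prod_filter_of_ne (p := fun p => p < p₀) fun p _ h => by
    by_contra h2
    exact h (max_eq_left (hp₀ p (not_lt.1 h2)))]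
  exact prod_le_prod_of_subset_of_one_le (fun p hp => mem_range.2 (mem_filter.1 hp).2)
    (fun p _ => zero_le_one.trans (hκ1 p)) fun p _ _ => hκ1 p

theorem seq_lam {ε : ℝ} (h0 : 0 < ε) (h1 : ε ≤ 1 / 10) {p : ℕ} (hp : 2 ≤ p) {M x : ℝ} (hx : 0 ≤ x)
    {e : ℕ} (h : ((p : ℝ) ^ e) ^ (-(1 + ε)) * x ≤ M) :
    ((p : ℝ) ^ e) ^ (-(1 / 2 - ε)) * x ^ (1 / th ε) ≤
      M ^ (1 / th ε) * ((p : ℝ) ^ (-(ε / th ε))) ^ e := by
  have ht : 0 < th ε := by linarith [th_ge h0 h1]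
  have hp0 : (0 : ℝ) < p := by exact_mod_cast (by omega : 0 < p)
  have hq : (0 : ℝ) < (p : ℝ) ^ e := pow_pos hp0 e
  have h2 := rpow_le_rpow (by positivity) h (one_div_pos.2 ht).le
  rw [mul_rpow (by positivity) hx, ← rpow_mul hq.le] at h2
  have e1 : ((p : ℝ) ^ (-(ε / th ε))) ^ e = ((p : ℝ) ^ e) ^ (-(ε / th ε)) := by
    rw [← rpow_natCast, ← rpow_mul hp0.le, mul_comm, rpow_mul hp0.le, rpow_natCast]
  have e2 : -(1 / 2 - ε) = -(1 + ε) * (1 / th ε) + -(ε / th ε) := by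
    have h3 : (1 / 2 - ε) * th ε = 1 + 2 * ε := mul_div_cancel₀ _ (by linarith)
    field_simp
    linarith
  rw [e1, e2, rpow_add hq, mul_right_comm]
  exact mul_le_mul_of_nonneg_right h2 (by positivity)

theorem seq_real {ε : ℝ} (h0 : 0 < ε) (h1 : ε ≤ 1 / 10) {p : ℕ} (hp : 2 ≤ p) (R : ℕ)
    {g : ℕ → ℕ → ℝ} (hg : ∀ e f, 0 ≤ g e f) {α β : ℕ → ℝ} (hα : ∀ i, 0 ≤ α i) (hβ : ∀ i, 0 ≤ β i)
    (hα1 : ∑ i ∈ range (R + 1), α i ≤ 1) (hβ1 : ∑ i ∈ range (R + 1), β i ≤ 1) {T κ : ℝ}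
    (hκ1 : 1 ≤ κ) (hκ : 26 * (16 / ε) ^ 3 * seqG ε p ^ th ε ≤ κ) (hT0 : 0 ≤ T)
    {c : ℕ → ℕ → ℝ} (hc : ∀ i l, c i l = ((p : ℝ) ^ (i - l) * (p : ℝ) ^ (l - i)) ^ (-(1 / 2 - ε)) *
      g (i - l) (l - i) ^ (1 / th ε))
    (hT1 : T ≤ ∑ i ∈ range (R + 1), ∑ l ∈ range (R + 1),
      c i l * (α i ^ (1 / 2 + ε) * β l ^ (1 / 2 + ε)))
    (hT2 : ∀ k, T ≤ g 0 0 ^ (1 / th ε) + ∑ i ∈ (range (R + 1)).erase k,
      ∑ l ∈ (range (R + 1)).erase k, c i l * (α i ^ (1 / 2 + ε) * β l ^ (1 / 2 + ε))) :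
    T ≤ (κ * ∑ e ∈ range (R + 1), ∑ f ∈ range (R + 1),
      ((p : ℝ) ^ e * (p : ℝ) ^ f) ^ (-(1 + ε)) * g e f) ^ (1 / th ε) := by
  have ht : 0 < th ε := by linarith [th_ge h0 h1]
  have hp1 : (1 : ℝ) < p := by exact_mod_cast (by omega : 1 < p)
  have hp0 : (0 : ℝ) < p := by linarith
  set d : ℕ → ℕ → ℝ := fun e f =>
    ((p : ℝ) ^ e * (p : ℝ) ^ f) ^ (-(1 / 2 - ε)) * g e f ^ (1 / th ε) with hd
  have hd0 : ∀ e f, 0 ≤ d e f := fun e f =>
    mul_nonneg (by positivity) (rpow_nonneg (hg e f) _)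
  set w : ℕ → ℕ → ℝ := fun e f => ((p : ℝ) ^ e * (p : ℝ) ^ f) ^ (-(1 + ε)) * g e f with hw
  have hw0 : ∀ e f, 0 ≤ w e f := fun e f => mul_nonneg (by positivity) (hg e f)
  set M := ∑ e ∈ range R, (w (e + 1) 0 + w 0 (e + 1)) with hM
  have hM0 : 0 ≤ M := sum_nonneg fun e _ => add_nonneg (hw0 _ _) (hw0 _ _)
  set Λ := ∑ e ∈ range R, (d (e + 1) 0 + d 0 (e + 1)) with hΛ
  have hΛ0 : 0 ≤ Λ := sum_nonneg fun e _ => add_nonneg (hd0 _ _) (hd0 _ _)
  set ρ := (p : ℝ) ^ (-(ε / th ε)) with hρ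
  have hρ0 : 0 ≤ ρ := by positivity
  have hρ1 : ρ < 1 := rpow_lt_one_of_one_lt_of_neg hp1 (neg_lt_zero.2 (div_pos h0 ht))
  have hΛ1 : Λ ≤ seqG ε p * M ^ (1 / th ε) := by
    have k1 : ∀ e ∈ range R, d (e + 1) 0 + d 0 (e + 1) ≤ 2 * M ^ (1 / th ε) * ρ * ρ ^ e := by
      intro e he
      have k2 := single_le_sum (f := fun e => w (e + 1) 0 + w 0 (e + 1))
        (fun e _ => add_nonneg (hw0 _ _) (hw0 _ _)) he
      have k3 : w (e + 1) 0 ≤ M := (le_add_of_nonneg_right (hw0 _ _)).trans k2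
      have k4 : w 0 (e + 1) ≤ M := (le_add_of_nonneg_left (hw0 _ _)).trans k2
      simp only [hw, hd, pow_zero, mul_one, one_mul] at k3 k4 ⊢
      have k5 := seq_lam h0 h1 hp (hg _ _) k3
      have k6 := seq_lam h0 h1 hp (hg _ _) k4
      rw [← hρ, pow_succ ρ] at k5 k6
      linarith
    refine (sum_le_sum k1).trans ?_
    rw [← mul_sum]
    refine (mul_le_mul_of_nonneg_left ((summable_geometric_of_lt_one hρ0 hρ1).sum_le_tsum _
      fun _ _ => pow_nonneg hρ0 _) (by positivity)).trans (le_of_eq ?_)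
    rw [tsum_geometric_of_lt_one hρ0 hρ1, seqG, ← hρ]
    ring
  have hG0 : 0 ≤ seqG ε p := mul_nonneg zero_le_two (div_nonneg hρ0 (sub_nonneg.2 hρ1.le))
  have hΛ2 : Λ ^ th ε ≤ seqG ε p ^ th ε * M := by
    refine (rpow_le_rpow hΛ0 hΛ1 ht.le).trans (le_of_eq ?_)
    rw [mul_rpow hG0 (rpow_nonneg hM0 _), one_div, rpow_inv_rpow hM0 ht.ne']
  have hcd : c = fun i l => d (i - l) (l - i) := funext fun i => funext fun l => hc i l
  have key := one_prime ε h0 h1 (range (R + 1)) nonempty_range_add_one α β c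
    (g 0 0 ^ (1 / th ε)) Λ T hα hβ hα1 hβ1 (fun i l => hcd ▸ hd0 _ _) (rpow_nonneg (hg _ _) _) hΛ0
    (fun i _ => by simp [hc]) (fun i hi => hcd ▸ seq_row hd0 hi)
    (fun l hl => hcd ▸ (seq_row (d := fun e f => d f e) (fun e f => hd0 f e) hl).trans
      (le_of_eq (sum_congr rfl fun _ _ => add_comm _ _))) hT0 hT1 fun k _ => hT2 k
  rw [one_div, rpow_inv_rpow (hg _ _) ht.ne'] at key
  have hs : g 0 0 + M ≤ ∑ e ∈ range (R + 1), ∑ f ∈ range (R + 1), w e f := by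
    rw [sum_range_succ', sum_range_succ' (w 0), hM, sum_add_distrib]
    have k1 : ∑ e ∈ range R, w (e + 1) 0 ≤ ∑ e ∈ range R, ∑ f ∈ range (R + 1), w (e + 1) f :=
      sum_le_sum fun e _ => single_le_sum (fun f _ => hw0 _ f) (mem_range.2 R.succ_pos)
    have k2 : w 0 0 = g 0 0 := by simp [hw]
    linarith
  rw [one_div, le_rpow_inv_iff_of_pos hT0
    (mul_nonneg (by linarith) (sum_nonneg fun e _ => sum_nonneg fun f _ => hw0 e f)) ht]
  refine key.trans (le_trans ?_ (mul_le_mul_of_nonneg_left hs (by linarith)))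
  have k1 := mul_le_mul_of_nonneg_left hΛ2 (by positivity : 0 ≤ 26 * (16 / ε) ^ 3)
  have k2 := mul_le_mul_of_nonneg_right hκ hM0
  have k3 := mul_le_mul_of_nonneg_right hκ1 (hg 0 0)
  rw [← mul_assoc] at k1
  rw [mul_add]
  linarith

/-- The potential attached to a set of multipliers. -/
noncomputable def seqF (ε : ℝ) (s : ℕ → ℕ → ℝ) (T : Finset (ℕ × ℕ)) (a b : ℕ) : ℝ :=
  ∑ t ∈ T, ((t.1 : ℝ) * t.2) ^ (-(1 + ε)) * s (t.1 * a) (t.2 * b) ^ th ε

theorem seqF_nonneg (ε : ℝ) {s : ℕ → ℕ → ℝ} (hs : ∀ a b, 0 ≤ s a b) (T : Finset (ℕ × ℕ))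
    (a b : ℕ) : 0 ≤ seqF ε s T a b :=
  sum_nonneg fun _ _ => mul_nonneg (by positivity) (rpow_nonneg (hs _ _) _)

theorem seq_pow_inj {p e f a b : ℕ} (hp : p.Prime) (ha : ¬p ∣ a) (hb : ¬p ∣ b)
    (h : p ^ e * a = p ^ f * b) : e = f ∧ a = b := by
  have ha0 : a ≠ 0 := fun h0 => ha (h0 ▸ dvd_zero p)
  have hb0 : b ≠ 0 := fun h0 => hb (h0 ▸ dvd_zero p)
  have h1 := congrArg (fun n => n.factorization p) h
  simp only [Nat.factorization_mul (pow_ne_zero _ hp.ne_zero) ha0,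
    Nat.factorization_mul (pow_ne_zero _ hp.ne_zero) hb0, hp.factorization_pow, Finsupp.add_apply,
    Finsupp.single_eq_same, Nat.factorization_eq_zero_of_not_dvd ha,
    Nat.factorization_eq_zero_of_not_dvd hb, add_zero] at h1
  subst h1
  exact ⟨rfl, Nat.eq_of_mul_eq_mul_left (pow_pos hp.pos _) h⟩

theorem seqF_step (ε : ℝ) (s : ℕ → ℕ → ℝ) {T : Finset (ℕ × ℕ)} {p : ℕ} (hp : p.Prime)
    (hT : ∀ t ∈ T, ¬p ∣ t.1 * t.2) (I : Finset ℕ) (a b : ℕ) :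
    seqF ε s (((I ×ˢ I) ×ˢ T).image fun x => (p ^ x.1.1 * x.2.1, p ^ x.1.2 * x.2.2)) a b =
      ∑ e ∈ I, ∑ f ∈ I, ((p : ℝ) ^ e * (p : ℝ) ^ f) ^ (-(1 + ε)) *
        seqF ε s T (p ^ e * a) (p ^ f * b) := by
  unfold seqF
  rw [sum_image, sum_product, sum_product]
  · refine sum_congr rfl fun e _ => sum_congr rfl fun f _ => ?_
    rw [mul_sum]
    refine sum_congr rfl fun t _ => ?_
    simp only [Nat.cast_mul, Nat.cast_pow]
    rw [mul_mul_mul_comm, mul_rpow (x := (p : ℝ) ^ e * (p : ℝ) ^ f) (by positivity) (by positivity),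
      mul_left_comm t.1, mul_left_comm t.2, mul_assoc (p ^ e), mul_assoc (p ^ f), mul_assoc]
  · rintro ⟨⟨e, f⟩, t⟩ hx ⟨⟨e', f'⟩, t'⟩ hx' h
    have h1 := hT t (mem_product.1 hx).2
    have h2 := hT t' (mem_product.1 hx').2
    obtain ⟨k1, k2⟩ := seq_pow_inj hp (fun k => h1 (k.mul_right _)) (fun k => h2 (k.mul_right _))
      (congrArg Prod.fst h)
    obtain ⟨k3, k4⟩ := seq_pow_inj hp (fun k => h1 (k.mul_left _)) (fun k => h2 (k.mul_left _))
      (congrArg Prod.snd h)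
    exact Prod.ext (Prod.ext k1 k3) (Prod.ext k2 k4)

theorem seq_split (μ : ℕ → ℝ) (E : Finset (ℕ × ℕ)) (p : ℕ) (J : Finset ℕ)
    (h : ∀ e ∈ E, e.1.factorization p ∈ J ∧ e.2.factorization p ∈ J) :
    ms μ E = ∑ i ∈ J, ∑ l ∈ J,
      ms μ (E.filter fun e => e.1.factorization p = i ∧ e.2.factorization p = l) := by
  unfold ms
  rw [← sum_product', ← sum_fiberwise_of_maps_to (t := J ×ˢ J)
    (g := fun e : ℕ × ℕ => (e.1.factorization p, e.2.factorization p))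
    fun e he => mem_product.2 (h e he)]
  exact sum_congr rfl fun x _ => sum_congr (filter_congr fun e _ => Prod.ext_iff) fun _ _ => rfl

/-- Fixing the valuations at one more prime. -/
def Pat.seqA (pt : Pat) (p i l : ℕ) : Pat :=
  ⟨insert p pt.F, pt.C, Function.update pt.i p i, Function.update pt.j p l, pt.k⟩

/-- Concentrating the valuations at one more prime. -/
def Pat.seqB (pt : Pat) (p k : ℕ) : Pat :=
  ⟨pt.F, insert p pt.C, pt.i, pt.j, Function.update pt.k p k⟩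

theorem Pat.seqA_a {pt : Pat} {p : ℕ} (hp : p ∉ pt.F) (i l : ℕ) :
    (pt.seqA p i l).a = p ^ (i - l) * pt.a := by
  unfold Pat.a Pat.seqA
  rw [prod_insert hp]
  simp only [Function.update_self]
  refine congrArg _ (prod_congr rfl fun q hq => ?_)
  have : q ≠ p := fun e => hp (e ▸ hq)
  rw [Function.update_of_ne this, Function.update_of_ne this]

theorem Pat.seqA_b {pt : Pat} {p : ℕ} (hp : p ∉ pt.F) (i l : ℕ) :
    (pt.seqA p i l).b = p ^ (l - i) * pt.b := by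
  unfold Pat.b Pat.seqA
  rw [prod_insert hp]
  simp only [Function.update_self]
  refine congrArg _ (prod_congr rfl fun q hq => ?_)
  have : q ≠ p := fun e => hp (e ▸ hq)
  rw [Function.update_of_ne this, Function.update_of_ne this]

theorem Pat.seqA_fits {pt : Pat} {p : ℕ} (hp : p ∉ pt.F) (i l : ℕ) {V W : Finset ℕ}
    {E E' : Finset (ℕ × ℕ)} (h : pt.Fits V W E) (hE : E' ⊆ E) :
    (pt.seqA p i l).Fits (V.filter fun v => v.factorization p = i)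
      (W.filter fun v => v.factorization p = l)
      (E'.filter fun e => e.1.factorization p = i ∧ e.2.factorization p = l) := by
  refine ⟨fun v hv q hq => ?_, fun v hv q hq => ?_, fun e he => ?_⟩
  · rcases mem_insert.1 hq with rfl | hq
    · exact (mem_filter.1 hv).2.trans (Function.update_self _ _ pt.i).symm
    · exact (h.1 v (mem_filter.1 hv).1 q hq).trans
        (Function.update_of_ne (fun e : q = p => hp (e ▸ hq)) _ _).symm
  · rcases mem_insert.1 hq with rfl | hq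
    · exact (mem_filter.1 hv).2.trans (Function.update_self _ _ pt.j).symm
    · exact (h.2.1 v (mem_filter.1 hv).1 q hq).trans
        (Function.update_of_ne (fun e : q = p => hp (e ▸ hq)) _ _).symm
  · obtain ⟨h1, h2, h3⟩ := mem_filter.1 he
    obtain ⟨h4, h5, h6⟩ := h.2.2 e (hE h1)
    exact ⟨mem_filter.2 ⟨h4, h2⟩, mem_filter.2 ⟨h5, h3⟩, h6⟩

theorem Pat.seqB_fits {pt : Pat} {p : ℕ} (hp : p ∉ pt.C) (k : ℕ) {V W : Finset ℕ}
    {E : Finset (ℕ × ℕ)} (h : pt.Fits V W E) :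
    (pt.seqB p k).Fits V W (E.filter fun e =>
      (e.1.factorization p ≤ k ∧ k ≤ e.2.factorization p) ∨
        (e.2.factorization p ≤ k ∧ k ≤ e.1.factorization p)) := by
  refine ⟨h.1, h.2.1, fun e he => ?_⟩
  obtain ⟨h1, h2⟩ := mem_filter.1 he
  obtain ⟨h4, h5, h6⟩ := h.2.2 e h1
  refine ⟨h4, h5, fun q hq => ?_⟩
  rcases mem_insert.1 hq with rfl | hq
  · simpa only [Pat.seqB, Function.update_self] using h2
  · simpa only [Pat.seqB, Function.update_of_ne fun e : q = p => hp (e ▸ hq)] using h6 q hq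

theorem seq_fac (v p : ℕ) : v.factorization p ≤ v := by
  rcases eq_or_ne v 0 with rfl | h
  · simp
  · exact (Nat.factorization_lt p h).le

theorem seq_frac {μ : ℕ → ℝ} (hμ : ∀ v, 0 ≤ μ v) (V : Finset ℕ) (g : ℕ → ℕ) :
    ∃ α : ℕ → ℝ, (∀ i, 0 ≤ α i) ∧ (∀ I : Finset ℕ, ∑ i ∈ I, α i ≤ 1) ∧
      ∀ i, ∑ v ∈ V.filter (fun v => g v = i), μ v = (∑ v ∈ V, μ v) * α i := by
  have h0 : 0 ≤ ∑ v ∈ V, μ v := sum_nonneg fun v _ => hμ v
  have h1 : ∀ i, 0 ≤ ∑ v ∈ V.filter (fun v => g v = i), μ v :=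
    fun i => sum_nonneg fun v _ => hμ v
  refine ⟨fun i => (∑ v ∈ V.filter (fun v => g v = i), μ v) / ∑ v ∈ V, μ v,
    fun i => div_nonneg (h1 i) h0, fun I => ?_,
    fun i => (mul_div_cancel_of_imp' fun e => le_antisymm (e ▸ ?_) (h1 i)).symm⟩
  · rw [← sum_div]
    exact div_le_one_of_le₀ (sum_fiberwise_le_sum_of_sum_fiber_nonneg fun i _ => h1 i) h0
  · exact sum_le_sum_of_subset_of_nonneg (filter_subset _ _) fun v _ _ => hμ v

theorem seq (ε : ℝ) (h0 : 0 < ε) (h1 : ε ≤ 1 / 10) : ∃ K : ℝ, 0 < K ∧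
    ∀ (P : Finset ℕ), (∀ p ∈ P, p.Prime) → ∀ (μ : ℕ → ℝ), (∀ v, 0 ≤ μ v) →
    ∀ (V W : Finset ℕ) (E : Finset (ℕ × ℕ)), (∀ e ∈ E, e.1 ∈ V ∧ e.2 ∈ W) →
    ∀ (s : ℕ → ℕ → ℝ), (∀ a b, 0 ≤ s a b) → ∀ S : ℝ,
    (∀ T : Finset (ℕ × ℕ), (∀ t ∈ T, 0 < t.1 ∧ 0 < t.2) →
      ∑ t ∈ T, ((t.1 : ℝ) * t.2) ^ (-(1 + ε)) * s t.1 t.2 ^ th ε ≤ S) →
    (∀ pt : Pat, Disjoint pt.F pt.C → pt.F ∪ pt.C = P → ∀ V' ⊆ V, ∀ W' ⊆ W, ∀ E' ⊆ E,
      pt.Fits V' W' E' → ms μ E' ≤ s pt.a pt.b * ((pt.a : ℝ) * pt.b) ^ (-(1 / 2 - ε)) *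
        ((∑ v ∈ V', μ v) * ∑ w ∈ W', μ w) ^ (1 / 2 + ε)) →
    ms μ E ≤ (K * S) ^ (1 / th ε) * ((∑ v ∈ V, μ v) * ∑ w ∈ W, μ w) ^ (1 / 2 + ε) := by
  obtain ⟨κ, K, hK, hκ1, hκ2, hκ3⟩ := seq_kap h0 h1
  refine ⟨K, hK, fun P hP μ hμ V W E hE s hs S hS hb => ?_⟩
  have ht : 0 < th ε := by linarith [th_ge h0 h1]
  have hm : ∀ X : Finset ℕ, 0 ≤ ∑ v ∈ X, μ v := fun X => sum_nonneg fun v _ => hμ v
  have hκ0 : ∀ U : Finset ℕ, 0 ≤ ∏ p ∈ U, κ p :=
    fun U => prod_nonneg fun p _ => zero_le_one.trans (hκ1 p)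
  set R := (V ∪ W).sup id with hR
  have hRle : ∀ v ∈ V ∪ W, ∀ p, v.factorization p ∈ range (R + 1) := fun v hv p =>
    mem_range.2 (Nat.lt_succ_of_le ((seq_fac v p).trans
      (le_sup (f := id) hv)))
  have main : ∀ U : Finset ℕ, U ⊆ P → ∃ T : Finset (ℕ × ℕ),
      (∀ t ∈ T, (0 < t.1 ∧ 0 < t.2) ∧ ∀ q, q.Prime → q ∣ t.1 * t.2 → q ∈ U) ∧
      ∀ pt : Pat, Disjoint pt.F pt.C → pt.F ∪ pt.C = P \ U → ∀ V' ⊆ V, ∀ W' ⊆ W, ∀ E' ⊆ E,
        pt.Fits V' W' E' → ms μ E' ≤ ((∏ p ∈ U, κ p) * seqF ε s T pt.a pt.b) ^ (1 / th ε) *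
          (((pt.a : ℝ) * pt.b) ^ (-(1 / 2 - ε)) *
            ((∑ v ∈ V', μ v) * ∑ w ∈ W', μ w) ^ (1 / 2 + ε)) := by
    intro U
    induction U using Finset.induction_on with
    | empty =>
      refine fun _ => ⟨{(1, 1)}, fun t ht => ?_, fun pt k1 k2 V' hV W' hW E' hE' hf => ?_⟩
      · rw [mem_singleton.1 ht]
        exact ⟨⟨one_pos, one_pos⟩, fun q hq h => absurd h hq.not_dvd_one⟩
      · rw [sdiff_empty] at k2
        refine (hb pt k1 k2 V' hV W' hW E' hE' hf).trans (le_of_eq ?_)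
        simp only [seqF, prod_empty, sum_singleton, Nat.cast_one, one_mul, one_rpow, mul_assoc]
        rw [one_div (th ε), rpow_rpow_inv (hs _ _) ht.ne']
    | insert p U hpU ih =>
      intro hU
      have hpP : p ∈ P := hU (mem_insert_self _ _)
      have hp := hP p hpP
      obtain ⟨T, hT, ih⟩ := ih ((subset_insert _ _).trans hU)
      refine ⟨((range (R + 1) ×ˢ range (R + 1)) ×ˢ T).image
        fun x => (p ^ x.1.1 * x.2.1, p ^ x.1.2 * x.2.2), fun t ht => ?_,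
        fun pt k1 k2 V' hV W' hW E' hE' hf => ?_⟩
      · obtain ⟨x, hx, rfl⟩ := mem_image.1 ht
        obtain ⟨⟨k1, k2⟩, k3⟩ := hT x.2 (mem_product.1 hx).2
        refine ⟨⟨mul_pos (pow_pos hp.pos _) k1, mul_pos (pow_pos hp.pos _) k2⟩, fun q hq h => ?_⟩
        rw [mul_mul_mul_comm, ← pow_add, hq.dvd_mul] at h
        rcases h with h | h
        · rw [(Nat.prime_dvd_prime_iff_eq hq hp).1 (hq.dvd_of_dvd_pow h)]
          exact mem_insert_self _ _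
        · exact mem_insert_of_mem (k3 q hq h)
      have hpn : p ∉ pt.F ∪ pt.C := fun h => (mem_sdiff.1 (k2 ▸ h)).2 (mem_insert_self _ _)
      have hpF : p ∉ pt.F := fun h => hpn (mem_union_left _ h)
      have hpC : p ∉ pt.C := fun h => hpn (mem_union_right _ h)
      have hins : insert p (pt.F ∪ pt.C) = P \ U := by
        rw [k2, sdiff_insert, insert_erase (mem_sdiff.2 ⟨hpP, hpU⟩)]
      obtain ⟨α, hα, hα1, hα2⟩ := seq_frac hμ V' fun v => v.factorization p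
      obtain ⟨β, hβ, hβ1, hβ2⟩ := seq_frac hμ W' fun v => v.factorization p
      set g : ℕ → ℕ → ℝ := fun e f => (∏ p ∈ U, κ p) * seqF ε s T (p ^ e * pt.a) (p ^ f * pt.b)
        with hg
      have hg0 : ∀ e f, 0 ≤ g e f := fun e f => mul_nonneg (hκ0 U) (seqF_nonneg ε hs _ _ _)
      set c : ℕ → ℕ → ℝ := fun i l => ((p : ℝ) ^ (i - l) * (p : ℝ) ^ (l - i)) ^ (-(1 / 2 - ε)) *
        g (i - l) (l - i) ^ (1 / th ε) with hc
      set D := ((pt.a : ℝ) * pt.b) ^ (-(1 / 2 - ε)) *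
        ((∑ v ∈ V', μ v) * ∑ w ∈ W', μ w) ^ (1 / 2 + ε) with hD
      have hD0 : 0 ≤ D := mul_nonneg (by positivity) (rpow_nonneg (mul_nonneg (hm _) (hm _)) _)
      have hA : ∀ E'' ⊆ E', ∀ J : Finset ℕ,
          (∀ e ∈ E'', e.1.factorization p ∈ J ∧ e.2.factorization p ∈ J) →
          ms μ E'' ≤ (∑ i ∈ J, ∑ l ∈ J, c i l * (α i ^ (1 / 2 + ε) * β l ^ (1 / 2 + ε))) * D := by
        intro E'' hE'' J hJ
        rw [seq_split μ E'' p J hJ, sum_mul]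
        refine sum_le_sum fun i _ => ?_
        rw [sum_mul]
        refine sum_le_sum fun l _ => ?_
        refine (ih (pt.seqA p i l) (disjoint_insert_left.2 ⟨hpC, k1⟩)
          ((insert_union _ _ _).trans hins) _ ((filter_subset _ _).trans hV) _
          ((filter_subset _ _).trans hW) _ ((filter_subset _ _).trans (hE''.trans hE'))
          (Pat.seqA_fits hpF i l hf hE'')).trans (le_of_eq ?_)
        rw [Pat.seqA_a hpF, Pat.seqA_b hpF, hα2, hβ2, mul_mul_mul_comm _ (α i),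
          mul_rpow (mul_nonneg (hm _) (hm _)) (mul_nonneg (hα i) (hβ l)), mul_rpow (hα i) (hβ l),
          Nat.cast_mul, Nat.cast_mul, Nat.cast_pow, Nat.cast_pow, mul_mul_mul_comm _ (pt.a : ℝ),
          mul_rpow (y := (pt.a : ℝ) * pt.b) (by positivity) (by positivity)]
        simp only [hc, hg, hD]
        ring
      have hI : ∀ e ∈ E', e.1.factorization p ∈ range (R + 1) ∧
          e.2.factorization p ∈ range (R + 1) := fun e he =>
        ⟨hRle _ (mem_union_left _ (hE e (hE' he)).1) p,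
          hRle _ (mem_union_right _ (hE e (hE' he)).2) p⟩
      have hT1 := hA E' Subset.rfl _ hI
      rcases hD0.eq_or_lt with hD1 | hD1
      · rw [← hD1, mul_zero] at hT1 ⊢
        exact hT1
      rw [← div_le_iff₀ hD1] at hT1 ⊢
      rw [seqF_step ε s hp (fun t ht h => hpU ((hT t ht).2 p hp h)), prod_insert hpU, mul_assoc,
        mul_sum]
      refine (seq_real h0 h1 hp.two_le R hg0 hα hβ (hα1 _) (hβ1 _) (hκ1 p) (hκ2 p)
        (div_nonneg (sum_nonneg fun e _ => mul_nonneg (hμ _) (hμ _)) hD0) (fun _ _ => rfl) hT1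
        fun k => ?_).trans (le_of_eq ?_)
      · rw [div_le_iff₀ hD1, add_mul]
        refine (sum_filter_add_sum_filter_not E' (fun e =>
          (e.1.factorization p ≤ k ∧ k ≤ e.2.factorization p) ∨
            (e.2.factorization p ≤ k ∧ k ≤ e.1.factorization p)) _).ge.trans
          (add_le_add ?_ (hA _ (filter_subset _ _) _ fun e he => ?_))
        · simp only [hg, pow_zero, one_mul]
          exact ih (pt.seqB p k) (disjoint_insert_right.2 ⟨hpF, k1⟩)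
            ((union_insert _ _ _).trans hins) _ hV _ hW _ ((filter_subset _ _).trans hE')
            (Pat.seqB_fits hpC k hf)
        · obtain ⟨k3, k4⟩ := mem_filter.1 he
          exact ⟨mem_erase.2 ⟨by omega, (hI e k3).1⟩, mem_erase.2 ⟨by omega, (hI e k3).2⟩⟩
      · refine congrArg (fun x => (κ p * x) ^ (1 / th ε)) (sum_congr rfl fun e _ => ?_)
        rw [mul_sum]
        exact sum_congr rfl fun f _ => mul_left_comm _ _ _
  obtain ⟨T, hT, h⟩ := main P Subset.rfl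
  have h2 := h ⟨∅, ∅, 0, 0, 0⟩ (disjoint_empty_left _) (by simp) V Subset.rfl W Subset.rfl E
    Subset.rfl ⟨fun _ _ _ h => absurd h (notMem_empty _), fun _ _ _ h => absurd h (notMem_empty _),
      fun e he => ⟨(hE e he).1, (hE e he).2, fun _ h => absurd h (notMem_empty _)⟩⟩
  simp only [Pat.a, Pat.b, prod_empty, Nat.cast_one, mul_one, one_rpow, one_mul] at h2
  refine h2.trans (mul_le_mul_of_nonneg_right (rpow_le_rpow
    (mul_nonneg (hκ0 P) (seqF_nonneg ε hs _ _ _)) (mul_le_mul (hκ3 P) ?_ (seqF_nonneg ε hs _ _ _)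
      hK.le) (one_div_pos.2 ht).le) (rpow_nonneg (mul_nonneg (hm _) (hm _)) _))
  simpa only [seqF, mul_one] using hS T fun t ht => (hT t ht).1

end Vale.Agent.P028
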